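import Vale.Agent.Lib.P075.Final

open MeasureTheory

namespace Vale.Agent.Lib.P075

/-- A measurable replacement of a bounded compactly supported almost everywhere measurable
function. -/
lemma exists_good_version {F : ℝ × ℝ → ℝ} (hF : AEMeasurable F) {M : ℝ} (bF : ∀ p, |F p| ≤ M)
    (cF : HasCompactSupport F) :
    ∃ G : ℝ × ℝ → ℝ, Measurable G ∧ (∀ p, |G p| ≤ M) ∧ HasCompactSupport G ∧ G =ᵐ[volume] F := by
  have hM : 0 ≤ M := (abs_nonneg _).trans (bF 0)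
  set H : ℝ × ℝ → ℝ := fun p => max (-M) (min M (hF.mk F p)) with hH
  have mH : Measurable H := measurable_const.max (measurable_const.min hF.measurable_mk)
  have bH : ∀ p, |H p| ≤ M := by
    intro p
    simp only [hH]
    rw [abs_le]
    constructor
    · exact le_max_left _ _
    · exact max_le (by linarith) (min_le_left _ _)
  have eH : H =ᵐ[volume] F := by
    filter_upwards [hF.ae_eq_mk] with p hp
    simp only [hH]
    rw [← hp]
    have := abs_le.mp (bF p)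
    rw [min_eq_right this.2, max_eq_right this.1]
  set K : Set (ℝ × ℝ) := tsupport F with hK
  have mK : MeasurableSet K := (isClosed_tsupport F).measurableSet
  refine ⟨K.indicator H, mH.indicator mK, ?_, ?_, ?_⟩
  · intro p
    by_cases h : p ∈ K
    · rw [Set.indicator_of_mem h]; exact bH p
    · rw [Set.indicator_of_notMem h]; simpa using hM
  · apply HasCompactSupport.intro cF
    intro p hp
    exact Set.indicator_of_notMem hp _
  · filter_upwards [eH] with p hp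
    by_cases h : p ∈ K
    · rw [Set.indicator_of_mem h, hp]
    · rw [Set.indicator_of_notMem h]
      exact (image_eq_zero_of_notMem_tsupport h).symm

lemma qmp₀ : Measure.QuasiMeasurePreserving (fun x : ℝ × ℝ × ℝ => (x.1, x.2.1)) volume volume := by
  have h := (Measure.quasiMeasurePreserving_fst (μ := (volume : Measure (ℝ × ℝ)))
    (ν := (volume : Measure ℝ))).comp e₀_mp.quasiMeasurePreserving
  exact h

lemma qmp₁ : Measure.QuasiMeasurePreserving (fun x : ℝ × ℝ × ℝ => (x.2.1, x.2.2)) volume volume := by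
  have h := (Measure.quasiMeasurePreserving_fst (μ := (volume : Measure (ℝ × ℝ)))
    (ν := (volume : Measure ℝ))).comp e₁_mp.quasiMeasurePreserving
  exact h

lemma qmp₂ : Measure.QuasiMeasurePreserving (fun x : ℝ × ℝ × ℝ => (x.2.2, x.1)) volume volume := by
  have h := (Measure.quasiMeasurePreserving_fst (μ := (volume : Measure (ℝ × ℝ)))
    (ν := (volume : Measure ℝ))).comp e₂_mp.quasiMeasurePreserving
  exact h

lemma formL_ae_congr {F₀ F₁ F₂ G₀ G₁ G₂ : ℝ × ℝ → ℝ} (h₀ : G₀ =ᵐ[volume] F₀)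
    (h₁ : G₁ =ᵐ[volume] F₁) (h₂ : G₂ =ᵐ[volume] F₂) (k : ℤ) (n₀ n₁ n₂ : ℕ) :
    formL G₀ G₁ G₂ k n₀ n₁ n₂ = formL F₀ F₁ F₂ k n₀ n₁ n₂ := by
  unfold formL
  congr 1
  apply integral_congr_ae
  apply ae_restrict_of_ae
  filter_upwards [qmp₀.ae h₀, qmp₁.ae h₁, qmp₂.ae h₂] with x a b c
  rw [a, b, c]

lemma l3norm_ae_congr {F G : ℝ × ℝ → ℝ} (h : G =ᵐ[volume] F) : l3norm G = l3norm F := by
  unfold l3norm
  congr 1
  apply integral_congr_ae
  apply ae_restrict_of_ae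
  filter_upwards [h] with p hp
  rw [hp]

/-- The uniform bound for almost everywhere measurable inputs. -/
theorem ae_theorem : ∃ C : ℝ, ∀ (S : Finset ℤ) (ε : ℤ → ℝ) (F₀ F₁ F₂ : ℝ × ℝ → ℝ),
    (∀ k, |ε k| ≤ 1) →
    AEMeasurable F₀ → AEMeasurable F₁ → AEMeasurable F₂ →
    (∃ M, ∀ p, |F₀ p| ≤ M) → (∃ M, ∀ p, |F₁ p| ≤ M) → (∃ M, ∀ p, |F₂ p| ≤ M) →
    HasCompactSupport F₀ → HasCompactSupport F₁ → HasCompactSupport F₂ →
    |dyadicForm S ε F₀ F₁ F₂| ≤ C * (l3norm F₀ * l3norm F₁ * l3norm F₂) := by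
  obtain ⟨C, hC⟩ := main_theorem
  refine ⟨C, ?_⟩
  intro S ε F₀ F₁ F₂ hε mF₀ mF₁ mF₂ ⟨M₀, bF₀⟩ ⟨M₁, bF₁⟩ ⟨M₂, bF₂⟩ cF₀ cF₁ cF₂
  obtain ⟨G₀, mG₀, bG₀, cG₀, eG₀⟩ := exists_good_version mF₀ bF₀ cF₀
  obtain ⟨G₁, mG₁, bG₁, cG₁, eG₁⟩ := exists_good_version mF₁ bF₁ cF₁
  obtain ⟨G₂, mG₂, bG₂, cG₂, eG₂⟩ := exists_good_version mF₂ bF₂ cF₂
  have key := hC S ε G₀ G₁ G₂ hε mG₀ mG₁ mG₂ ⟨M₀, bG₀⟩ ⟨M₁, bG₁⟩ ⟨M₂, bG₂⟩ cG₀ cG₁ cG₂
  rw [l3norm_ae_congr eG₀, l3norm_ae_congr eG₁, l3norm_ae_congr eG₂] at key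
  have hform : dyadicForm S ε G₀ G₁ G₂ = dyadicForm S ε F₀ F₁ F₂ := by
    unfold dyadicForm
    simp only [formL_ae_congr eG₀ eG₁ eG₂]
  rwa [hform] at key

end Vale.Agent.Lib.P075
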