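import Vale.Agent.Lib.P075.StepBound

set_option linter.unusedSectionVars false
set_option linter.unusedSimpArgs false

open MeasureTheory Matrix

namespace Vale.Agent.Lib.P075

/-- Truncation to the interval `[-M, M]`. -/
noncomputable def clampM (M x : ℝ) : ℝ := max (-M) (min M x)

lemma abs_clampM_le {M : ℝ} (hM : 0 ≤ M) (x : ℝ) : |clampM M x| ≤ M := by
  unfold clampM
  rw [abs_le]
  constructor
  · exact le_max_left _ _
  · exact max_le (by linarith) (min_le_left _ _)

lemma clampM_dist {M x y : ℝ} (hy : |y| ≤ M) : |clampM M x - y| ≤ |x - y| := by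
  unfold clampM
  rw [abs_le] at hy
  rcases le_total M x with h1 | h1
  · rw [min_eq_left h1, max_eq_right (by linarith [hy.1, hy.2])]
    rw [abs_of_nonneg (by linarith [hy.2]), abs_of_nonneg (by linarith [hy.2])]
    linarith
  · rw [min_eq_right h1]
    rcases le_total (-M) x with h2 | h2
    · rw [max_eq_right h2]
    · rw [max_eq_left h2]
      rw [abs_of_nonpos (by linarith [hy.1]) , abs_of_nonpos (by linarith [hy.1])]
      linarith

/-- The root square. -/
def rootQ (K : ℤ) : Set (ℝ × ℝ) := dyadicI K 0 ×ˢ dyadicI K 0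

lemma measurableSet_rootQ (K : ℤ) : MeasurableSet (rootQ K) :=
  (measurableSet_dyadic _ _).prod (measurableSet_dyadic _ _)

lemma volume_rootQ_ne_top (K : ℤ) : volume (rootQ K) ≠ ⊤ := by
  unfold rootQ
  rw [Measure.volume_eq_prod, Measure.prod_prod]
  exact ENNReal.mul_ne_top (volume_dyadic_ne_top _ _) (volume_dyadic_ne_top _ _)

/-- Bounded measurable functions supported in the root square are integrable. -/
lemma integrable_of_rootQ {F : ℝ × ℝ → ℝ} (hF : AEStronglyMeasurable F volume) {M : ℝ}
    (hb : ∀ p, |F p| ≤ M) {K : ℤ} (h0 : ∀ p, p ∉ rootQ K → F p = 0) : Integrable F := by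
  have h1 : IntegrableOn F (rootQ K) :=
    Measure.integrableOn_of_bounded (volume_rootQ_ne_top K) hF
      (Filter.Eventually.of_forall (fun p => by simpa using hb p))
  exact h1.integrable_of_forall_notMem_eq_zero h0

/-- Bounded measurable functions on the root square are approximated in `L¹` by step functions
on all sufficiently fine dyadic grids. -/
theorem exists_step_approx {F : ℝ × ℝ → ℝ} (hF : Measurable F) {M : ℝ} (hM : 0 ≤ M)
    (hb : ∀ p, |F p| ≤ M) {K : ℤ} (h0 : ∀ p, p ∉ rootQ K → F p = 0) {δ : ℝ} (hδ : 0 < δ) :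
    ∃ m₀ : ℤ, ∀ m ≤ m₀, ∀ d : ℕ, m + d = K → ∃ A : Matrix (Fin (2 ^ d)) (Fin (2 ^ d)) ℝ,
      (∀ i j, |A i j| ≤ M) ∧ ∫ p, |F p - stepF m d A p| ≤ δ := by
  have hI : Integrable F := integrable_of_rootQ hF.aestronglyMeasurable hb h0
  obtain ⟨G, hGc, hGi, hGcont, hGint⟩ := hI.exists_hasCompactSupport_integral_sub_le
    (half_pos hδ)
  have huc : UniformContinuous G := hGc.uniformContinuous_of_continuous hGcont
  set V := (volume : Measure (ℝ × ℝ)).real (rootQ K) with hV
  have hV0 : 0 ≤ V := measureReal_nonneg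
  set ε' := (δ / 2) / (V + 1) with hε'
  have hε'0 : 0 < ε' := by positivity
  obtain ⟨η, hη, hclose⟩ := Metric.uniformContinuous_iff.mp huc ε' hε'0
  obtain ⟨m₀, hm₀, -⟩ := exists_mem_Ioc_zpow hη (by norm_num : (1 : ℝ) < 2)
  have hm₀' := hm₀
  refine ⟨m₀ - 1, fun m hm d hd => ?_⟩
  have hm2 : (2 : ℝ) ^ m < η := by
    have : (2 : ℝ) ^ m ≤ (2 : ℝ) ^ (m₀ - 1) := zpow_le_zpow_right₀ (by norm_num) hm
    have h3 : (2 : ℝ) ^ (m₀ - 1) < (2 : ℝ) ^ m₀ := zpow_lt_zpow_right₀ (by norm_num) (by omega)
    linarith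
  have h2m : (0 : ℝ) < (2 : ℝ) ^ m := by positivity
  let A : Matrix (Fin (2 ^ d)) (Fin (2 ^ d)) ℝ := Matrix.of fun i j =>
    clampM M (G ((2 : ℝ) ^ m * (i : ℕ), (2 : ℝ) ^ m * (j : ℕ)))
  refine ⟨A, fun i j => abs_clampM_le hM _, ?_⟩
  -- pointwise bound
  have hpt : ∀ p, |F p - stepF m d A p| ≤ ‖F p - G p‖ + (rootQ K).indicator (fun _ => ε') p := by
    intro p
    by_cases hp : p ∈ rootQ K
    · rw [Set.indicator_of_mem hp]
      have hp1 : p.1 ∈ dyadicI (m + d) 0 := by rw [hd]; exact hp.1
      have hp2 : p.2 ∈ dyadicI (m + d) 0 := by rw [hd]; exact hp.2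
      obtain ⟨i, hi⟩ := cell_cover hp1
      obtain ⟨j, hj⟩ := cell_cover hp2
      rw [stepF_apply A hi hj]
      set s : ℝ × ℝ := ((2 : ℝ) ^ m * (i : ℕ), (2 : ℝ) ^ m * (j : ℕ)) with hs
      have hAij : A i j = clampM M (G s) := rfl
      rw [hAij]
      have hd1 : dist p s < η := by
        rw [Prod.dist_eq]
        apply max_lt
        · rw [Real.dist_eq, abs_lt]
          have h1 := hi.1
          have h2 := hi.2
          simp only [hs]
          constructor <;> nlinarith
        · rw [Real.dist_eq, abs_lt]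
          have h1 := hj.1
          have h2 := hj.2
          simp only [hs]
          constructor <;> nlinarith
      have h5 := hclose hd1
      rw [Real.dist_eq] at h5
      have h6 : |clampM M (G s) - F p| ≤ |G s - F p| := clampM_dist (hb p)
      rw [abs_sub_comm] at h6
      rw [Real.norm_eq_abs]
      have h7 : |G s - F p| ≤ |F p - G p| + |G p - G s| := by
        rw [abs_sub_comm (G s) (F p)]
        exact abs_sub_le _ _ _
      linarith
    · rw [Set.indicator_of_notMem hp, h0 p hp]
      have h1 : p.1 ∉ dyadicI (m + d) 0 ∨ p.2 ∉ dyadicI (m + d) 0 := by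
        rw [hd]
        by_contra hc
        push Not at hc
        exact hp ⟨hc.1, hc.2⟩
      rw [stepF_zero A h1]
      simp
  have hn : Integrable (fun p => ‖F p - G p‖) := (hI.sub hGint).norm
  have hind : Integrable ((rootQ K).indicator (fun _ => ε')) :=
    (integrable_indicator_iff (measurableSet_rootQ K)).mpr
      (integrableOn_const (volume_rootQ_ne_top K))
  have hint2 : Integrable (fun p => ‖F p - G p‖ + (rootQ K).indicator (fun _ => ε') p) :=
    hn.add hind
  have hmono : ∫ p, |F p - stepF m d A p| ≤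
      ∫ p, (‖F p - G p‖ + (rootQ K).indicator (fun _ => ε') p) :=
    integral_mono_of_nonneg (Filter.Eventually.of_forall fun p => abs_nonneg _) hint2
      (Filter.Eventually.of_forall hpt)
  refine hmono.trans ?_
  rw [integral_add hn hind, integral_indicator_const _ (measurableSet_rootQ K), smul_eq_mul]
  have h8 : V * ε' ≤ δ / 2 := by
    rw [hε', ← mul_div_assoc, mul_comm, mul_div_assoc]
    have : V / (V + 1) ≤ 1 := by
      rw [div_le_one (by positivity)]; linarith
    calc δ / 2 * (V / (V + 1)) ≤ δ / 2 * 1 := by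
          apply mul_le_mul_of_nonneg_left this (by positivity)
      _ = δ / 2 := by ring
  linarith

end Vale.Agent.Lib.P075
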