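import Vale.Agent.Lib.P075.Pair

set_option linter.unusedSectionVars false
set_option linter.unusedSimpArgs false

open Matrix Finset
open scoped MatrixOrder

namespace Vale.Agent.Lib.P075

variable {n : Type*} [Fintype n] [DecidableEq n]

/-- The weight `max(s,t) * min(s,t)^2`. -/
noncomputable def wgt (s t : ℝ) : ℝ := max s t * (min s t) ^ 2

lemma trace_conj {U Z : Matrix n n ℝ} (hU : Uᵀ * U = 1) : trace (U * Z * Uᵀ) = trace Z := by
  rw [trace_mul_comm, ← Matrix.mul_assoc, hU, Matrix.one_mul]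

lemma trace_mul_transpose (X e : Matrix n n ℝ) :
    trace (X * eᵀ) = ∑ i, ∑ j, X i j * e i j := by
  simp [Matrix.trace, Matrix.mul_apply]

/-- The estimate on a pair in singular-value coordinates. -/
lemma pair_main {A B U₁ V₁ U₂ V₂ P : Matrix n n ℝ} {a b : n → ℝ}
    (hU₁ : U₁ᵀ * U₁ = 1) (hV₁ : V₁ᵀ * V₁ = 1) (ha : ∀ i, 0 ≤ a i) (hA : A = U₁ * diagonal a * V₁ᵀ)
    (hU₂ : U₂ᵀ * U₂ = 1) (hV₂ : V₂ᵀ * V₂ = 1) (hb : ∀ i, 0 ≤ b i) (hB : B = U₂ * diagonal b * V₂ᵀ)
    (hPs : Pᵀ = P) (hP : P * P = P) :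
    ∑ i, ∑ j, wgt (a i) (b j) * ((V₁ᵀ * (P - (1 - P)) * U₂) i j) ^ 2 ≤
      (1 + √2) * gainD (pairG A B * P * (pairG A B)ᵀ) (pairG A B * (1 - P) * (pairG A B)ᵀ) := by
  set Y := V₁ᵀ * (P - (1 - P)) * U₂ with hY
  set σ := P - (1 - P) with hσ
  set ax := U₁ * diagonal a * U₁ᵀ with hax
  set bz := V₂ * diagonal b * V₂ᵀ with hbz
  have hDa : (diagonal a).PosSemidef := PosSemidef.diagonal (fun i => ha i)
  have hDb : (diagonal b).PosSemidef := PosSemidef.diagonal (fun i => hb i)
  have hax0 : ax.PosSemidef := psd_conj hDa U₁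
  have hbz0 : bz.PosSemidef := psd_conj hDb V₂
  have hU₁' : ∀ X : Matrix n n ℝ, U₁ᵀ * (U₁ * X) = X := by
    intro X
    rw [← Matrix.mul_assoc, hU₁, Matrix.one_mul]
  have hV₁' : ∀ X : Matrix n n ℝ, V₁ᵀ * (V₁ * X) = X := by
    intro X
    rw [← Matrix.mul_assoc, hV₁, Matrix.one_mul]
  have hV₂' : ∀ X : Matrix n n ℝ, V₂ᵀ * (V₂ * X) = X := by
    intro X
    rw [← Matrix.mul_assoc, hV₂, Matrix.one_mul]
  have hdt : ∀ d : n → ℝ, (diagonal d)ᵀ = diagonal d := fun d => diagonal_transpose d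
  have haa : ax * ax = A * Aᵀ := by
    rw [hax, hA]
    simp only [Matrix.mul_assoc, transpose_mul, transpose_transpose, hU₁', hV₁', hdt]
  have hbb : bz * bz = Bᵀ * B := by
    rw [hbz, hB]
    have hU₂' : ∀ X : Matrix n n ℝ, U₂ᵀ * (U₂ * X) = X := by
      intro X
      rw [← Matrix.mul_assoc, hU₂, Matrix.one_mul]
    simp only [Matrix.mul_assoc, transpose_mul, transpose_transpose, hU₂', hV₂', hdt]
  set e : Matrix n n ℝ := Matrix.of fun i j => min (a i) (b j) * Y i j with he
  set F := U₁ * e * V₂ᵀ with hF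
  have key := pair_key (F := F) hPs hP hax0 haa hbz0 hbb
  rw [← hσ] at key
  have t1 : trace (A * σ * B * Fᵀ) = ∑ i, ∑ j, wgt (a i) (b j) * (Y i j) ^ 2 := by
    have : A * σ * B * Fᵀ = U₁ * (diagonal a * Y * diagonal b * eᵀ) * U₁ᵀ := by
      rw [hA, hB, hF, hY]
      simp only [Matrix.mul_assoc, transpose_mul, transpose_transpose, hV₂']
    rw [this, trace_conj hU₁]
    rw [trace_mul_transpose]
    apply Finset.sum_congr rfl
    intro i _
    apply Finset.sum_congr rfl
    intro j _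
    simp only [Matrix.mul_diagonal, Matrix.diagonal_mul, he, of_apply, wgt]
    have := max_mul_min (a i) (b j)
    calc a i * Y i j * b j * (min (a i) (b j) * Y i j)
        = (a i * b j) * min (a i) (b j) * (Y i j) ^ 2 := by ring
      _ = (max (a i) (b j) * min (a i) (b j)) * min (a i) (b j) * (Y i j) ^ 2 := by rw [this]
      _ = _ := by ring
  have t2 : trace (F * Fᵀ * ax) = ∑ i, ∑ j, a i * (e i j) ^ 2 := by
    have : F * Fᵀ * ax = U₁ * (e * eᵀ * diagonal a) * U₁ᵀ := by
      rw [hF, hax]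
      simp only [Matrix.mul_assoc, transpose_mul, transpose_transpose, hV₂', hU₁']
    rw [this, trace_conj hU₁]
    simp only [Matrix.trace, Matrix.diag, Matrix.mul_diagonal]
    apply Finset.sum_congr rfl
    intro i _
    rw [Matrix.mul_apply, Finset.sum_mul]
    apply Finset.sum_congr rfl
    intro j _
    rw [transpose_apply]
    ring
  have t3 : trace (Fᵀ * F * bz) = ∑ i, ∑ j, b j * (e i j) ^ 2 := by
    have : Fᵀ * F * bz = V₂ * (eᵀ * e * diagonal b) * V₂ᵀ := by
      rw [hF, hbz]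
      simp only [Matrix.mul_assoc, transpose_mul, transpose_transpose, hV₂', hU₁']
    rw [this, trace_conj hV₂]
    simp only [Matrix.trace, Matrix.diag, Matrix.mul_diagonal]
    rw [Finset.sum_comm]
    apply Finset.sum_congr rfl
    intro j _
    rw [Matrix.mul_apply, Finset.sum_mul]
    apply Finset.sum_congr rfl
    intro i _
    rw [transpose_apply]
    ring
  set Q := ∑ i, ∑ j, wgt (a i) (b j) * (Y i j) ^ 2 with hQ
  have hQ0 : 0 ≤ Q := by
    apply Finset.sum_nonneg
    intro i _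
    apply Finset.sum_nonneg
    intro j _
    apply mul_nonneg _ (sq_nonneg _)
    exact mul_nonneg (le_max_of_le_left (ha i)) (sq_nonneg _)
  have t4 : trace (F * Fᵀ * ax) + trace (Fᵀ * F * bz) ≤ 2 * Q := by
    rw [t2, t3, ← Finset.sum_add_distrib, hQ, Finset.mul_sum]
    apply Finset.sum_le_sum
    intro i _
    rw [← Finset.sum_add_distrib, Finset.mul_sum]
    apply Finset.sum_le_sum
    intro j _
    simp only [he, of_apply, wgt]
    have h1 : min (a i) (b j) ≤ max (a i) (b j) := min_le_max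
    have h2 : a i + b j = max (a i) (b j) + min (a i) (b j) := (max_add_min _ _).symm
    have h3 : 0 ≤ (min (a i) (b j)) ^ 2 * (Y i j) ^ 2 := by positivity
    calc a i * (min (a i) (b j) * Y i j) ^ 2 + b j * (min (a i) (b j) * Y i j) ^ 2
        = (a i + b j) * ((min (a i) (b j)) ^ 2 * (Y i j) ^ 2) := by ring
      _ = (max (a i) (b j) + min (a i) (b j)) * ((min (a i) (b j)) ^ 2 * (Y i j) ^ 2) := by
          rw [h2]
      _ ≤ (max (a i) (b j) + max (a i) (b j)) * ((min (a i) (b j)) ^ 2 * (Y i j) ^ 2) := by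
          apply mul_le_mul_of_nonneg_right _ h3
          linarith
      _ = _ := by ring
  rw [t1] at key
  have hP0 : P.PosSemidef := psd_of_idem hPs hP
  have hP1 : (1 - P).PosSemidef := psd_of_idem (compl_symm hPs) (compl_idem hP)
  have hg := gain_nonneg (psd_conj hP0 (pairG A B)) (psd_conj hP1 (pairG A B))
  set g := gainD (pairG A B * P * (pairG A B)ᵀ) (pairG A B * (1 - P) * (pairG A B)ᵀ) with hgdef
  have hs2 : (0 : ℝ) ≤ √2 := Real.sqrt_nonneg 2
  have hk : 0 ≤ (1 + √2) / 2 * g := by positivity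
  have h5 := key.trans (mul_le_mul_of_nonneg_left t4 hk)
  rcases hQ0.eq_or_lt with h0 | hpos
  · rw [← h0]
    positivity
  · have : Q * Q ≤ ((1 + √2) * g) * Q := by nlinarith
    exact le_of_mul_le_mul_right this hpos

/-- Orthogonal matrices are contractions, in the symmetric bilinear form used below. -/
lemma contraction {Z : Matrix n n ℝ} (hZ : Zᵀ * Z = 1) (u v : n → ℝ) :
    2 * |∑ j, ∑ k, u j * Z j k * v k| ≤ ∑ j, (u j) ^ 2 + ∑ k, (v k) ^ 2 := by
  set w := Z *ᵥ v with hw
  have hS : ∑ j, ∑ k, u j * Z j k * v k = u ⬝ᵥ w := by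
    simp only [dotProduct, hw, mulVec, Finset.mul_sum]
    apply Finset.sum_congr rfl
    intro j _
    apply Finset.sum_congr rfl
    intro k _
    ring
  have hww : w ⬝ᵥ w = v ⬝ᵥ v := by
    have : w ⬝ᵥ w = v ⬝ᵥ ((Zᵀ * Z) *ᵥ v) := by
      rw [← mulVec_mulVec, hw, dotProduct_mulVec v Zᵀ, vecMul_transpose]
    rw [this, hZ, one_mulVec]
  have h1 : ∑ j, (u j) ^ 2 = u ⬝ᵥ u := by
    simp only [dotProduct, sq]
  have h2 : ∑ k, (v k) ^ 2 = v ⬝ᵥ v := by
    simp only [dotProduct, sq]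
  rw [hS, h1, h2, ← hww]
  have p1 : 0 ≤ (u - w) ⬝ᵥ (u - w) := by
    simpa only [star_trivial] using dotProduct_star_self_nonneg (u - w)
  have p2 : 0 ≤ (u + w) ⬝ᵥ (u + w) := by
    simpa only [star_trivial] using dotProduct_star_self_nonneg (u + w)
  simp only [dotProduct_sub, sub_dotProduct, dotProduct_add, add_dotProduct] at p1 p2
  rw [dotProduct_comm w u] at p1 p2
  have h3 : |u ⬝ᵥ w| ≤ (u ⬝ᵥ u + w ⬝ᵥ w) / 2 := abs_le.mpr ⟨by linarith, by linarith⟩
  linarith

lemma part_bound {w : n → ℝ} (hw : ∀ i, 0 ≤ w i) {Z : Matrix n n ℝ} (hZ : Zᵀ * Z = 1)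
    (u v : n → n → ℝ) :
    2 * |∑ i, ∑ j, ∑ k, w i * (u i j * Z j k * v i k)| ≤
      ∑ i, ∑ j, w i * (u i j) ^ 2 + ∑ i, ∑ k, w i * (v i k) ^ 2 := by
  rw [← Finset.sum_add_distrib]
  calc 2 * |∑ i, ∑ j, ∑ k, w i * (u i j * Z j k * v i k)|
      ≤ 2 * ∑ i, |∑ j, ∑ k, w i * (u i j * Z j k * v i k)| := by
        gcongr
        exact Finset.abs_sum_le_sum_abs _ _
    _ = ∑ i, w i * (2 * |∑ j, ∑ k, u i j * Z j k * v i k|) := by
        rw [Finset.mul_sum]
        apply Finset.sum_congr rfl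
        intro i _
        simp only [← Finset.mul_sum]
        rw [abs_mul, abs_of_nonneg (hw i)]
        ring
    _ ≤ ∑ i, w i * (∑ j, (u i j) ^ 2 + ∑ k, (v i k) ^ 2) := by
        apply Finset.sum_le_sum
        intro i _
        exact mul_le_mul_of_nonneg_left (contraction hZ _ _) (hw i)
    _ = _ := by
        apply Finset.sum_congr rfl
        intro i _
        rw [mul_add, Finset.mul_sum, Finset.mul_sum]

/-- The combinatorial core: split each triple according to its largest singular value. -/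
theorem tri_core {a b c : n → ℝ} (ha : ∀ i, 0 ≤ a i) (hb : ∀ i, 0 ≤ b i) (hc : ∀ i, 0 ≤ c i)
    {X Y Z : Matrix n n ℝ} (hX : Xᵀ * X = 1) (hY : Yᵀ * Y = 1) (hZ : Zᵀ * Z = 1) :
    2 * |∑ i, ∑ j, ∑ k, a i * Y i j * b j * Z j k * c k * X k i| ≤
      ∑ i, ∑ j, wgt (a i) (b j) * (Y i j) ^ 2 + ∑ j, ∑ k, wgt (b j) (c k) * (Z j k) ^ 2
        + ∑ k, ∑ i, wgt (c k) (a i) * (X k i) ^ 2 := by
  let u : n → n → ℝ := fun i j => if b j ≤ a i then Y i j * b j else 0
  let v : n → n → ℝ := fun i k => if c k ≤ a i then c k * X k i else 0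
  let q : n → n → ℝ := fun j k => if c k ≤ b j then Z j k * c k else 0
  let p : n → n → ℝ := fun j i => if b j ≤ a i then 0 else a i * Y i j
  let r : n → n → ℝ := fun k i => if c k ≤ a i then 0 else X k i * a i
  let s : n → n → ℝ := fun k j => if c k ≤ b j then 0 else b j * Z j k
  have hpt : ∀ i j k, a i * Y i j * b j * Z j k * c k * X k i =
      a i * (u i j * Z j k * v i k) + b j * (q j k * X k i * p j i)
        + c k * (r k i * Y i j * s k j) := by
    intro i j k
    simp only [u, v, q, p, r, s]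
    by_cases h1 : b j ≤ a i <;> by_cases h2 : c k ≤ a i <;> by_cases h3 : c k ≤ b j
    · simp only [h1, h2, h3, if_true, if_false]; ring
    · simp only [h1, h2, h3, if_true, if_false]; ring
    · exfalso; exact h2 (h3.trans h1)
    · simp only [h1, h2, h3, if_true, if_false]; ring
    · simp only [h1, h2, h3, if_true, if_false]; ring
    · exfalso; exact h3 (h2.trans (le_of_lt (not_le.mp h1)))
    · simp only [h1, h2, h3, if_true, if_false]; ring
    · simp only [h1, h2, h3, if_true, if_false]; ring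
  have hsum : ∑ i, ∑ j, ∑ k, a i * Y i j * b j * Z j k * c k * X k i =
      ∑ i, ∑ j, ∑ k, a i * (u i j * Z j k * v i k)
        + ∑ j, ∑ k, ∑ i, b j * (q j k * X k i * p j i)
        + ∑ k, ∑ i, ∑ j, c k * (r k i * Y i j * s k j) := by
    have e2 : ∑ j, ∑ k, ∑ i, b j * (q j k * X k i * p j i) =
        ∑ i, ∑ j, ∑ k, b j * (q j k * X k i * p j i) := by
      calc ∑ j, ∑ k, ∑ i, b j * (q j k * X k i * p j i)
          = ∑ j, ∑ i, ∑ k, b j * (q j k * X k i * p j i) :=
            Finset.sum_congr rfl (fun j _ => Finset.sum_comm)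
        _ = _ := Finset.sum_comm
    have e3 : ∑ k, ∑ i, ∑ j, c k * (r k i * Y i j * s k j) =
        ∑ i, ∑ j, ∑ k, c k * (r k i * Y i j * s k j) := by
      calc ∑ k, ∑ i, ∑ j, c k * (r k i * Y i j * s k j)
          = ∑ i, ∑ k, ∑ j, c k * (r k i * Y i j * s k j) := Finset.sum_comm
        _ = _ := Finset.sum_congr rfl (fun i _ => Finset.sum_comm)
    rw [e2, e3]
    simp only [← Finset.sum_add_distrib]
    apply Finset.sum_congr rfl
    intro i _
    apply Finset.sum_congr rfl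
    intro j _
    apply Finset.sum_congr rfl
    intro k _
    exact hpt i j k
  have bA := part_bound ha hZ u v
  have bB := part_bound hb hX q p
  have bC := part_bound hc hY r s
  have tY : ∑ i, ∑ j, wgt (a i) (b j) * (Y i j) ^ 2 =
      ∑ i, ∑ j, a i * (u i j) ^ 2 + ∑ j, ∑ i, b j * (p j i) ^ 2 := by
    rw [Finset.sum_comm (f := fun j i => b j * (p j i) ^ 2), ← Finset.sum_add_distrib]
    apply Finset.sum_congr rfl
    intro i _
    rw [← Finset.sum_add_distrib]
    apply Finset.sum_congr rfl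
    intro j _
    simp only [u, p]
    by_cases h : b j ≤ a i
    · simp only [h, if_true, wgt, max_eq_left h, min_eq_right h]; ring
    · have h' := le_of_lt (not_le.mp h)
      simp only [h, if_false, wgt, max_eq_right h', min_eq_left h']; ring
  have tZ : ∑ j, ∑ k, wgt (b j) (c k) * (Z j k) ^ 2 =
      ∑ j, ∑ k, b j * (q j k) ^ 2 + ∑ k, ∑ j, c k * (s k j) ^ 2 := by
    rw [Finset.sum_comm (f := fun k j => c k * (s k j) ^ 2), ← Finset.sum_add_distrib]
    apply Finset.sum_congr rfl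
    intro j _
    rw [← Finset.sum_add_distrib]
    apply Finset.sum_congr rfl
    intro k _
    simp only [q, s]
    by_cases h : c k ≤ b j
    · simp only [h, if_true, wgt, max_eq_left h, min_eq_right h]; ring
    · have h' := le_of_lt (not_le.mp h)
      simp only [h, if_false, wgt, max_eq_right h', min_eq_left h']; ring
  have tX : ∑ k, ∑ i, wgt (c k) (a i) * (X k i) ^ 2 =
      ∑ i, ∑ k, a i * (v i k) ^ 2 + ∑ k, ∑ i, c k * (r k i) ^ 2 := by
    rw [Finset.sum_comm (f := fun i k => a i * (v i k) ^ 2), ← Finset.sum_add_distrib]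
    apply Finset.sum_congr rfl
    intro k _
    rw [← Finset.sum_add_distrib]
    apply Finset.sum_congr rfl
    intro i _
    simp only [v, r]
    by_cases h : c k ≤ a i
    · simp only [h, if_true, wgt, max_eq_right h, min_eq_left h]; ring
    · have h' := le_of_lt (not_le.mp h)
      simp only [h, if_false, wgt, max_eq_left h', min_eq_right h']; ring
  rw [tY, tZ, tX, hsum]
  have habs := abs_add_le (∑ i, ∑ j, ∑ k, a i * (u i j * Z j k * v i k)
        + ∑ j, ∑ k, ∑ i, b j * (q j k * X k i * p j i)) (∑ k, ∑ i, ∑ j, c k * (r k i * Y i j * s k j))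
  have habs2 := abs_add_le (∑ i, ∑ j, ∑ k, a i * (u i j * Z j k * v i k))
        (∑ j, ∑ k, ∑ i, b j * (q j k * X k i * p j i))
  linarith

end Vale.Agent.Lib.P075
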