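import Mathlib

open MeasureTheory

namespace Vale.Agent.Lib.P075

/-- The dyadic interval `[2^k n, 2^k (n+1))`. -/
noncomputable def dyadicI (k : ℤ) (n : ℕ) : Set ℝ :=
  Set.Ico ((2 : ℝ) ^ k * n) ((2 : ℝ) ^ k * (n + 1))

/-- The Haar function `h_I` of `I = dyadicI k n`: it is `+1` on the left half `dyadicI (k-1) (2n)`
of `I`, `-1` on the right half `dyadicI (k-1) (2n+1)` of `I`, and `0` elsewhere. -/
noncomputable def haar (k : ℤ) (n : ℕ) (x : ℝ) : ℝ :=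
  (dyadicI (k - 1) (2 * n)).indicator 1 x - (dyadicI (k - 1) (2 * n + 1)).indicator 1 x

/-- `L_I(F₀,F₁,F₂)` for the triple of dyadic intervals `I_v = dyadicI k n_v`. -/
noncomputable def formL (F₀ F₁ F₂ : ℝ × ℝ → ℝ) (k : ℤ) (n₀ n₁ n₂ : ℕ) : ℝ :=
  (2 : ℝ) ^ (-k) * ∫ x in dyadicI k n₀ ×ˢ dyadicI k n₁ ×ˢ dyadicI k n₂,
    F₀ (x.1, x.2.1) * F₁ (x.2.1, x.2.2) * F₂ (x.2.2, x.1) *
      (haar k n₀ x.1 * haar k n₁ x.2.1 * haar k n₂ x.2.2)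

/-- The dyadic triangular form `Λ^d_{S,ε}`: the sum over `k ∈ S` of `ε k` times the sum of `L_I`
over all triples of indices with vanishing bitwise XOR. -/
noncomputable def dyadicForm (S : Finset ℤ) (ε : ℤ → ℝ) (F₀ F₁ F₂ : ℝ × ℝ → ℝ) : ℝ :=
  ∑ k ∈ S, ε k * ∑' n : {n : ℕ × ℕ × ℕ // n.1 ^^^ n.2.1 ^^^ n.2.2 = 0},
    formL F₀ F₁ F₂ k n.1.1 n.1.2.1 n.1.2.2

/-- The norm of `F` in `L³([0,∞)²)`. -/
noncomputable def l3norm (F : ℝ × ℝ → ℝ) : ℝ :=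
  (∫ p in Set.Ici (0 : ℝ) ×ˢ Set.Ici (0 : ℝ), |F p| ^ 3) ^ ((1 : ℝ) / 3)

end Vale.Agent.Lib.P075
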