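import Vale.Agent.Lib.P075.Levels

set_option linter.unusedSectionVars false
set_option linter.unusedSimpArgs false

open Matrix Finset
open scoped MatrixOrder

namespace Vale.Agent.Lib.P075

variable {d : ℕ}

/-- The value of the Haar function of the node with prefix `n` at height `e + 1` on cell `i`. -/
noncomputable def hh (e n : ℕ) (i : Fin (2 ^ d)) : ℝ :=
  (if (i : ℕ) / 2 ^ (e + 1) = n then 1 else 0) * (if (i : ℕ) / 2 ^ e % 2 = 0 then 1 else -1)

/-- The trilinear sum over fine cells at a node. -/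
noncomputable def nodeSum (A B C : Matrix (Fin (2 ^ d)) (Fin (2 ^ d)) ℝ) (e n₀ n₁ n₂ : ℕ) : ℝ :=
  ∑ i, ∑ j, ∑ l, A i j * B j l * C l i * (hh e n₀ i * hh e n₁ j * hh e n₂ l)

lemma sigma_eq (e : ℕ) : bitP d e - (1 - bitP d e) =
    (diagonal fun i : Fin (2 ^ d) => if (i : ℕ) / 2 ^ e % 2 = 0 then (1 : ℝ) else -1) := by
  ext i j
  by_cases hij : i = j
  · subst hij
    simp only [bitP, Matrix.sub_apply, Matrix.one_apply_eq, diagonal_apply_eq]
    split_ifs <;> norm_num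
  · simp [bitP, Matrix.sub_apply, Matrix.one_apply_ne, hij, diagonal_apply_ne]

lemma nd_apply (s : ℝ) (e m m' : ℕ) (X : Matrix (Fin (2 ^ d)) (Fin (2 ^ d)) ℝ)
    (i j : Fin (2 ^ d)) :
    nd s e m m' X i j = s * ((if (i : ℕ) / 2 ^ e = m then 1 else 0) * X i j
      * (if (j : ℕ) / 2 ^ e = m' then 1 else 0)) := by
  simp only [nd, proj, Matrix.smul_apply, smul_eq_mul, Matrix.mul_diagonal, Matrix.diagonal_mul]

lemma ite01_mul_self (c : Prop) [Decidable c] :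
    ((if c then 1 else 0 : ℝ)) * (if c then 1 else 0) = if c then 1 else 0 := by
  split_ifs <;> norm_num

lemma Lnode_eq (A B C : Matrix (Fin (2 ^ d)) (Fin (2 ^ d)) ℝ) (s : ℝ) (e m m' : ℕ) :
    Lnode A B C s e m m' = s ^ 3 * nodeSum A B C e m m' (m ^^^ m') := by
  unfold Lnode nodeSum
  rw [sigma_eq]
  simp only [Matrix.trace, Matrix.diag, Matrix.mul_diagonal]
  rw [Finset.mul_sum]
  apply Finset.sum_congr rfl
  intro i _
  rw [Matrix.mul_apply, Finset.sum_mul, Finset.sum_comm, Finset.mul_sum]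
  apply Finset.sum_congr rfl
  intro l _
  rw [Matrix.mul_diagonal, Matrix.mul_apply, Finset.sum_mul, Finset.sum_mul, Finset.sum_mul,
    Finset.mul_sum]
  apply Finset.sum_congr rfl
  intro j _
  rw [Matrix.mul_diagonal, nd_apply, nd_apply, nd_apply]
  simp only [hh]
  have h1 := ite01_mul_self ((i : ℕ) / 2 ^ (e + 1) = m)
  have h2 := ite01_mul_self ((j : ℕ) / 2 ^ (e + 1) = m')
  have h3 := ite01_mul_self ((l : ℕ) / 2 ^ (e + 1) = m ^^^ m')
  set p₁ : ℝ := if (i : ℕ) / 2 ^ (e + 1) = m then 1 else 0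
  set p₂ : ℝ := if (j : ℕ) / 2 ^ (e + 1) = m' then 1 else 0
  set p₃ : ℝ := if (l : ℕ) / 2 ^ (e + 1) = m ^^^ m' then 1 else 0
  have h : p₁ * p₁ * (p₂ * p₂) * (p₃ * p₃) = p₁ * p₂ * p₃ := by rw [h1, h2, h3]
  linear_combination (s ^ 3 * (A i j * B j l * C l i) *
    ((if (i : ℕ) / 2 ^ e % 2 = 0 then 1 else -1) * (if (j : ℕ) / 2 ^ e % 2 = 0 then 1 else -1)
      * (if (l : ℕ) / 2 ^ e % 2 = 0 then 1 else -1))) * h

/-- XOR of two indices in the fine grid. -/
def xorF (i j : Fin (2 ^ d)) : Fin (2 ^ d) :=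
  ⟨(i : ℕ) ^^^ (j : ℕ), Nat.xor_lt_two_pow i.2 j.2⟩

lemma xorF_xorF (i j : Fin (2 ^ d)) : xorF (xorF i j) j = i := by
  apply Fin.ext
  simp [xorF, Nat.xor_assoc]

lemma xorF_comm (i j : Fin (2 ^ d)) : xorF i j = xorF j i := by
  apply Fin.ext
  simp [xorF, Nat.xor_comm]

lemma sum_xorF_left (j : Fin (2 ^ d)) (f : Fin (2 ^ d) → ℝ) :
    ∑ i, f (xorF i j) = ∑ i, f i := by
  have hinv : Function.Involutive (fun i : Fin (2 ^ d) => xorF i j) := fun i => xorF_xorF i j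
  exact Equiv.sum_comp hinv.toPerm f

lemma sum_xorF_right (i : Fin (2 ^ d)) (f : Fin (2 ^ d) → ℝ) :
    ∑ j, f (xorF i j) = ∑ j, f j := by
  simp only [xorF_comm i]
  exact sum_xorF_left i f

/-- Sum of cubes of a matrix. -/
noncomputable def cubeSum (A : Matrix (Fin (2 ^ d)) (Fin (2 ^ d)) ℝ) : ℝ :=
  ∑ i, ∑ j, |A i j| ^ 3

lemma frob_leaf (N : ℝ) (hN : N = 2 ^ d) (A : Matrix (Fin (2 ^ d)) (Fin (2 ^ d)) ℝ)
    (i j : Fin (2 ^ d)) :
    ∑ x, ∑ y, (nd N 0 i j ((1 / N) • A) x y) ^ 2 ≤ |A i j| ^ 2 := by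
  have hN0 : N ≠ 0 := by rw [hN]; positivity
  have e : ∀ x y : Fin (2 ^ d), nd N 0 i j ((1 / N) • A) x y =
      (if x = i then 1 else 0) * A x y * (if y = j then 1 else 0) := by
    intro x y
    rw [nd_apply]
    simp only [pow_zero, Nat.div_one, Fin.val_inj, Matrix.smul_apply, smul_eq_mul]
    field_simp
  simp only [e]
  rw [sq_abs, Finset.sum_eq_single i, Finset.sum_eq_single j]
  · simp
  · intro y _ hy
    simp [hy]
  · simp
  · intro x _ hx
    apply Finset.sum_eq_zero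
    intro y _
    simp [hx]
  · simp

lemma Phi_leaf (N : ℝ) (hN : N = 2 ^ d) (A B C : Matrix (Fin (2 ^ d)) (Fin (2 ^ d)) ℝ)
    (i j : Fin (2 ^ d)) :
    PhiNode ((1 / N) • A) ((1 / N) • B) ((1 / N) • C) N 0 i j ≤
      8 * (|A i j| ^ 3 + |B j (xorF i j)| ^ 3 + |C (xorF i j) i| ^ 3) := by
  unfold PhiNode Phi
  have hA := frob_leaf N hN A i j
  have hB := frob_leaf N hN B j (xorF i j)
  have hC := frob_leaf N hN C (xorF i j) i
  have e : ((xorF i j : Fin (2 ^ d)) : ℕ) = (i : ℕ) ^^^ (j : ℕ) := rfl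
  rw [e] at hB hC
  have h1 := pot_le (abs_nonneg _) (abs_nonneg _) hA hB
  have h2 := pot_le (abs_nonneg _) (abs_nonneg _) hB hC
  have h3 := pot_le (abs_nonneg _) (abs_nonneg _) hC hA
  linarith

lemma levelF_leaf (N : ℝ) (hN : N = 2 ^ d) (A B C : Matrix (Fin (2 ^ d)) (Fin (2 ^ d)) ℝ) :
    levelF ((1 / N) • A) ((1 / N) • B) ((1 / N) • C) d 0 ≤
      (1 / 4 ^ d) * (8 * (cubeSum A + cubeSum B + cubeSum C)) := by
  unfold levelF
  apply mul_le_mul_of_nonneg_left _ (by positivity)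
  rw [Finset.sum_range]
  simp only [Finset.sum_range]
  rw [← hN]
  calc ∑ i : Fin (2 ^ d), ∑ j : Fin (2 ^ d),
        PhiNode ((1 / N) • A) ((1 / N) • B) ((1 / N) • C) N 0 (i : ℕ) (j : ℕ)
      ≤ ∑ i : Fin (2 ^ d), ∑ j : Fin (2 ^ d),
          8 * (|A i j| ^ 3 + |B j (xorF i j)| ^ 3 + |C (xorF i j) i| ^ 3) :=
        Finset.sum_le_sum fun i _ => Finset.sum_le_sum fun j _ => Phi_leaf N hN A B C i j
    _ = _ := by
        simp only [← Finset.mul_sum]
        congr 1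
        simp only [Finset.sum_add_distrib]
        unfold cubeSum
        congr 1
        · congr 1
          rw [Finset.sum_comm]
          apply Finset.sum_congr rfl
          intro j _
          exact sum_xorF_left j (fun l => |B j l| ^ 3)
        · rw [Finset.sum_comm (f := fun l i => |C l i| ^ 3)]
          apply Finset.sum_congr rfl
          intro i _
          exact sum_xorF_right i (fun l => |C l i| ^ 3)

/-- The discrete theorem on a fine grid of `2 ^ d` cells. -/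
theorem discrete_main (A B C : Matrix (Fin (2 ^ d)) (Fin (2 ^ d)) ℝ) :
    ∑ t ∈ Finset.range d, ∑ m ∈ Finset.range (2 ^ t), ∑ m' ∈ Finset.range (2 ^ t),
        (2 : ℝ) ^ t * (1 / 2 ^ d) ^ 3 * |nodeSum A B C (d - t - 1) m m' (m ^^^ m')|
      ≤ ((1 + √2) / 2) * ((1 / 4 ^ d) * (8 * (cubeSum A + cubeSum B + cubeSum C))) := by
  have hN : ((2 : ℝ) ^ d) = 2 ^ d := rfl
  have h := levels_sum ((1 / (2 : ℝ) ^ d) • A) ((1 / (2 : ℝ) ^ d) • B) ((1 / (2 : ℝ) ^ d) • C)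
  have h2 := levelF_leaf ((2 : ℝ) ^ d) hN A B C
  have h3 := mul_le_mul_of_nonneg_left h2 (by positivity : (0 : ℝ) ≤ (1 + √2) / 2)
  refine le_trans (le_of_eq ?_) (h.trans h3)
  apply Finset.sum_congr rfl
  intro t _
  rw [Finset.mul_sum]
  apply Finset.sum_congr rfl
  intro m _
  rw [Finset.mul_sum]
  apply Finset.sum_congr rfl
  intro m' _
  rw [Lnode_eq, abs_mul, abs_of_nonneg (by positivity : (0 : ℝ) ≤ (2 ^ t) ^ 3)]
  have hs : nodeSum ((1 / (2 : ℝ) ^ d) • A) ((1 / (2 : ℝ) ^ d) • B) ((1 / (2 : ℝ) ^ d) • C)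
      (d - t - 1) m m' (m ^^^ m') = (1 / 2 ^ d) ^ 3 * nodeSum A B C (d - t - 1) m m' (m ^^^ m') := by
    unfold nodeSum
    simp only [Finset.mul_sum, Matrix.smul_apply, smul_eq_mul]
    apply Finset.sum_congr rfl
    intro i _
    apply Finset.sum_congr rfl
    intro j _
    apply Finset.sum_congr rfl
    intro l _
    ring
  rw [hs, abs_mul, abs_of_nonneg (by positivity : (0 : ℝ) ≤ (1 / 2 ^ d) ^ 3)]
  have e4 : ((4 : ℝ) ^ t) = 2 ^ t * 2 ^ t := by
    rw [← mul_pow]; norm_num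
  rw [e4]
  field_simp

end Vale.Agent.Lib.P075
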