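import Vale.Agent.Lib.P075.Defs
import Vale.Agent.Lib.P075.Leaf

set_option linter.unusedSectionVars false
set_option linter.unusedSimpArgs false

open MeasureTheory Matrix

namespace Vale.Agent.Lib.P075

lemma mem_dyadic {k : ℤ} {n : ℕ} {x : ℝ} :
    x ∈ dyadicI k n ↔ (2 : ℝ) ^ k * n ≤ x ∧ x < (2 : ℝ) ^ k * (n + 1) := Iff.rfl

lemma measurableSet_dyadic (k : ℤ) (n : ℕ) : MeasurableSet (dyadicI k n) := measurableSet_Ico

lemma dyadic_nonneg {k : ℤ} {n : ℕ} {x : ℝ} (hx : x ∈ dyadicI k n) : 0 ≤ x := by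
  have h := hx.1
  have : (0 : ℝ) ≤ (2 : ℝ) ^ k * n := by positivity
  linarith

lemma volume_dyadic (k : ℤ) (n : ℕ) : volume.real (dyadicI k n) = (2 : ℝ) ^ k := by
  have h2 : (0 : ℝ) < (2 : ℝ) ^ k := by positivity
  rw [Measure.real, dyadicI, Real.volume_Ico, ENNReal.toReal_ofReal]
  · ring
  · nlinarith

/-- A point in a cell lies in an ancestor iff the index has the right prefix. -/
lemma mem_parent {m : ℤ} {i : ℕ} {x : ℝ} (hx : x ∈ dyadicI m i) (e n : ℕ) :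
    x ∈ dyadicI (m + e) n ↔ i / 2 ^ e = n := by
  have hc : (0 : ℝ) < (2 : ℝ) ^ m := by positivity
  have hz : (2 : ℝ) ^ (m + (e : ℤ)) = (2 : ℝ) ^ m * (2 : ℝ) ^ e := by
    rw [zpow_add₀ (by norm_num), zpow_natCast]
  rw [mem_dyadic] at hx ⊢
  rw [hz]
  set c := (2 : ℝ) ^ m
  have hE : (0 : ℕ) < 2 ^ e := by positivity
  constructor
  · rintro ⟨h1, h2⟩
    have h3 : c * ((2 : ℝ) ^ e * n) < c * (i + 1) := by nlinarith [hx.2]
    have h4 : c * i < c * ((2 : ℝ) ^ e * (n + 1)) := by nlinarith [hx.1]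
    have h5 : (2 : ℝ) ^ e * n < i + 1 := lt_of_mul_lt_mul_left h3 hc.le
    have h6 : (i : ℝ) < (2 : ℝ) ^ e * (n + 1) := lt_of_mul_lt_mul_left h4 hc.le
    have h5' : 2 ^ e * n < i + 1 := by exact_mod_cast h5
    have h6' : i < 2 ^ e * (n + 1) := by exact_mod_cast h6
    apply Nat.div_eq_of_lt_le
    · rw [mul_comm]; omega
    · rw [mul_comm]; exact h6'
  · intro h
    have h1 : 2 ^ e * n ≤ i := by
      rw [← h]; exact Nat.mul_div_le i (2 ^ e)
    have h2 : i + 1 ≤ 2 ^ e * (n + 1) := by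
      have := Nat.lt_mul_div_succ i hE
      rw [h] at this
      omega
    have h1' : (2 : ℝ) ^ e * n ≤ i := by exact_mod_cast h1
    have h2' : (i : ℝ) + 1 ≤ (2 : ℝ) ^ e * (n + 1) := by exact_mod_cast h2
    constructor
    · calc c * (2 : ℝ) ^ e * n = c * ((2 : ℝ) ^ e * n) := by ring
        _ ≤ c * i := mul_le_mul_of_nonneg_left h1' hc.le
        _ ≤ x := hx.1
    · calc x < c * (i + 1) := hx.2
        _ ≤ c * ((2 : ℝ) ^ e * (n + 1)) := mul_le_mul_of_nonneg_left h2' hc.le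
        _ = c * (2 : ℝ) ^ e * (n + 1) := by ring

lemma dyadic_unique {m : ℤ} {i j : ℕ} {x : ℝ} (hi : x ∈ dyadicI m i) (hj : x ∈ dyadicI m j) :
    i = j := by
  have := (mem_parent hi 0 j).mp (by simpa using hj)
  simpa using this

lemma dyadic_disjoint {m : ℤ} {i j : ℕ} (h : i ≠ j) : Disjoint (dyadicI m i) (dyadicI m j) := by
  rw [Set.disjoint_left]
  intro x hi hj
  exact h (dyadic_unique hi hj)

/-- The Haar function vanishes off its interval. -/
lemma haar_eq_zero {k : ℤ} {n : ℕ} {x : ℝ} (hx : x ∉ dyadicI k n) : haar k n x = 0 := by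
  have hz : (2 : ℝ) ^ k = (2 : ℝ) ^ (k - 1) * 2 := by
    rw [zpow_sub₀ (by norm_num)]
    simp
  have hc : (0 : ℝ) < (2 : ℝ) ^ (k - 1) := by positivity
  have h1 : x ∉ dyadicI (k - 1) (2 * n) := by
    intro h
    apply hx
    rw [mem_dyadic] at h ⊢
    rw [hz]
    push_cast at h
    constructor <;> nlinarith [h.1, h.2]
  have h2 : x ∉ dyadicI (k - 1) (2 * n + 1) := by
    intro h
    apply hx
    rw [mem_dyadic] at h ⊢
    rw [hz]
    push_cast at h
    constructor <;> nlinarith [h.1, h.2]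
  simp [haar, h1, h2]

lemma abs_haar_le (k : ℤ) (n : ℕ) (x : ℝ) : |haar k n x| ≤ 1 := by
  unfold haar
  by_cases h1 : x ∈ dyadicI (k - 1) (2 * n)
  · have h2 : x ∉ dyadicI (k - 1) (2 * n + 1) := by
      intro h
      have := dyadic_unique h1 h
      omega
    simp [h1, h2]
  · by_cases h2 : x ∈ dyadicI (k - 1) (2 * n + 1) <;> simp [h1, h2]

lemma measurable_haar (k : ℤ) (n : ℕ) : Measurable (haar k n) := by
  unfold haar
  exact (measurable_const.indicator (measurableSet_dyadic _ _)).sub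
    (measurable_const.indicator (measurableSet_dyadic _ _))

/-- The value of the Haar function on a fine cell. -/
lemma haar_on_cell {m : ℤ} {d : ℕ} {i : Fin (2 ^ d)} {x : ℝ} (hx : x ∈ dyadicI m i) (e n : ℕ) :
    haar (m + e + 1) n x = hh e n i := by
  unfold haar hh
  have e1 : m + (e : ℤ) + 1 - 1 = m + e := by ring
  rw [e1]
  have h1 := mem_parent hx e (2 * n)
  have h2 := mem_parent hx e (2 * n + 1)
  have h3 : (i : ℕ) / 2 ^ (e + 1) = (i : ℕ) / 2 ^ e / 2 := by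
    rw [Nat.div_div_eq_div_mul, pow_succ]
  rw [h3]
  set q := (i : ℕ) / 2 ^ e
  by_cases c1 : q = 2 * n
  · have hm : x ∈ dyadicI (m + e) (2 * n) := h1.mpr c1
    have hm' : x ∉ dyadicI (m + e) (2 * n + 1) := by
      intro h; have := h2.mp h; omega
    have a1 : q / 2 = n := by omega
    have a2 : q % 2 = 0 := by omega
    simp [hm, hm', a1, a2]
  · have hm : x ∉ dyadicI (m + e) (2 * n) := fun h => c1 (h1.mp h)
    by_cases c2 : q = 2 * n + 1
    · have hm' : x ∈ dyadicI (m + e) (2 * n + 1) := h2.mpr c2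
      have a1 : q / 2 = n := by omega
      have a2 : ¬ q % 2 = 0 := by omega
      simp [hm, hm', a1, a2]
    · have hm' : x ∉ dyadicI (m + e) (2 * n + 1) := fun h => c2 (h2.mp h)
      have a1 : ¬ q / 2 = n := by omega
      simp [hm, hm', a1]

/-- The root square `[0, 2^K)` is covered by its fine cells. -/
lemma cell_cover {m : ℤ} {d : ℕ} {x : ℝ} (hx : x ∈ dyadicI (m + d) 0) :
    ∃ i : Fin (2 ^ d), x ∈ dyadicI m i := by
  have hc : (0 : ℝ) < (2 : ℝ) ^ m := by positivity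
  have hz : (2 : ℝ) ^ (m + (d : ℤ)) = (2 : ℝ) ^ m * (2 : ℝ) ^ d := by
    rw [zpow_add₀ (by norm_num), zpow_natCast]
  rw [mem_dyadic] at hx
  rw [hz] at hx
  have h0 : 0 ≤ x := by simpa using hx.1
  have h1 : x < (2 : ℝ) ^ m * (2 : ℝ) ^ d := by simpa using hx.2
  have hq : 0 ≤ x / (2 : ℝ) ^ m := by positivity
  set i := ⌊x / (2 : ℝ) ^ m⌋₊ with hi
  have h2 : (i : ℝ) ≤ x / (2 : ℝ) ^ m := Nat.floor_le hq
  have h3 : x / (2 : ℝ) ^ m < i + 1 := Nat.lt_floor_add_one _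
  have h4 : x / (2 : ℝ) ^ m < (2 : ℝ) ^ d := by
    rw [div_lt_iff₀ hc]; linarith
  have h5 : i < 2 ^ d := by
    have : (i : ℝ) < (2 : ℝ) ^ d := lt_of_le_of_lt h2 h4
    exact_mod_cast this
  refine ⟨⟨i, h5⟩, ?_⟩
  rw [mem_dyadic]
  simp only
  constructor
  · rw [le_div_iff₀ hc] at h2; linarith
  · rw [div_lt_iff₀ hc] at h3; linarith

lemma cell_subset {m : ℤ} {d : ℕ} {i : Fin (2 ^ d)} {x : ℝ} (hx : x ∈ dyadicI m i) :
    x ∈ dyadicI (m + d) 0 := by
  apply (mem_parent hx d 0).mpr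
  exact Nat.div_eq_of_lt i.2

end Vale.Agent.Lib.P075
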