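import Vale.Agent.Lib.P075.MainSum

set_option linter.unusedSectionVars false
set_option linter.unusedSimpArgs false

open MeasureTheory Matrix Filter Topology

namespace Vale.Agent.Lib.P075

/-- The quadrant `[0,∞)²`. -/
def quad : Set (ℝ × ℝ) := Set.Ici (0 : ℝ) ×ˢ Set.Ici (0 : ℝ)

lemma measurableSet_quad : MeasurableSet quad := measurableSet_Ici.prod measurableSet_Ici

lemma rootQ_subset_quad (K : ℤ) : rootQ K ⊆ quad := by
  rintro p ⟨h1, h2⟩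
  exact ⟨dyadic_nonneg h1, dyadic_nonneg h2⟩

/-- The cubic integral over the quadrant. -/
noncomputable def quadI (F : ℝ × ℝ → ℝ) : ℝ := ∫ p in quad, |F p| ^ 3

lemma quadI_nonneg (F : ℝ × ℝ → ℝ) : 0 ≤ quadI F :=
  integral_nonneg fun p => by positivity

lemma formL_congr {F₀ F₁ F₂ G₀ G₁ G₂ : ℝ × ℝ → ℝ} (h₀ : ∀ p ∈ quad, G₀ p = F₀ p)
    (h₁ : ∀ p ∈ quad, G₁ p = F₁ p) (h₂ : ∀ p ∈ quad, G₂ p = F₂ p) (k : ℤ) (n₀ n₁ n₂ : ℕ) :
    formL G₀ G₁ G₂ k n₀ n₁ n₂ = formL F₀ F₁ F₂ k n₀ n₁ n₂ := by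
  unfold formL
  congr 1
  apply setIntegral_congr_fun
  · exact (measurableSet_dyadic _ _).prod
      ((measurableSet_dyadic _ _).prod (measurableSet_dyadic _ _))
  · rintro x ⟨hx₀, hx₁, hx₂⟩
    have n₀' := dyadic_nonneg hx₀
    have n₁' := dyadic_nonneg hx₁
    have n₂' := dyadic_nonneg hx₂
    simp only []
    rw [h₀ (x.1, x.2.1) ⟨n₀', n₁'⟩, h₁ (x.2.1, x.2.2) ⟨n₁', n₂'⟩, h₂ (x.2.2, x.1) ⟨n₂', n₀'⟩]

lemma dyadicForm_congr {F₀ F₁ F₂ G₀ G₁ G₂ : ℝ × ℝ → ℝ} (h₀ : ∀ p ∈ quad, G₀ p = F₀ p)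
    (h₁ : ∀ p ∈ quad, G₁ p = F₁ p) (h₂ : ∀ p ∈ quad, G₂ p = F₂ p) (S : Finset ℤ) (ε : ℤ → ℝ) :
    dyadicForm S ε G₀ G₁ G₂ = dyadicForm S ε F₀ F₁ F₂ := by
  unfold dyadicForm
  simp only [formL_congr h₀ h₁ h₂]

/-- A compactly supported function vanishes on the quadrant outside a large root square. -/
lemma exists_radius {F : ℝ × ℝ → ℝ} (hc : HasCompactSupport F) :
    ∃ R : ℝ, ∀ K : ℤ, R < (2 : ℝ) ^ K → ∀ p ∈ quad, p ∉ rootQ K → F p = 0 := by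
  obtain ⟨R, hR⟩ := isBounded_iff_forall_norm_le.mp hc.isCompact.isBounded
  refine ⟨R, fun K hK p hp hq => ?_⟩
  apply image_eq_zero_of_notMem_tsupport
  intro hmem
  have h1 := hR p hmem
  have h2 : (2 : ℝ) ^ K ≤ ‖p‖ := by
    rw [Prod.norm_def]
    have hp1 : 0 ≤ p.1 := hp.1
    have hp2 : 0 ≤ p.2 := hp.2
    have hnot : ¬ (p.1 < (2 : ℝ) ^ K ∧ p.2 < (2 : ℝ) ^ K) := by
      rintro ⟨a, b⟩
      apply hq
      constructor
      · constructor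
        · simpa using hp1
        · simpa using a
      · constructor
        · simpa using hp2
        · simpa using b
    rw [not_and_or, not_lt, not_lt] at hnot
    rw [Real.norm_eq_abs, Real.norm_eq_abs, abs_of_nonneg hp1, abs_of_nonneg hp2]
    rcases hnot with h | h
    · exact h.trans (le_max_left _ _)
    · exact h.trans (le_max_right _ _)
  linarith

/-- Additive form of the uniform bound for compactly supported functions. -/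
theorem final_sum {F₀ F₁ F₂ : ℝ × ℝ → ℝ} (mF₀ : Measurable F₀) (mF₁ : Measurable F₁)
    (mF₂ : Measurable F₂) {M : ℝ} (bF₀ : ∀ p, |F₀ p| ≤ M) (bF₁ : ∀ p, |F₁ p| ≤ M)
    (bF₂ : ∀ p, |F₂ p| ≤ M) (cF₀ : HasCompactSupport F₀) (cF₁ : HasCompactSupport F₁)
    (cF₂ : HasCompactSupport F₂) (S : Finset ℤ) (ε : ℤ → ℝ) (hε : ∀ k, |ε k| ≤ 1) :
    |dyadicForm S ε F₀ F₁ F₂| ≤ (4 * (1 + √2)) * (quadI F₀ + quadI F₁ + quadI F₂) := by
  have hM : 0 ≤ M := (abs_nonneg _).trans (bF₀ 0)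
  obtain ⟨R₀, hR₀⟩ := exists_radius cF₀
  obtain ⟨R₁, hR₁⟩ := exists_radius cF₁
  obtain ⟨R₂, hR₂⟩ := exists_radius cF₂
  obtain ⟨n, hn⟩ := pow_unbounded_of_one_lt (max R₀ (max R₁ R₂)) (one_lt_two : (1 : ℝ) < 2)
  obtain ⟨b, hb⟩ := S.bddAbove
  set K : ℤ := max (n : ℤ) b with hK
  have hKn : (2 : ℝ) ^ n ≤ (2 : ℝ) ^ K := by
    rw [← zpow_natCast]
    exact zpow_le_zpow_right₀ (by norm_num) (le_max_left _ _)
  have hSK : ∀ k ∈ S, k ≤ K := fun k hk => (hb hk).trans (le_max_right _ _)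
  have h₀ : R₀ < (2 : ℝ) ^ K := by
    have := le_max_left R₀ (max R₁ R₂); linarith
  have h₁ : R₁ < (2 : ℝ) ^ K := by
    have := le_max_left R₁ R₂
    have := le_max_right R₀ (max R₁ R₂)
    linarith
  have h₂ : R₂ < (2 : ℝ) ^ K := by
    have := le_max_right R₁ R₂
    have := le_max_right R₀ (max R₁ R₂)
    linarith
  -- the truncations
  have trunc : ∀ {F : ℝ × ℝ → ℝ}, Measurable F → (∀ p, |F p| ≤ M) →
      (∀ p ∈ quad, p ∉ rootQ K → F p = 0) →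
      Measurable ((rootQ K).indicator F) ∧ (∀ p, |(rootQ K).indicator F p| ≤ M) ∧
      (∀ p, p ∉ rootQ K → (rootQ K).indicator F p = 0) ∧
      (∀ p ∈ quad, (rootQ K).indicator F p = F p) ∧
      (∫ p, |(rootQ K).indicator F p| ^ 3 = quadI F) := by
    intro F mF bF vF
    have hq : ∀ p ∈ quad, (rootQ K).indicator F p = F p := by
      intro p hp
      by_cases h : p ∈ rootQ K
      · rw [Set.indicator_of_mem h]
      · rw [Set.indicator_of_notMem h, vF p hp h]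
    refine ⟨mF.indicator (measurableSet_rootQ K), ?_, ?_, hq, ?_⟩
    · intro p
      by_cases h : p ∈ rootQ K
      · rw [Set.indicator_of_mem h]; exact bF p
      · rw [Set.indicator_of_notMem h]; simpa using hM
    · intro p hp
      exact Set.indicator_of_notMem hp _
    · unfold quadI
      rw [← setIntegral_eq_integral_of_forall_compl_eq_zero (s := quad)]
      · apply setIntegral_congr_fun measurableSet_quad
        intro p hp
        simp only []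
        rw [hq p hp]
      · intro p hp
        have : p ∉ rootQ K := fun h => hp (rootQ_subset_quad K h)
        rw [Set.indicator_of_notMem this]
        simp
  obtain ⟨m₀, b₀, v₀, q₀, i₀⟩ := trunc mF₀ bF₀ (hR₀ K h₀)
  obtain ⟨m₁, b₁, v₁, q₁, i₁⟩ := trunc mF₁ bF₁ (hR₁ K h₁)
  obtain ⟨m₂, b₂, v₂, q₂, i₂⟩ := trunc mF₂ bF₂ (hR₂ K h₂)
  have := main_sum m₀ m₁ m₂ hM b₀ b₁ b₂ v₀ v₁ v₂ S ε hε hSK
  rw [i₀, i₁, i₂, dyadicForm_congr q₀ q₁ q₂] at this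
  exact this

lemma formL_scale (c₀ c₁ c₂ : ℝ) (F₀ F₁ F₂ : ℝ × ℝ → ℝ) (k : ℤ) (n₀ n₁ n₂ : ℕ) :
    formL (fun p => c₀ * F₀ p) (fun p => c₁ * F₁ p) (fun p => c₂ * F₂ p) k n₀ n₁ n₂ =
      c₀ * c₁ * c₂ * formL F₀ F₁ F₂ k n₀ n₁ n₂ := by
  unfold formL
  have : ∀ x : ℝ × ℝ × ℝ,
      c₀ * F₀ (x.1, x.2.1) * (c₁ * F₁ (x.2.1, x.2.2)) * (c₂ * F₂ (x.2.2, x.1)) *
        (haar k n₀ x.1 * haar k n₁ x.2.1 * haar k n₂ x.2.2) =
      c₀ * c₁ * c₂ * (F₀ (x.1, x.2.1) * F₁ (x.2.1, x.2.2) * F₂ (x.2.2, x.1) *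
        (haar k n₀ x.1 * haar k n₁ x.2.1 * haar k n₂ x.2.2)) := fun x => by ring
  simp only [this]
  rw [integral_const_mul]
  ring

lemma dyadicForm_scale (c₀ c₁ c₂ : ℝ) (F₀ F₁ F₂ : ℝ × ℝ → ℝ) (S : Finset ℤ) (ε : ℤ → ℝ) :
    dyadicForm S ε (fun p => c₀ * F₀ p) (fun p => c₁ * F₁ p) (fun p => c₂ * F₂ p) =
      c₀ * c₁ * c₂ * dyadicForm S ε F₀ F₁ F₂ := by
  unfold dyadicForm
  simp only [formL_scale]
  rw [Finset.mul_sum]
  apply Finset.sum_congr rfl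
  intro k _
  rw [tsum_mul_left]
  ring

lemma quadI_scale {c : ℝ} (hc : 0 ≤ c) (F : ℝ × ℝ → ℝ) :
    quadI (fun p => c * F p) = c ^ 3 * quadI F := by
  unfold quadI
  rw [← integral_const_mul]
  congr 1
  funext p
  rw [abs_mul, abs_of_nonneg hc]
  ring

lemma l3norm_cube (F : ℝ × ℝ → ℝ) : (l3norm F) ^ 3 = quadI F := by
  unfold l3norm
  have : (∫ p in Set.Ici (0 : ℝ) ×ˢ Set.Ici (0 : ℝ), |F p| ^ 3) = quadI F := rfl
  rw [this, ← Real.rpow_natCast, ← Real.rpow_mul (quadI_nonneg F)]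
  norm_num

lemma l3norm_nonneg (F : ℝ × ℝ → ℝ) : 0 ≤ l3norm F := by
  unfold l3norm
  positivity

/-- The uniform bound for the dyadic triangular form. -/
theorem main_theorem : ∃ C : ℝ, ∀ (S : Finset ℤ) (ε : ℤ → ℝ) (F₀ F₁ F₂ : ℝ × ℝ → ℝ),
    (∀ k, |ε k| ≤ 1) →
    Measurable F₀ → Measurable F₁ → Measurable F₂ →
    (∃ M, ∀ p, |F₀ p| ≤ M) → (∃ M, ∀ p, |F₁ p| ≤ M) → (∃ M, ∀ p, |F₂ p| ≤ M) →
    HasCompactSupport F₀ → HasCompactSupport F₁ → HasCompactSupport F₂ →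
    |dyadicForm S ε F₀ F₁ F₂| ≤ C * (l3norm F₀ * l3norm F₁ * l3norm F₂) := by
  refine ⟨3 * (4 * (1 + √2)), ?_⟩
  intro S ε F₀ F₁ F₂ hε mF₀ mF₁ mF₂ ⟨M₀, bF₀⟩ ⟨M₁, bF₁⟩ ⟨M₂, bF₂⟩ cF₀ cF₁ cF₂
  set C₀ : ℝ := 4 * (1 + √2) with hC₀
  have hC₀0 : 0 ≤ C₀ := by positivity
  set N₀ := l3norm F₀ with hN₀
  set N₁ := l3norm F₁ with hN₁
  set N₂ := l3norm F₂ with hN₂
  have n₀ : 0 ≤ N₀ := l3norm_nonneg F₀
  have n₁ : 0 ≤ N₁ := l3norm_nonneg F₁
  have n₂ : 0 ≤ N₂ := l3norm_nonneg F₂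
  have key : ∀ τ : ℝ, 0 < τ →
      |dyadicForm S ε F₀ F₁ F₂| ≤ 3 * C₀ * ((N₀ + τ) * (N₁ + τ) * (N₂ + τ)) := by
    intro τ hτ
    set a₀ := N₀ + τ with ha₀
    set a₁ := N₁ + τ with ha₁
    set a₂ := N₂ + τ with ha₂
    have p₀ : 0 < a₀ := by positivity
    have p₁ : 0 < a₁ := by positivity
    have p₂ : 0 < a₂ := by positivity
    set c₀ := a₀⁻¹ with hc₀
    set c₁ := a₁⁻¹ with hc₁
    set c₂ := a₂⁻¹ with hc₂
    have q₀ : 0 < c₀ := by positivity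
    have q₁ : 0 < c₁ := by positivity
    have q₂ : 0 < c₂ := by positivity
    set M := max (c₀ * M₀) (max (c₁ * M₁) (c₂ * M₂)) with hM
    have b₀ : ∀ p, |c₀ * F₀ p| ≤ M := fun p => by
      rw [abs_mul, abs_of_pos q₀]
      exact (mul_le_mul_of_nonneg_left (bF₀ p) q₀.le).trans (le_max_left _ _)
    have b₁ : ∀ p, |c₁ * F₁ p| ≤ M := fun p => by
      rw [abs_mul, abs_of_pos q₁]
      exact (mul_le_mul_of_nonneg_left (bF₁ p) q₁.le).trans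
        ((le_max_left _ _).trans (le_max_right _ _))
    have b₂ : ∀ p, |c₂ * F₂ p| ≤ M := fun p => by
      rw [abs_mul, abs_of_pos q₂]
      exact (mul_le_mul_of_nonneg_left (bF₂ p) q₂.le).trans
        ((le_max_right _ _).trans (le_max_right _ _))
    have cc : ∀ {F : ℝ × ℝ → ℝ} (c : ℝ), HasCompactSupport F →
        HasCompactSupport (fun p => c * F p) := by
      intro F c hF
      exact hF.comp_left (g := fun y => c * y) (by simp)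
    have h := final_sum (mF₀.const_mul c₀) (mF₁.const_mul c₁) (mF₂.const_mul c₂) b₀ b₁ b₂
      (cc c₀ cF₀) (cc c₁ cF₁) (cc c₂ cF₂) S ε hε
    rw [dyadicForm_scale, quadI_scale q₀.le, quadI_scale q₁.le, quadI_scale q₂.le, abs_mul,
      abs_of_pos (by positivity : 0 < c₀ * c₁ * c₂)] at h
    have u : ∀ {N c a : ℝ}, 0 ≤ N → c = a⁻¹ → a = N + τ → c ^ 3 * N ^ 3 ≤ 1 := by
      intro N c a hN hc ha
      have ha0 : 0 < a := by rw [ha]; positivity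
      have : c * N ≤ 1 := by
        rw [hc, inv_mul_le_iff₀ ha0, mul_one, ha]
        linarith
      rw [← mul_pow]
      exact pow_le_one₀ (by rw [hc]; positivity) this
    have u₀ := u n₀ hc₀ ha₀
    have u₁ := u n₁ hc₁ ha₁
    have u₂ := u n₂ hc₂ ha₂
    rw [hN₀, l3norm_cube] at u₀
    rw [hN₁, l3norm_cube] at u₁
    rw [hN₂, l3norm_cube] at u₂
    have h3 : c₀ * c₁ * c₂ * |dyadicForm S ε F₀ F₁ F₂| ≤ C₀ * 3 := by
      refine h.trans ?_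
      apply mul_le_mul_of_nonneg_left _ hC₀0
      linarith
    have h4 : a₀ * a₁ * a₂ * (c₀ * c₁ * c₂) = 1 := by
      rw [hc₀, hc₁, hc₂]
      field_simp
    calc |dyadicForm S ε F₀ F₁ F₂| = (a₀ * a₁ * a₂ * (c₀ * c₁ * c₂)) * |dyadicForm S ε F₀ F₁ F₂| := by
          rw [h4, one_mul]
      _ = (a₀ * a₁ * a₂) * (c₀ * c₁ * c₂ * |dyadicForm S ε F₀ F₁ F₂|) := by ring
      _ ≤ (a₀ * a₁ * a₂) * (C₀ * 3) := mul_le_mul_of_nonneg_left h3 (by positivity)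
      _ = _ := by ring
  have hlim : Tendsto (fun τ : ℝ => 3 * C₀ * ((N₀ + τ) * (N₁ + τ) * (N₂ + τ))) (𝓝[>] 0)
      (𝓝 (3 * C₀ * ((N₀ + 0) * (N₁ + 0) * (N₂ + 0)))) := by
    have hc : Continuous (fun τ : ℝ => 3 * C₀ * ((N₀ + τ) * (N₁ + τ) * (N₂ + τ))) := by
      fun_prop
    exact (hc.tendsto 0).mono_left nhdsWithin_le_nhds
  have := ge_of_tendsto hlim (by
    filter_upwards [self_mem_nhdsWithin] with τ hτ
    exact key τ hτ)
  simpa using this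

end Vale.Agent.Lib.P075
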