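import Vale.Agent.Lib.P075.Pinch

set_option linter.unusedSectionVars false
set_option linter.unusedSimpArgs false

open Matrix
open scoped MatrixOrder

namespace Vale.Agent.Lib.P075

variable {n m V x : Type*} [Fintype n] [Fintype m] [DecidableEq n] [DecidableEq m]
  [Fintype V] [DecidableEq V] [Fintype x] [DecidableEq x]

/-- The convexity gain of the energy for the split `X₀ + X₁`. -/
noncomputable def gainD (X₀ X₁ : Matrix V V ℝ) : ℝ :=
  (1 / 2) * (ener ((2 : ℝ) • X₀) + ener ((2 : ℝ) • X₁)) - ener (X₀ + X₁)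

/-- Remainder identity with `S * S = W + Δ` and `S₀ * S₀ = W`. -/
lemma rem_identity {S S₀ W Δ : Matrix V V ℝ} (h : S * S = W + Δ) (h₀ : S₀ * S₀ = W) :
    trace (S * S * S) - trace (S₀ * S₀ * S₀) - (3 / 2) * trace (Δ * S₀)
      = trace ((S - S₀) * (S - S₀) * S) + (1 / 2) * trace ((S - S₀) * (S - S₀) * S₀) := by
  have h1 := trace_identity S S₀
  have h2 : trace (S * S * S₀) = trace (S₀ * S₀ * S₀) + trace (Δ * S₀) := by
    rw [h, h₀, Matrix.add_mul, trace_add]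
  rw [h2] at h1
  linarith

/-- The symmetrized square difference. -/
lemma trace_RTE {S S₀ E : Matrix V V ℝ} (hS : Sᵀ = S) (hS₀ : S₀ᵀ = S₀) (hE : Eᵀ = E) :
    trace ((S - S₀) * (S + S₀) * E) = trace ((S * S - S₀ * S₀) * E) := by
  have hsw : trace (S₀ * S * E) = trace (S * S₀ * E) := by
    have : trace (S * S₀ * E) = trace ((S * S₀ * E)ᵀ) := (trace_transpose _).symm
    rw [this]
    simp only [transpose_mul, hS, hS₀, hE]
    exact trace_mul_comm _ _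
  simp only [sub_mul, mul_add, add_mul, trace_sub, trace_add]
  rw [hsw]
  ring

/-- Main gain estimate: pick the better of the two signs. -/
lemma gain_key {X₀ X₁ E : Matrix V V ℝ} (h₀ : X₀.PosSemidef) (h₁ : X₁.PosSemidef) (hE : Eᵀ = E) :
    ∃ S S₀ X : Matrix V V ℝ, S.PosSemidef ∧ S₀.PosSemidef ∧ (X = X₀ ∨ X = X₁) ∧
      S * S = (2 : ℝ) • X ∧ S₀ * S₀ = X₀ + X₁ ∧
      (trace ((X₀ - X₁) * E)) ^ 2 ≤ 2 * gainD X₀ X₁ * trace (E * E * (S + S₀)) := by
  obtain ⟨S₀, hS₀, hr₀⟩ := exists_root (h₀.add h₁)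
  have h2 : (0 : ℝ) ≤ 2 := by norm_num
  obtain ⟨Sa, hSa, hra⟩ := exists_root (h₀.smul h2)
  obtain ⟨Sb, hSb, hrb⟩ := exists_root (h₁.smul h2)
  have ea : Sa * Sa = (X₀ + X₁) + (X₀ - X₁) := by
    rw [hra, two_smul]; abel
  have eb : Sb * Sb = (X₀ + X₁) + (-(X₀ - X₁)) := by
    rw [hrb, two_smul]; abel
  have ra := rem_identity ea hr₀
  have rb := rem_identity eb hr₀
  rw [← ener_eq hSa hra, ← ener_eq hS₀ hr₀] at ra
  rw [← ener_eq hSb hrb, ← ener_eq hS₀ hr₀] at rb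
  have hneg : trace (-(X₀ - X₁) * S₀) = - trace ((X₀ - X₁) * S₀) := by
    rw [Matrix.neg_mul, trace_neg]
  rw [hneg] at rb
  have hg : 2 * gainD X₀ X₁ =
      (trace ((Sa - S₀) * (Sa - S₀) * Sa) + (1 / 2) * trace ((Sa - S₀) * (Sa - S₀) * S₀))
      + (trace ((Sb - S₀) * (Sb - S₀) * Sb) + (1 / 2) * trace ((Sb - S₀) * (Sb - S₀) * S₀)) := by
    unfold gainD
    linarith
  have sa := trace_sq_mul_nonneg (sub_symm hSa hS₀) hSa
  have sa' := trace_sq_mul_nonneg (sub_symm hSa hS₀) hS₀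
  have sb := trace_sq_mul_nonneg (sub_symm hSb hS₀) hSb
  have sb' := trace_sq_mul_nonneg (sub_symm hSb hS₀) hS₀
  -- the generic estimate
  have gen : ∀ S : Matrix V V ℝ, S.PosSemidef →
      (trace ((S - S₀) * (S + S₀) * E)) ^ 2 ≤
        (2 * (trace ((S - S₀) * (S - S₀) * S) + (1 / 2) * trace ((S - S₀) * (S - S₀) * S₀)))
          * trace (E * E * (S + S₀)) := by
    intro S hS
    have hT : (S + S₀).PosSemidef := hS.add hS₀
    have := trace_cs (sub_symm hS hS₀) hT hE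
    have h3 : 0 ≤ trace (E * E * (S + S₀)) := trace_sq_mul_nonneg hE hT
    have h4 : trace ((S - S₀) * (S - S₀) * (S + S₀)) ≤
        2 * (trace ((S - S₀) * (S - S₀) * S) + (1 / 2) * trace ((S - S₀) * (S - S₀) * S₀)) := by
      rw [Matrix.mul_add, trace_add]
      have := trace_sq_mul_nonneg (sub_symm hS hS₀) hS
      linarith
    exact this.trans (mul_le_mul_of_nonneg_right h4 h3)
  by_cases hab : trace ((Sa - S₀) * (Sa - S₀) * Sa) + (1 / 2) * trace ((Sa - S₀) * (Sa - S₀) * S₀)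
      ≤ gainD X₀ X₁
  · refine ⟨Sa, S₀, X₀, hSa, hS₀, Or.inl rfl, hra, hr₀, ?_⟩
    have := gen Sa hSa
    rw [trace_RTE (psd_symm hSa) (psd_symm hS₀) hE, ea, hr₀] at this
    have e : (X₀ + X₁ + (X₀ - X₁) - (X₀ + X₁)) = X₀ - X₁ := by abel
    rw [e] at this
    refine this.trans (mul_le_mul_of_nonneg_right (by linarith) ?_)
    exact trace_sq_mul_nonneg hE (hSa.add hS₀)
  · refine ⟨Sb, S₀, X₁, hSb, hS₀, Or.inr rfl, hrb, hr₀, ?_⟩
    have := gen Sb hSb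
    rw [trace_RTE (psd_symm hSb) (psd_symm hS₀) hE, eb, hr₀] at this
    have e : (X₀ + X₁ + -(X₀ - X₁) - (X₀ + X₁)) = -(X₀ - X₁) := by abel
    rw [e, Matrix.neg_mul, trace_neg, neg_sq] at this
    refine this.trans (mul_le_mul_of_nonneg_right (by linarith) ?_)
    exact trace_sq_mul_nonneg hE (hSb.add hS₀)

lemma gain_nonneg {X₀ X₁ : Matrix V V ℝ} (h₀ : X₀.PosSemidef) (h₁ : X₁.PosSemidef) :
    0 ≤ gainD X₀ X₁ := by
  obtain ⟨S₀, hS₀, hr₀⟩ := exists_root (h₀.add h₁)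
  have h2 : (0 : ℝ) ≤ 2 := by norm_num
  obtain ⟨Sa, hSa, hra⟩ := exists_root (h₀.smul h2)
  obtain ⟨Sb, hSb, hrb⟩ := exists_root (h₁.smul h2)
  have ea : Sa * Sa = (X₀ + X₁) + (X₀ - X₁) := by
    rw [hra, two_smul]; abel
  have eb : Sb * Sb = (X₀ + X₁) + (-(X₀ - X₁)) := by
    rw [hrb, two_smul]; abel
  have ra := rem_identity ea hr₀
  have rb := rem_identity eb hr₀
  rw [← ener_eq hSa hra, ← ener_eq hS₀ hr₀] at ra
  rw [← ener_eq hSb hrb, ← ener_eq hS₀ hr₀] at rb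
  have hneg : trace (-(X₀ - X₁) * S₀) = - trace ((X₀ - X₁) * S₀) := by
    rw [Matrix.neg_mul, trace_neg]
  rw [hneg] at rb
  have sa := trace_sq_mul_nonneg (sub_symm hSa hS₀) hSa
  have sa' := trace_sq_mul_nonneg (sub_symm hSa hS₀) hS₀
  have sb := trace_sq_mul_nonneg (sub_symm hSb hS₀) hSb
  have sb' := trace_sq_mul_nonneg (sub_symm hSb hS₀) hS₀
  unfold gainD
  linarith

/-- Compression of a square root through an isometry. -/
lemma compress_le {J : Matrix V x ℝ} (hJ : Jᵀ * J = 1) {S : Matrix V V ℝ} (hS : S.PosSemidef)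
    {a : Matrix x x ℝ} (ha : a.PosSemidef) (h : (a * a - Jᵀ * (S * S) * J).PosSemidef) :
    (a - Jᵀ * S * J).PosSemidef := by
  have hc : (Jᵀ * S * J).PosSemidef := by
    have := psd_conj hS Jᵀ
    rwa [transpose_transpose] at this
  apply sqrt_mono hc ha
  have hp : ((1 : Matrix V V ℝ) - J * Jᵀ).PosSemidef := by
    have hsym : ((1 : Matrix V V ℝ) - J * Jᵀ)ᵀ = 1 - J * Jᵀ := by simp [transpose_mul]
    have hid : ((1 : Matrix V V ℝ) - J * Jᵀ) * ((1 : Matrix V V ℝ) - J * Jᵀ) = 1 - J * Jᵀ := by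
      simp only [sub_mul, mul_sub, one_mul, mul_one]
      have : J * Jᵀ * (J * Jᵀ) = J * Jᵀ := by
        rw [Matrix.mul_assoc, ← Matrix.mul_assoc Jᵀ, hJ, Matrix.one_mul]
      rw [this]; abel
    have := psd_mul_self_tr ((1 : Matrix V V ℝ) - J * Jᵀ)
    rwa [hsym, hid] at this
  have hq : ((S * J)ᵀ * ((1 : Matrix V V ℝ) - J * Jᵀ) * ((S * J)ᵀ)ᵀ).PosSemidef := psd_conj hp _
  have e : a * a - Jᵀ * S * J * (Jᵀ * S * J) =
      (a * a - Jᵀ * (S * S) * J) + ((S * J)ᵀ * ((1 : Matrix V V ℝ) - J * Jᵀ) * ((S * J)ᵀ)ᵀ) := by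
    simp only [transpose_transpose, transpose_mul, psd_symm hS, Matrix.sub_mul, Matrix.mul_sub,
      Matrix.one_mul, Matrix.mul_one, Matrix.mul_assoc]
    abel
  rw [e]
  exact h.add hq

end Vale.Agent.Lib.P075
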