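import Vale.Agent.Lib.P075.Local

set_option linter.unusedSectionVars false
set_option linter.unusedSimpArgs false

open Matrix Finset
open scoped MatrixOrder

namespace Vale.Agent.Lib.P075

section generic

variable {n : Type*} [Fintype n] [DecidableEq n]

lemma avg_Phi (P A B C : Matrix n n ℝ) :
    avgPot P A B + avgPot P B C + avgPot P C A =
      (1 / 4) * ∑ a : Bool, ∑ b : Bool,
        Phi ((2 : ℝ) • (Pb P a * A * Pb P b)) ((2 : ℝ) • (Pb P b * B * Pb P (xor a b)))
          ((2 : ℝ) • (Pb P (xor a b) * C * Pb P a)) := by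
  simp only [avgPot, Phi, Fintype.sum_bool, Bool.xor_true, Bool.xor_false, Bool.not_true,
    Bool.not_false, Bool.true_xor, Bool.false_xor]
  ring

/-- Upper bound of the energy by the trace. -/
lemma ener_le {X : Matrix n n ℝ} (hX : X.PosSemidef) {t : ℝ} (ht : 0 ≤ t) (h : trace X ≤ t * t) :
    ener X ≤ t * t * t := by
  obtain ⟨S, hS, rfl⟩ := exists_root hX
  rw [ener_eq hS rfl]
  have hH := hS.1
  set lam := hH.eigenvalues with hlam
  have hlam0 : ∀ i, 0 ≤ lam i := hS.eigenvalues_nonneg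
  set U : Matrix n n ℝ := (hH.eigenvectorUnitary : Matrix n n ℝ) with hU
  have hUU : Uᵀ * U = 1 := by
    have := Unitary.coe_star_mul_self hH.eigenvectorUnitary
    rwa [star_eq_conjTranspose, conjTranspose_eq_transpose_of_trivial] at this
  have hSd : S = U * diagonal lam * Uᵀ := by
    have := hH.spectral_theorem
    rw [Unitary.conjStarAlgAut_apply] at this
    rw [star_eq_conjTranspose, conjTranspose_eq_transpose_of_trivial] at this
    exact this
  have hUc : ∀ X : Matrix n n ℝ, Uᵀ * (U * X) = X := by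
    intro X
    rw [← Matrix.mul_assoc, hUU, Matrix.one_mul]
  have e2 : trace (S * S) = ∑ i, lam i * lam i := by
    have : S * S = U * (diagonal lam * diagonal lam) * Uᵀ := by
      rw [hSd]
      simp only [Matrix.mul_assoc, hUc]
    rw [this, trace_conj hUU, diagonal_mul_diagonal, trace_diagonal]
  have e3 : trace (S * S * S) = ∑ i, lam i * lam i * lam i := by
    have : S * S * S = U * (diagonal lam * diagonal lam * diagonal lam) * Uᵀ := by
      rw [hSd]
      simp only [Matrix.mul_assoc, hUc]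
    rw [this, trace_conj hUU, diagonal_mul_diagonal, diagonal_mul_diagonal, trace_diagonal]
  rw [e2] at h
  rw [e3]
  have hle : ∀ i, lam i ≤ t := by
    intro i
    have h1 : lam i * lam i ≤ ∑ i, lam i * lam i :=
      Finset.single_le_sum (f := fun i => lam i * lam i) (fun j _ => mul_self_nonneg _)
        (Finset.mem_univ i)
    nlinarith [hlam0 i]
  calc ∑ i, lam i * lam i * lam i ≤ ∑ i, lam i * lam i * t := by
        apply Finset.sum_le_sum
        intro i _
        exact mul_le_mul_of_nonneg_left (hle i) (mul_self_nonneg _)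
    _ = (∑ i, lam i * lam i) * t := by rw [Finset.sum_mul]
    _ ≤ t * t * t := mul_le_mul_of_nonneg_right h ht

lemma trace_pairG (A B : Matrix n n ℝ) :
    trace (pairG A B * (pairG A B)ᵀ) = ∑ i, ∑ j, (A i j) ^ 2 + ∑ i, ∑ j, (B i j) ^ 2 := by
  have e1 : ∀ i j, pairG A B (Sum.inl i) j = A i j := by
    intro i j
    simp [pairG, Matrix.add_apply, Matrix.mul_apply, J₁, J₂]
  have e2 : ∀ i j, pairG A B (Sum.inr i) j = B j i := by
    intro i j
    simp [pairG, Matrix.add_apply, Matrix.mul_apply, J₁, J₂]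
  simp only [Matrix.trace, Matrix.diag, Matrix.mul_apply, transpose_apply, Fintype.sum_sum_type,
    e1, e2]
  congr 1
  · apply Finset.sum_congr rfl
    intro i _
    apply Finset.sum_congr rfl
    intro j _
    ring
  · rw [Finset.sum_comm]
    apply Finset.sum_congr rfl
    intro i _
    apply Finset.sum_congr rfl
    intro j _
    ring

lemma pot_nonneg (A B : Matrix n n ℝ) : 0 ≤ pot A B :=
  ener_nonneg (psd_mul_self_tr _)

lemma Phi_nonneg (A B C : Matrix n n ℝ) : 0 ≤ Phi A B C := by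
  have h1 := pot_nonneg A B
  have h2 := pot_nonneg B C
  have h3 := pot_nonneg C A
  unfold Phi
  linarith

lemma pot_le {A B : Matrix n n ℝ} {x y : ℝ} (hx : 0 ≤ x) (hy : 0 ≤ y)
    (hA : ∑ i, ∑ j, (A i j) ^ 2 ≤ x ^ 2) (hB : ∑ i, ∑ j, (B i j) ^ 2 ≤ y ^ 2) :
    pot A B ≤ 4 * (x ^ 3 + y ^ 3) := by
  have h := ener_le (psd_mul_self_tr (pairG A B)) (add_nonneg hx hy) (by
    rw [trace_pairG]
    nlinarith [mul_nonneg hx hy])
  unfold pot
  refine h.trans ?_
  nlinarith [mul_nonneg (add_nonneg hx hy) (sq_nonneg (x - y))]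

end generic

section levels

variable {d : ℕ}

/-- Projection on the indices whose prefix at height `e` equals `m`. -/
def proj (d e m : ℕ) : Matrix (Fin (2 ^ d)) (Fin (2 ^ d)) ℝ :=
  diagonal fun i => if (i : ℕ) / 2 ^ e = m then 1 else 0

/-- Projection on the indices whose bit number `e` vanishes. -/
def bitP (d e : ℕ) : Matrix (Fin (2 ^ d)) (Fin (2 ^ d)) ℝ :=
  diagonal fun i => if (i : ℕ) / 2 ^ e % 2 = 0 then 1 else 0

lemma bitP_symm (d e : ℕ) : (bitP d e)ᵀ = bitP d e := diagonal_transpose _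

lemma bitP_idem (d e : ℕ) : bitP d e * bitP d e = bitP d e := by
  unfold bitP
  rw [diagonal_mul_diagonal]
  congr 1
  funext i
  split_ifs <;> norm_num

lemma Pb_bitP (d e : ℕ) (a : Bool) :
    Pb (bitP d e) a =
      (diagonal fun i : Fin (2 ^ d) => if (i : ℕ) / 2 ^ e % 2 = a.toNat then (1 : ℝ) else 0) := by
  cases a
  · rfl
  · simp only [Pb, bitP, if_true, Bool.toNat_true]
    ext i j
    by_cases hij : i = j
    · subst hij
      simp only [Matrix.sub_apply, Matrix.one_apply_eq, diagonal_apply_eq]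
      have : (i : ℕ) / 2 ^ e % 2 = 0 ∨ (i : ℕ) / 2 ^ e % 2 = 1 := Nat.mod_two_eq_zero_or_one _
      rcases this with h | h <;> simp [h]
    · simp [Matrix.sub_apply, Matrix.one_apply_ne, hij]

lemma Pb_proj (d e m : ℕ) (a : Bool) :
    Pb (bitP d e) a * proj d (e + 1) m = proj d e (2 * m + a.toNat) := by
  rw [Pb_bitP]
  unfold proj
  rw [diagonal_mul_diagonal]
  congr 1
  funext i
  have h : (i : ℕ) / 2 ^ (e + 1) = (i : ℕ) / 2 ^ e / 2 := by
    rw [Nat.div_div_eq_div_mul, pow_succ]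
  rw [h]
  set q := (i : ℕ) / 2 ^ e
  have ha : a.toNat ≤ 1 := Bool.toNat_le a
  by_cases h3 : q = 2 * m + a.toNat
  · have h1 : q % 2 = a.toNat := by omega
    have h2 : q / 2 = m := by omega
    rw [if_pos h1, if_pos h2, if_pos h3]
    norm_num
  · rw [if_neg h3]
    by_cases h1 : q % 2 = a.toNat
    · have h2 : ¬ q / 2 = m := by omega
      rw [if_neg h2, mul_zero]
    · rw [if_neg h1, zero_mul]

lemma proj_Pb (d e m : ℕ) (a : Bool) :
    proj d (e + 1) m * Pb (bitP d e) a = proj d e (2 * m + a.toNat) := by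
  rw [← Pb_proj, Pb_bitP]
  unfold proj
  rw [diagonal_mul_diagonal, diagonal_mul_diagonal]
  congr 1
  funext i
  ring

/-- The rescaled restriction of a matrix to a pair of dyadic blocks. -/
noncomputable def nd (s : ℝ) (e m m' : ℕ) (X : Matrix (Fin (2 ^ d)) (Fin (2 ^ d)) ℝ) :
    Matrix (Fin (2 ^ d)) (Fin (2 ^ d)) ℝ :=
  s • (proj d e m * X * proj d e m')

lemma child_nd (s : ℝ) (e m m' : ℕ) (a b : Bool) (X : Matrix (Fin (2 ^ d)) (Fin (2 ^ d)) ℝ) :
    (2 : ℝ) • (Pb (bitP d e) a * nd s (e + 1) m m' X * Pb (bitP d e) b)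
      = nd (2 * s) e (2 * m + a.toNat) (2 * m' + b.toNat) X := by
  unfold nd
  rw [Matrix.mul_smul, Matrix.smul_mul, smul_smul]
  congr 1
  rw [← Pb_proj, ← proj_Pb d e m' b]
  simp only [Matrix.mul_assoc]

lemma xor_double (m m' : ℕ) (a b : Bool) :
    (2 * m + a.toNat) ^^^ (2 * m' + b.toNat) = 2 * (m ^^^ m') + (xor a b).toNat := by
  have h := Nat.xor_bit a m b m'
  simp only [Nat.bit_val] at h
  rw [h]

/-- Potential of the node with prefixes `m`, `m'` and `m ^^^ m'`. -/
noncomputable def PhiNode (A B C : Matrix (Fin (2 ^ d)) (Fin (2 ^ d)) ℝ) (s : ℝ) (e m m' : ℕ) : ℝ :=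
  Phi (nd s e m m' A) (nd s e m' (m ^^^ m') B) (nd s e (m ^^^ m') m C)

/-- The value of the trilinear form at the node with prefixes `m`, `m'` and `m ^^^ m'`. -/
noncomputable def Lnode (A B C : Matrix (Fin (2 ^ d)) (Fin (2 ^ d)) ℝ) (s : ℝ) (e m m' : ℕ) : ℝ :=
  trace (nd s (e + 1) m m' A * (bitP d e - (1 - bitP d e)) * nd s (e + 1) m' (m ^^^ m') B
    * (bitP d e - (1 - bitP d e)) * nd s (e + 1) (m ^^^ m') m C * (bitP d e - (1 - bitP d e)))

lemma node_local (A B C : Matrix (Fin (2 ^ d)) (Fin (2 ^ d)) ℝ) (s : ℝ) (e m m' : ℕ) :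
    |Lnode A B C s e m m'| ≤ ((1 + √2) / 2) *
      ((1 / 4) * ∑ a : Bool, ∑ b : Bool,
          PhiNode A B C (2 * s) e (2 * m + a.toNat) (2 * m' + b.toNat)
        - PhiNode A B C s (e + 1) m m') := by
  have h := local_ineq (A := nd s (e + 1) m m' A) (B := nd s (e + 1) m' (m ^^^ m') B)
    (C := nd s (e + 1) (m ^^^ m') m C) (bitP_symm d e) (bitP_idem d e)
  rw [avg_Phi] at h
  unfold Lnode PhiNode
  refine h.trans (le_of_eq ?_)
  congr 3
  apply Finset.sum_congr rfl
  intro a _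
  apply Finset.sum_congr rfl
  intro b _
  rw [child_nd, child_nd, child_nd, xor_double]

/-- Splitting a sum over `2 * n` indices into even and odd parts. -/
lemma sum_range_two_mul (n : ℕ) (f : ℕ → ℝ) :
    ∑ m ∈ Finset.range (2 * n), f m = ∑ m ∈ Finset.range n, ∑ a : Bool, f (2 * m + a.toNat) := by
  induction n with
  | zero => simp
  | succ k ih =>
    rw [Nat.mul_succ, Finset.sum_range_succ_comm]
    simp only [Finset.sum_range_succ, ih, Fintype.sum_bool, Bool.toNat_true, Bool.toNat_false]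
    simp only [add_zero]
    ring

/-- Potential of level `t` at height `e`. -/
noncomputable def levelF (A B C : Matrix (Fin (2 ^ d)) (Fin (2 ^ d)) ℝ) (t e : ℕ) : ℝ :=
  (1 / 4 ^ t) * ∑ m ∈ Finset.range (2 ^ t), ∑ m' ∈ Finset.range (2 ^ t),
    PhiNode A B C (2 ^ t) e m m'

lemma levelF_nonneg (A B C : Matrix (Fin (2 ^ d)) (Fin (2 ^ d)) ℝ) (t e : ℕ) :
    0 ≤ levelF A B C t e := by
  unfold levelF
  apply mul_nonneg (by positivity)
  exact Finset.sum_nonneg fun m _ => Finset.sum_nonneg fun m' _ => Phi_nonneg _ _ _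

lemma level_step (A B C : Matrix (Fin (2 ^ d)) (Fin (2 ^ d)) ℝ) (t e : ℕ) :
    (1 / 4 ^ t) * ∑ m ∈ Finset.range (2 ^ t), ∑ m' ∈ Finset.range (2 ^ t),
        |Lnode A B C (2 ^ t) e m m'|
      ≤ ((1 + √2) / 2) * (levelF A B C (t + 1) e - levelF A B C t (e + 1)) := by
  have e2 : (2 : ℕ) ^ (t + 1) = 2 * 2 ^ t := by rw [pow_succ]; ring
  have e3 : ((2 : ℝ) ^ (t + 1)) = 2 * 2 ^ t := by rw [pow_succ]; ring
  have e4 : (1 : ℝ) / 4 ^ (t + 1) = (1 / 4 ^ t) * (1 / 4) := by
    rw [pow_succ]; field_simp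
  set Y := ∑ m ∈ Finset.range (2 ^ t), ∑ m' ∈ Finset.range (2 ^ t),
        ((1 / 4) * ∑ a : Bool, ∑ b : Bool,
          PhiNode A B C (2 * 2 ^ t) e (2 * m + a.toNat) (2 * m' + b.toNat)) with hY
  have h1 : levelF A B C (t + 1) e = (1 / 4 ^ t) * Y := by
    unfold levelF
    rw [e2, e3, e4, mul_assoc]
    congr 1
    have : ∑ M ∈ Finset.range (2 * 2 ^ t), ∑ M' ∈ Finset.range (2 * 2 ^ t),
        PhiNode A B C (2 * 2 ^ t) e M M' = ∑ m ∈ Finset.range (2 ^ t), ∑ m' ∈ Finset.range (2 ^ t),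
          ∑ a : Bool, ∑ b : Bool,
          PhiNode A B C (2 * 2 ^ t) e (2 * m + a.toNat) (2 * m' + b.toNat) := by
      rw [sum_range_two_mul]
      apply Finset.sum_congr rfl
      intro m _
      simp only [sum_range_two_mul (2 ^ t) (fun M' => PhiNode A B C (2 * 2 ^ t) e _ M')]
      rw [Finset.sum_comm]
    rw [this, hY, Finset.mul_sum]
    apply Finset.sum_congr rfl
    intro m _
    rw [Finset.mul_sum]
  set Z := ∑ m ∈ Finset.range (2 ^ t), ∑ m' ∈ Finset.range (2 ^ t),
        PhiNode A B C (2 ^ t) (e + 1) m m' with hZ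
  have h2 : levelF A B C t (e + 1) = (1 / 4 ^ t) * Z := rfl
  have h3 : ∑ m ∈ Finset.range (2 ^ t), ∑ m' ∈ Finset.range (2 ^ t), |Lnode A B C (2 ^ t) e m m'|
      ≤ ((1 + √2) / 2) * (Y - Z) := by
    rw [hY, hZ, ← Finset.sum_sub_distrib, Finset.mul_sum]
    apply Finset.sum_le_sum
    intro m _
    rw [← Finset.sum_sub_distrib, Finset.mul_sum]
    apply Finset.sum_le_sum
    intro m' _
    exact node_local A B C _ e m m'
  rw [h1, h2]
  calc (1 / 4 ^ t) * ∑ m ∈ Finset.range (2 ^ t), ∑ m' ∈ Finset.range (2 ^ t),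
        |Lnode A B C (2 ^ t) e m m'|
      ≤ (1 / 4 ^ t) * (((1 + √2) / 2) * (Y - Z)) :=
        mul_le_mul_of_nonneg_left h3 (by positivity)
    _ = _ := by ring

/-- Telescoping over all levels. -/
lemma levels_sum (A B C : Matrix (Fin (2 ^ d)) (Fin (2 ^ d)) ℝ) :
    ∑ t ∈ Finset.range d, (1 / 4 ^ t) * ∑ m ∈ Finset.range (2 ^ t), ∑ m' ∈ Finset.range (2 ^ t),
        |Lnode A B C (2 ^ t) (d - t - 1) m m'|
      ≤ ((1 + √2) / 2) * levelF A B C d 0 := by
  have h : ∀ t ∈ Finset.range d, (1 / 4 ^ t) * ∑ m ∈ Finset.range (2 ^ t),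
      ∑ m' ∈ Finset.range (2 ^ t), |Lnode A B C (2 ^ t) (d - t - 1) m m'|
        ≤ ((1 + √2) / 2) * (levelF A B C (t + 1) (d - (t + 1)) - levelF A B C t (d - t)) := by
    intro t ht
    have ht' := Finset.mem_range.mp ht
    have e1 : d - t - 1 + 1 = d - t := by omega
    have e2 : d - (t + 1) = d - t - 1 := by omega
    have := level_step A B C t (d - t - 1)
    rw [e1] at this
    rw [e2]
    exact this
  refine (Finset.sum_le_sum h).trans ?_
  rw [← Finset.mul_sum, Finset.sum_range_sub (fun t => levelF A B C t (d - t))]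
  apply mul_le_mul_of_nonneg_left _ (by positivity)
  have h0 := levelF_nonneg A B C 0 (d - 0)
  simp only [Nat.sub_self]
  linarith

end levels

end Vale.Agent.Lib.P075
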