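import Vale.Agent.Lib.P075.Core

set_option linter.unusedSectionVars false
set_option linter.unusedSimpArgs false

open Matrix Finset
open scoped MatrixOrder

namespace Vale.Agent.Lib.P075

variable {n : Type*} [Fintype n] [DecidableEq n]

/-- The potential of a pair: `Tr (G Gᵀ)^{3/2}` with `G = (A ; Bᵀ)`. -/
noncomputable def pot (A B : Matrix n n ℝ) : ℝ := ener (pairG A B * (pairG A B)ᵀ)

/-- The two complementary projections indexed by a bit. -/
def Pb (P : Matrix n n ℝ) (b : Bool) : Matrix n n ℝ := if b then 1 - P else P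

lemma Pb_symm {P : Matrix n n ℝ} (hPs : Pᵀ = P) (b : Bool) : (Pb P b)ᵀ = Pb P b := by
  cases b <;> simp [Pb, hPs]

lemma Pb_idem {P : Matrix n n ℝ} (hP : P * P = P) (b : Bool) : Pb P b * Pb P b = Pb P b := by
  cases b
  · simpa [Pb] using hP
  · simpa [Pb] using compl_idem hP

lemma Pb_add (P : Matrix n n ℝ) (b : Bool) : Pb P b + Pb P (!b) = 1 := by
  cases b <;> simp [Pb]

/-- The block projection attached to two bits. -/
noncomputable def Qb (P : Matrix n n ℝ) (a c : Bool) : Matrix (n ⊕ n) (n ⊕ n) ℝ :=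
  J₁ n * Pb P a * (J₁ n)ᵀ + J₂ n * Pb P c * (J₂ n)ᵀ

lemma Qb_symm {P : Matrix n n ℝ} (hPs : Pᵀ = P) (a c : Bool) : (Qb P a c)ᵀ = Qb P a c := by
  simp only [Qb, transpose_add, transpose_mul, transpose_transpose, Pb_symm hPs, Matrix.mul_assoc]

lemma Qb_idem {P : Matrix n n ℝ} (hP : P * P = P) (a c : Bool) :
    Qb P a c * Qb P a c = Qb P a c := by
  have a1 : (J₁ n * Pb P a * (J₁ n)ᵀ) * (J₁ n * Pb P a * (J₁ n)ᵀ) = J₁ n * Pb P a * (J₁ n)ᵀ := by
    calc _ = J₁ n * (Pb P a * (((J₁ n)ᵀ * J₁ n) * (Pb P a * (J₁ n)ᵀ))) := by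
          simp only [Matrix.mul_assoc]
      _ = _ := by
          rw [J11, Matrix.one_mul, ← Matrix.mul_assoc (Pb P a), Pb_idem hP, Matrix.mul_assoc]
  have a2 : (J₂ n * Pb P c * (J₂ n)ᵀ) * (J₂ n * Pb P c * (J₂ n)ᵀ) = J₂ n * Pb P c * (J₂ n)ᵀ := by
    calc _ = J₂ n * (Pb P c * (((J₂ n)ᵀ * J₂ n) * (Pb P c * (J₂ n)ᵀ))) := by
          simp only [Matrix.mul_assoc]
      _ = _ := by
          rw [J22, Matrix.one_mul, ← Matrix.mul_assoc (Pb P c), Pb_idem hP, Matrix.mul_assoc]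
  have a3 : (J₁ n * Pb P a * (J₁ n)ᵀ) * (J₂ n * Pb P c * (J₂ n)ᵀ) = 0 := by
    calc _ = J₁ n * (Pb P a * (((J₁ n)ᵀ * J₂ n) * (Pb P c * (J₂ n)ᵀ))) := by
          simp only [Matrix.mul_assoc]
      _ = _ := by rw [J12]; simp
  have a4 : (J₂ n * Pb P c * (J₂ n)ᵀ) * (J₁ n * Pb P a * (J₁ n)ᵀ) = 0 := by
    calc _ = J₂ n * (Pb P c * (((J₂ n)ᵀ * J₁ n) * (Pb P a * (J₁ n)ᵀ))) := by
          simp only [Matrix.mul_assoc]
      _ = _ := by rw [J21]; simp
  simp only [Qb, Matrix.add_mul, Matrix.mul_add]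
  rw [a1, a2, a3, a4]
  simp

lemma Qb_compl (P : Matrix n n ℝ) (a c : Bool) : Qb P (!a) (!c) = 1 - Qb P a c := by
  have h : Qb P a c + Qb P (!a) (!c) = 1 := by
    simp only [Qb]
    have e1 : J₁ n * Pb P a * (J₁ n)ᵀ + J₁ n * Pb P (!a) * (J₁ n)ᵀ = J₁ n * (J₁ n)ᵀ := by
      rw [← Matrix.add_mul, ← Matrix.mul_add, Pb_add, Matrix.mul_one]
    have e2 : J₂ n * Pb P c * (J₂ n)ᵀ + J₂ n * Pb P (!c) * (J₂ n)ᵀ = J₂ n * (J₂ n)ᵀ := by
      rw [← Matrix.add_mul, ← Matrix.mul_add, Pb_add, Matrix.mul_one]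
    calc _ = (J₁ n * Pb P a * (J₁ n)ᵀ + J₁ n * Pb P (!a) * (J₁ n)ᵀ)
          + (J₂ n * Pb P c * (J₂ n)ᵀ + J₂ n * Pb P (!c) * (J₂ n)ᵀ) := by abel
      _ = _ := by rw [e1, e2, Jsum]
  rw [eq_sub_iff_add_eq, add_comm]
  exact h

lemma pairG_child {P : Matrix n n ℝ} (hPs : Pᵀ = P) (A B : Matrix n n ℝ) (a b c : Bool) :
    pairG ((2 : ℝ) • (Pb P a * A * Pb P b)) ((2 : ℝ) • (Pb P b * B * Pb P c))
      = (2 : ℝ) • (Qb P a c * pairG A B * Pb P b) := by
  have h1 : Qb P a c * pairG A B = J₁ n * Pb P a * A + J₂ n * Pb P c * Bᵀ := by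
    simp only [Qb, Matrix.add_mul]
    congr 1
    · rw [Matrix.mul_assoc, J1G]
    · rw [Matrix.mul_assoc, J2G]
  rw [h1]
  simp only [pairG, transpose_smul, transpose_mul, Pb_symm hPs, Matrix.mul_smul, Matrix.add_mul,
    smul_add, Matrix.mul_assoc]

/-- The energy of a child is 8 times the energy of the pinched block. -/
lemma pot_child {P : Matrix n n ℝ} (hPs : Pᵀ = P) (hP : P * P = P) (A B : Matrix n n ℝ)
    (a b c : Bool) :
    pot ((2 : ℝ) • (Pb P a * A * Pb P b)) ((2 : ℝ) • (Pb P b * B * Pb P c))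
      = 8 * ener (Qb P a c * (pairG A B * Pb P b * (pairG A B)ᵀ) * Qb P a c) := by
  unfold pot
  rw [pairG_child hPs]
  set G := pairG A B
  set Q := Qb P a c with hQ
  have hQs : Qᵀ = Q := Qb_symm hPs a c
  have e : (2 : ℝ) • (Q * G * Pb P b) * ((2 : ℝ) • (Q * G * Pb P b))ᵀ
      = ((2 : ℝ) * 2) • (Q * (G * Pb P b * Gᵀ) * Q) := by
    simp only [transpose_smul, transpose_mul, Pb_symm hPs, hQs, Matrix.smul_mul, Matrix.mul_smul,
      smul_smul]
    congr 1
    calc Q * G * Pb P b * (Pb P b * (Gᵀ * Q)) = Q * G * (Pb P b * Pb P b) * (Gᵀ * Q) := by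
          simp only [Matrix.mul_assoc]
      _ = _ := by rw [Pb_idem hP]; simp only [Matrix.mul_assoc]
  rw [e]
  have hb : (Pb P b).PosSemidef := psd_of_idem (Pb_symm hPs b) (Pb_idem hP b)
  have hX : (Q * (G * Pb P b * Gᵀ) * Q).PosSemidef := by
    have := psd_conj (psd_conj hb G) Q
    rwa [hQs] at this
  rw [ener_smul hX (by norm_num)]
  norm_num

/-- Average of the potential over the four children of a pair. -/
noncomputable def avgPot (P A B : Matrix n n ℝ) : ℝ :=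
  (1 / 4) * ∑ a : Bool, ∑ b : Bool,
    pot ((2 : ℝ) • (Pb P a * A * Pb P b)) ((2 : ℝ) • (Pb P b * B * Pb P (xor a b)))

/-- Bit-level step: pinching over `a` for one fixed `b`. -/
lemma inner_pinch {P : Matrix n n ℝ} (hPs : Pᵀ = P) (hP : P * P = P) (A B : Matrix n n ℝ)
    (b : Bool) :
    (8 / √2) * ener (pairG A B * Pb P b * (pairG A B)ᵀ) ≤ ∑ a : Bool,
      pot ((2 : ℝ) • (Pb P a * A * Pb P b)) ((2 : ℝ) • (Pb P b * B * Pb P (xor a b))) := by
  rw [Fintype.sum_bool]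
  simp only [pot_child hPs hP]
  have hb : (Pb P b).PosSemidef := psd_of_idem (Pb_symm hPs b) (Pb_idem hP b)
  have hX := psd_conj hb (pairG A B)
  have h := pinch hX (Qb_symm hPs false b) (Qb_idem hP false b)
  rw [← Qb_compl] at h
  simp only [Bool.true_xor, Bool.false_xor, Bool.not_false] at h ⊢
  have hs : (0 : ℝ) < √2 := by positivity
  have : (8 / √2) * ener (pairG A B * Pb P b * (pairG A B)ᵀ) ≤
      (8 / √2) * (√2 * (ener (Qb P false b * (pairG A B * Pb P b * (pairG A B)ᵀ) * Qb P false b)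
        + ener (Qb P true (!b) * (pairG A B * Pb P b * (pairG A B)ᵀ) * Qb P true (!b)))) :=
    mul_le_mul_of_nonneg_left h (by positivity)
  refine this.trans (le_of_eq ?_)
  field_simp
  ring

/-- Children gain dominates the convexity gain. -/
lemma gain_le_child {P : Matrix n n ℝ} (hPs : Pᵀ = P) (hP : P * P = P) (A B : Matrix n n ℝ) :
    gainD (pairG A B * P * (pairG A B)ᵀ) (pairG A B * (1 - P) * (pairG A B)ᵀ)
      ≤ avgPot P A B - pot A B := by
  have hP0 : (Pb P false).PosSemidef := psd_of_idem (Pb_symm hPs _) (Pb_idem hP _)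
  have hP1 : (Pb P true).PosSemidef := psd_of_idem (Pb_symm hPs _) (Pb_idem hP _)
  have h0 := inner_pinch hPs hP A B false
  have h1 := inner_pinch hPs hP A B true
  have hX0 : (pairG A B * P * (pairG A B)ᵀ).PosSemidef := psd_conj hP0 (pairG A B)
  have hX1 : (pairG A B * (1 - P) * (pairG A B)ᵀ).PosSemidef := psd_conj hP1 (pairG A B)
  have hs : (0 : ℝ) < √2 := by positivity
  have h22 : √2 * √2 = 2 := Real.mul_self_sqrt (by norm_num)
  have en : ∀ X : Matrix (n ⊕ n) (n ⊕ n) ℝ, X.PosSemidef →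
      ener ((2 : ℝ) • X) = 2 * √2 * ener X := by
    intro X hX
    have := ener_smul hX hs.le
    rw [h22] at this
    rw [this]
  have esum : pairG A B * P * (pairG A B)ᵀ + pairG A B * (1 - P) * (pairG A B)ᵀ
      = pairG A B * (pairG A B)ᵀ := by
    rw [← Matrix.add_mul, ← Matrix.mul_add]
    simp
  have e8 : 8 / √2 = 4 * √2 := by
    field_simp
    nlinarith
  rw [e8] at h0 h1
  have hP0' : Pb P false = P := rfl
  have hP1' : Pb P true = 1 - P := rfl
  rw [hP0'] at h0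
  rw [hP1'] at h1
  unfold gainD avgPot
  rw [en _ hX0, en _ hX1, esum, Finset.sum_comm, Fintype.sum_bool (f := fun b => ∑ a : Bool, _)]
  unfold pot at *
  simp only [hP0', hP1'] at h0 h1 ⊢
  linarith

/-- The potential of a triple. -/
noncomputable def Phi (A B C : Matrix n n ℝ) : ℝ := pot A B + pot B C + pot C A

lemma sigma_sq {P : Matrix n n ℝ} (hP : P * P = P) : (P - (1 - P)) * (P - (1 - P)) = 1 := by
  simp only [sub_mul, mul_sub, one_mul, mul_one, hP]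
  abel

/-- The local inequality: the node form is controlled by the growth of the potential. -/
theorem local_ineq {A B C P : Matrix n n ℝ} (hPs : Pᵀ = P) (hP : P * P = P) :
    |trace (A * (P - (1 - P)) * B * (P - (1 - P)) * C * (P - (1 - P)))| ≤
      ((1 + √2) / 2) * (avgPot P A B + avgPot P B C + avgPot P C A - Phi A B C) := by
  obtain ⟨U₁, V₁, a, hU₁, hV₁, ha, hA⟩ := svd_exists A
  obtain ⟨U₂, V₂, b, hU₂, hV₂, hb, hB⟩ := svd_exists B
  obtain ⟨U₃, V₃, c, hU₃, hV₃, hc, hC⟩ := svd_exists C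
  set σ := P - (1 - P) with hσ
  have hσs : σᵀ = σ := by simp [hσ, hPs]
  have hσσ : σ * σ = 1 := sigma_sq hP
  have hV₁' : V₁ * V₁ᵀ = 1 := mul_eq_one_comm.mp hV₁
  have hV₂' : V₂ * V₂ᵀ = 1 := mul_eq_one_comm.mp hV₂
  have hV₃' : V₃ * V₃ᵀ = 1 := mul_eq_one_comm.mp hV₃
  set Y := V₁ᵀ * σ * U₂ with hY
  set Z := V₂ᵀ * σ * U₃ with hZ
  set X := V₃ᵀ * σ * U₁ with hX
  have orth : ∀ {V U : Matrix n n ℝ}, V * Vᵀ = 1 → Uᵀ * U = 1 → (Vᵀ * σ * U)ᵀ * (Vᵀ * σ * U) = 1 := by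
    intro V U hV hU
    calc (Vᵀ * σ * U)ᵀ * (Vᵀ * σ * U) = Uᵀ * (σ * ((V * Vᵀ) * (σ * U))) := by
          simp only [transpose_mul, transpose_transpose, hσs, Matrix.mul_assoc]
      _ = Uᵀ * ((σ * σ) * U) := by rw [hV]; simp only [Matrix.one_mul, Matrix.mul_assoc]
      _ = 1 := by rw [hσσ, Matrix.one_mul, hU]
  have hYo : Yᵀ * Y = 1 := orth hV₁' hU₂
  have hZo : Zᵀ * Z = 1 := orth hV₂' hU₃
  have hXo : Xᵀ * X = 1 := orth hV₃' hU₁
  have htr : trace (A * σ * B * σ * C * σ) = ∑ i, ∑ j, ∑ k, a i * Y i j * b j * Z j k * c k * X k i := by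
    have e1 : A * σ * B * σ * C * σ =
        U₁ * (diagonal a * Y * diagonal b * Z * diagonal c * (V₃ᵀ * σ)) := by
      rw [hA, hB, hC, hY, hZ]
      simp only [Matrix.mul_assoc]
    have e2 : trace (A * σ * B * σ * C * σ) = trace (diagonal a * Y * diagonal b * Z * diagonal c * X) := by
      rw [e1, trace_mul_comm, hX]
      simp only [Matrix.mul_assoc]
    rw [e2]
    simp only [Matrix.trace, Matrix.diag]
    apply Finset.sum_congr rfl
    intro i _
    rw [Matrix.mul_apply, Finset.sum_comm]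
    apply Finset.sum_congr rfl
    intro k _
    rw [Matrix.mul_diagonal, Matrix.mul_apply, Finset.sum_mul, Finset.sum_mul]
    apply Finset.sum_congr rfl
    intro j _
    rw [Matrix.mul_diagonal, Matrix.diagonal_mul]
  rw [htr]
  have hcore := tri_core ha hb hc hXo hYo hZo
  have p1 := pair_main hU₁ hV₁ ha hA hU₂ hV₂ hb hB hPs hP
  have p2 := pair_main hU₂ hV₂ hb hB hU₃ hV₃ hc hC hPs hP
  have p3 := pair_main hU₃ hV₃ hc hC hU₁ hV₁ ha hA hPs hP
  have g1 := gain_le_child hPs hP A B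
  have g2 := gain_le_child hPs hP B C
  have g3 := gain_le_child hPs hP C A
  have hs2 : (0 : ℝ) ≤ 1 + √2 := by positivity
  have g1' := mul_le_mul_of_nonneg_left g1 hs2
  have g2' := mul_le_mul_of_nonneg_left g2 hs2
  have g3' := mul_le_mul_of_nonneg_left g3 hs2
  rw [← hσ] at p1 p2 p3
  rw [← hY] at p1
  rw [← hZ] at p2
  rw [← hX] at p3
  unfold Phi
  nlinarith

end Vale.Agent.Lib.P075
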