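import Vale.Agent.Lib.P075.Tri

set_option linter.unusedSectionVars false
set_option linter.unusedSimpArgs false

open MeasureTheory Matrix

namespace Vale.Agent.Lib.P075

lemma integrandL_eq (F₀ F₁ F₂ : ℝ × ℝ → ℝ) (k : ℤ) (n₀ n₁ n₂ : ℕ) (x : ℝ × ℝ × ℝ) :
    integrandL F₀ F₁ F₂ k n₀ n₁ n₂ x =
      triK F₀ F₁ F₂ x * (haar k n₀ x.1 * haar k n₁ x.2.1 * haar k n₂ x.2.2) := rfl

lemma abs_hhh_le (k : ℤ) (n₀ n₁ n₂ : ℕ) (x : ℝ × ℝ × ℝ) :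
    |haar k n₀ x.1 * haar k n₁ x.2.1 * haar k n₂ x.2.2| ≤ 1 := by
  rw [abs_mul, abs_mul]
  have h1 := abs_haar_le k n₀ x.1
  have h2 := abs_haar_le k n₁ x.2.1
  have h3 := abs_haar_le k n₂ x.2.2
  calc |haar k n₀ x.1| * |haar k n₁ x.2.1| * |haar k n₂ x.2.2| ≤ 1 * 1 * 1 := by gcongr
    _ = 1 := by norm_num

lemma integrable_integrandL {F₀ F₁ F₂ : ℝ × ℝ → ℝ} (mF₀ : Measurable F₀) (mF₁ : Measurable F₁)
    (mF₂ : Measurable F₂) {M : ℝ} (hM : 0 ≤ M) (bF₀ : ∀ p, |F₀ p| ≤ M) (bF₁ : ∀ p, |F₁ p| ≤ M)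
    (bF₂ : ∀ p, |F₂ p| ≤ M) {K : ℤ} (vF₀ : ∀ p, p ∉ rootQ K → F₀ p = 0)
    (vF₁ : ∀ p, p ∉ rootQ K → F₁ p = 0) (k : ℤ) (n₀ n₁ n₂ : ℕ) :
    Integrable (integrandL F₀ F₁ F₂ k n₀ n₁ n₂) := by
  have hm : Measurable (integrandL F₀ F₁ F₂ k n₀ n₁ n₂) := by
    have h0 := measurable_triK mF₀ mF₁ mF₂
    have ha := measurable_haar k n₀
    have hb := measurable_haar k n₁
    have hc := measurable_haar k n₂
    unfold integrandL triK at *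
    fun_prop
  refine integrable_of_rootC (M := M * M * M) hm.aestronglyMeasurable ?_ (K := K) ?_
  · intro x
    rw [integrandL_eq, abs_mul]
    have h1 := abs_triK_le hM bF₀ bF₁ bF₂ x
    have h2 := abs_hhh_le k n₀ n₁ n₂ x
    calc |triK F₀ F₁ F₂ x| * |haar k n₀ x.1 * haar k n₁ x.2.1 * haar k n₂ x.2.2|
        ≤ (M * M * M) * 1 := mul_le_mul h1 h2 (abs_nonneg _) (by positivity)
      _ = M * M * M := by ring
  · intro x hx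
    rw [integrandL_eq, triK_vanish vF₀ vF₁ x hx, zero_mul]

lemma integrable_triK {F₀ F₁ F₂ : ℝ × ℝ → ℝ} (mF₀ : Measurable F₀) (mF₁ : Measurable F₁)
    (mF₂ : Measurable F₂) {M : ℝ} (hM : 0 ≤ M) (bF₀ : ∀ p, |F₀ p| ≤ M) (bF₁ : ∀ p, |F₁ p| ≤ M)
    (bF₂ : ∀ p, |F₂ p| ≤ M) {K : ℤ} (vF₀ : ∀ p, p ∉ rootQ K → F₀ p = 0)
    (vF₁ : ∀ p, p ∉ rootQ K → F₁ p = 0) : Integrable (triK F₀ F₁ F₂) :=
  integrable_of_rootC (M := M * M * M) (measurable_triK mF₀ mF₁ mF₂).aestronglyMeasurable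
    (abs_triK_le hM bF₀ bF₁ bF₂) (triK_vanish vF₀ vF₁)

/-- The form depends continuously on the product kernel. -/
lemma formL_diff {F₀ F₁ F₂ H₀ H₁ H₂ : ℝ × ℝ → ℝ} (mF₀ : Measurable F₀) (mF₁ : Measurable F₁)
    (mF₂ : Measurable F₂) (mH₀ : Measurable H₀) (mH₁ : Measurable H₁) (mH₂ : Measurable H₂)
    {M : ℝ} (hM : 0 ≤ M) (bF₀ : ∀ p, |F₀ p| ≤ M) (bF₁ : ∀ p, |F₁ p| ≤ M) (bF₂ : ∀ p, |F₂ p| ≤ M)
    (bH₀ : ∀ p, |H₀ p| ≤ M) (bH₁ : ∀ p, |H₁ p| ≤ M) (bH₂ : ∀ p, |H₂ p| ≤ M) {K : ℤ}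
    (vF₀ : ∀ p, p ∉ rootQ K → F₀ p = 0) (vF₁ : ∀ p, p ∉ rootQ K → F₁ p = 0)
    (vH₀ : ∀ p, p ∉ rootQ K → H₀ p = 0) (vH₁ : ∀ p, p ∉ rootQ K → H₁ p = 0)
    (k : ℤ) (n₀ n₁ n₂ : ℕ) :
    |formL F₀ F₁ F₂ k n₀ n₁ n₂ - formL H₀ H₁ H₂ k n₀ n₁ n₂| ≤
      (2 : ℝ) ^ (-k) * ∫ x, |triK F₀ F₁ F₂ x - triK H₀ H₁ H₂ x| := by
  have i1 := integrable_integrandL mF₀ mF₁ mF₂ hM bF₀ bF₁ bF₂ vF₀ vF₁ k n₀ n₁ n₂
  have i2 := integrable_integrandL mH₀ mH₁ mH₂ hM bH₀ bH₁ bH₂ vH₀ vH₁ k n₀ n₁ n₂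
  have i3 := ((integrable_triK mF₀ mF₁ mF₂ hM bF₀ bF₁ bF₂ vF₀ vF₁).sub
    (integrable_triK mH₀ mH₁ mH₂ hM bH₀ bH₁ bH₂ vH₀ vH₁)).abs
  rw [formL_eq_integral, formL_eq_integral, ← mul_sub, abs_mul,
    abs_of_nonneg (by positivity : (0 : ℝ) ≤ (2 : ℝ) ^ (-k)), ← integral_sub i1 i2]
  apply mul_le_mul_of_nonneg_left _ (by positivity)
  refine (abs_integral_le_integral_abs).trans ?_
  refine integral_mono_of_nonneg (Filter.Eventually.of_forall fun x => abs_nonneg _) i3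
    (Filter.Eventually.of_forall fun x => ?_)
  show |integrandL F₀ F₁ F₂ k n₀ n₁ n₂ x - integrandL H₀ H₁ H₂ k n₀ n₁ n₂ x| ≤
    |triK F₀ F₁ F₂ x - triK H₀ H₁ H₂ x|
  rw [integrandL_eq, integrandL_eq, ← sub_mul, abs_mul]
  have h2 := abs_hhh_le k n₀ n₁ n₂ x
  calc _ ≤ |triK F₀ F₁ F₂ x - triK H₀ H₁ H₂ x| * 1 :=
        mul_le_mul_of_nonneg_left h2 (abs_nonneg _)
    _ = _ := by ring

/-- An interval of large index misses the root interval. -/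
lemma dyadic_large {K k : ℤ} (hk : k ≤ K) {n : ℕ} (hn : 2 ^ (K - k).toNat ≤ n) {x : ℝ}
    (hx : x ∈ dyadicI k n) : x ∉ dyadicI K 0 := by
  intro h
  have h1 := hx.1
  have h2 := h.2
  have hK : K = k + ((K - k).toNat : ℤ) := by
    rw [Int.toNat_of_nonneg (by omega)]; ring
  have hz : (2 : ℝ) ^ K = (2 : ℝ) ^ k * (2 : ℝ) ^ (K - k).toNat := by
    conv_lhs => rw [hK]
    rw [zpow_add₀ (by norm_num), zpow_natCast]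
  have hn' : ((2 : ℝ) ^ (K - k).toNat) ≤ n := by exact_mod_cast hn
  have h2k : (0 : ℝ) < (2 : ℝ) ^ k := by positivity
  have h3 : (2 : ℝ) ^ k * (2 : ℝ) ^ (K - k).toNat ≤ (2 : ℝ) ^ k * n :=
    mul_le_mul_of_nonneg_left hn' h2k.le
  rw [hz] at h2
  simp only [Nat.cast_zero, zero_add, mul_one] at h2
  linarith

lemma formL_zero_of_large {F₀ F₁ F₂ : ℝ × ℝ → ℝ} {K k : ℤ} (hk : k ≤ K) {n₀ n₁ n₂ : ℕ}
    (h : 2 ^ (K - k).toNat ≤ n₀ ∨ 2 ^ (K - k).toNat ≤ n₁ ∨ 2 ^ (K - k).toNat ≤ n₂)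
    (vF₀ : ∀ p, p ∉ rootQ K → F₀ p = 0) (vF₁ : ∀ p, p ∉ rootQ K → F₁ p = 0) :
    formL F₀ F₁ F₂ k n₀ n₁ n₂ = 0 := by
  unfold formL
  rw [setIntegral_eq_zero_of_forall_eq_zero, mul_zero]
  rintro x ⟨h₀, h₁, h₂⟩
  rcases h with h | h | h
  · rw [vF₀ (x.1, x.2.1) (fun hh => dyadic_large hk h h₀ hh.1)]; ring
  · rw [vF₀ (x.1, x.2.1) (fun hh => dyadic_large hk h h₁ hh.2)]; ring
  · rw [vF₁ (x.2.1, x.2.2) (fun hh => dyadic_large hk h h₂ hh.2)]; ring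

/-- Triples with vanishing XOR are parametrized by their first two entries. -/
def xorEquiv : {n : ℕ × ℕ × ℕ // n.1 ^^^ n.2.1 ^^^ n.2.2 = 0} ≃ ℕ × ℕ where
  toFun n := (n.1.1, n.1.2.1)
  invFun p := ⟨(p.1, p.2, p.1 ^^^ p.2), by simp⟩
  left_inv := by
    rintro ⟨⟨a, b, c⟩, h⟩
    have h' : a ^^^ b = c := Nat.xor_eq_zero_iff.mp h
    subst h'
    rfl
  right_inv := by
    rintro ⟨a, b⟩
    rfl

lemma tsum_form {F₀ F₁ F₂ : ℝ × ℝ → ℝ} {K k : ℤ} (hk : k ≤ K)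
    (vF₀ : ∀ p, p ∉ rootQ K → F₀ p = 0) (vF₁ : ∀ p, p ∉ rootQ K → F₁ p = 0) :
    ∑' n : {n : ℕ × ℕ × ℕ // n.1 ^^^ n.2.1 ^^^ n.2.2 = 0}, formL F₀ F₁ F₂ k n.1.1 n.1.2.1 n.1.2.2
      = ∑ n₀ ∈ Finset.range (2 ^ (K - k).toNat), ∑ n₁ ∈ Finset.range (2 ^ (K - k).toNat),
          formL F₀ F₁ F₂ k n₀ n₁ (n₀ ^^^ n₁) := by
  rw [← xorEquiv.symm.tsum_eq]
  rw [tsum_eq_sum (s := Finset.range (2 ^ (K - k).toNat) ×ˢ Finset.range (2 ^ (K - k).toNat))]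
  · rw [Finset.sum_product]
    rfl
  · rintro ⟨a, b⟩ hab
    simp only [Finset.mem_product, Finset.mem_range, not_and_or, not_lt] at hab
    apply formL_zero_of_large hk _ vF₀ vF₁
    rcases hab with h | h
    · exact Or.inl h
    · exact Or.inr (Or.inl h)

lemma cube_diff_pt {a b M : ℝ} (ha : |a| ≤ M) (hb : |b| ≤ M) :
    |b| ^ 3 ≤ |a| ^ 3 + 3 * M ^ 2 * |a - b| := by
  have hx := abs_nonneg a
  have hy := abs_nonneg b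
  have h1 : |b| - |a| ≤ |a - b| := by
    have := abs_sub_abs_le_abs_sub b a
    rwa [abs_sub_comm] at this
  have h2 : |b| ^ 2 + |b| * |a| + |a| ^ 2 ≤ 3 * M ^ 2 := by nlinarith
  have h3 : 0 ≤ |b| ^ 2 + |b| * |a| + |a| ^ 2 := by positivity
  have h4 : |b| ^ 3 - |a| ^ 3 = (|b| - |a|) * (|b| ^ 2 + |b| * |a| + |a| ^ 2) := by ring
  have h5 : 0 ≤ |a - b| := abs_nonneg _
  by_cases h : |b| ≤ |a|
  · have : |b| ^ 3 ≤ |a| ^ 3 := pow_le_pow_left₀ hy h 3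
    have h6 : 0 ≤ 3 * M ^ 2 * |a - b| := by positivity
    linarith
  · push Not at h
    have : (|b| - |a|) * (|b| ^ 2 + |b| * |a| + |a| ^ 2) ≤ |a - b| * (3 * M ^ 2) :=
      mul_le_mul h1 h2 h3 h5
    linarith

lemma cube_diff {F H : ℝ × ℝ → ℝ} (mF : Measurable F) (mH : Measurable H) {M : ℝ}
    (bF : ∀ p, |F p| ≤ M) (bH : ∀ p, |H p| ≤ M) {K : ℤ} (vF : ∀ p, p ∉ rootQ K → F p = 0)
    (vH : ∀ p, p ∉ rootQ K → H p = 0) :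
    ∫ p, |H p| ^ 3 ≤ (∫ p, |F p| ^ 3) + 3 * M ^ 2 * ∫ p, |F p - H p| := by
  have hM : 0 ≤ M := (abs_nonneg _).trans (bF 0)
  have iCube : ∀ {G : ℝ × ℝ → ℝ}, Measurable G → (∀ p, |G p| ≤ M) → (∀ p, p ∉ rootQ K → G p = 0) →
      Integrable (fun p => |G p| ^ 3) := by
    intro G mG bG vG
    refine integrable_of_rootQ (M := M ^ 3) (K := K) ?_ ?_ ?_
    · exact ((mG.abs).pow_const 3).aestronglyMeasurable
    · intro p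
      rw [abs_pow, abs_abs]
      exact pow_le_pow_left₀ (abs_nonneg _) (bG p) 3
    · intro p hp
      rw [vG p hp]
      simp
  have i1 := iCube mF bF vF
  have i2 := iCube mH bH vH
  have i3 : Integrable (fun p => |F p - H p|) :=
    ((integrable_of_rootQ mF.aestronglyMeasurable bF vF).sub
      (integrable_of_rootQ mH.aestronglyMeasurable bH vH)).abs
  have i4 : Integrable (fun p => 3 * M ^ 2 * |F p - H p|) := i3.const_mul _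
  rw [← integral_const_mul, ← integral_add i1 i4]
  exact integral_mono i2 (i1.add i4) (fun p => cube_diff_pt (bF p) (bH p))

/-- The uniform bound (additive form) for bounded functions on a root square. -/
theorem main_sum {F₀ F₁ F₂ : ℝ × ℝ → ℝ} (mF₀ : Measurable F₀) (mF₁ : Measurable F₁)
    (mF₂ : Measurable F₂) {M : ℝ} (hM : 0 ≤ M) (bF₀ : ∀ p, |F₀ p| ≤ M) (bF₁ : ∀ p, |F₁ p| ≤ M)
    (bF₂ : ∀ p, |F₂ p| ≤ M) {K : ℤ} (vF₀ : ∀ p, p ∉ rootQ K → F₀ p = 0)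
    (vF₁ : ∀ p, p ∉ rootQ K → F₁ p = 0) (vF₂ : ∀ p, p ∉ rootQ K → F₂ p = 0)
    (S : Finset ℤ) (ε : ℤ → ℝ) (hε : ∀ k, |ε k| ≤ 1) (hSK : ∀ k ∈ S, k ≤ K) :
    |dyadicForm S ε F₀ F₁ F₂| ≤
      (4 * (1 + √2)) * ((∫ p, |F₀ p| ^ 3) + (∫ p, |F₁ p| ^ 3) + (∫ p, |F₂ p| ^ 3)) := by
  set C₀ : ℝ := 4 * (1 + √2) with hC₀
  have hC₀0 : 0 ≤ C₀ := by positivity
  set t : ℤ → ℕ := fun k => (K - k).toNat with ht
  -- first reduction: absolute values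
  have hred : ∀ {G₀ G₁ G₂ : ℝ × ℝ → ℝ}, (∀ p, p ∉ rootQ K → G₀ p = 0) →
      (∀ p, p ∉ rootQ K → G₁ p = 0) →
      |dyadicForm S ε G₀ G₁ G₂| ≤ ∑ k ∈ S, ∑ n₀ ∈ Finset.range (2 ^ t k),
        ∑ n₁ ∈ Finset.range (2 ^ t k), |formL G₀ G₁ G₂ k n₀ n₁ (n₀ ^^^ n₁)| := by
    intro G₀ G₁ G₂ v₀ v₁
    unfold dyadicForm
    refine (Finset.abs_sum_le_sum_abs _ _).trans (Finset.sum_le_sum fun k hk => ?_)
    rw [tsum_form (hSK k hk) v₀ v₁, abs_mul]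
    have h1 : |∑ n₀ ∈ Finset.range (2 ^ (K - k).toNat), ∑ n₁ ∈ Finset.range (2 ^ (K - k).toNat),
          formL G₀ G₁ G₂ k n₀ n₁ (n₀ ^^^ n₁)| ≤
        ∑ n₀ ∈ Finset.range (2 ^ t k), ∑ n₁ ∈ Finset.range (2 ^ t k),
          |formL G₀ G₁ G₂ k n₀ n₁ (n₀ ^^^ n₁)| := by
      refine (Finset.abs_sum_le_sum_abs _ _).trans (Finset.sum_le_sum fun n₀ _ => ?_)
      exact Finset.abs_sum_le_sum_abs _ _
    have h2 : 0 ≤ |∑ n₀ ∈ Finset.range (2 ^ (K - k).toNat), ∑ n₁ ∈ Finset.range (2 ^ (K - k).toNat),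
          formL G₀ G₁ G₂ k n₀ n₁ (n₀ ^^^ n₁)| := abs_nonneg _
    calc _ ≤ 1 * |∑ n₀ ∈ Finset.range (2 ^ (K - k).toNat), ∑ n₁ ∈ Finset.range (2 ^ (K - k).toNat),
          formL G₀ G₁ G₂ k n₀ n₁ (n₀ ^^^ n₁)| := mul_le_mul_of_nonneg_right (hε k) h2
      _ ≤ _ := by rw [one_mul]; exact h1
  set E : ℝ := ∑ k ∈ S, ((2 : ℝ) ^ t k * (2 : ℝ) ^ t k) * (2 : ℝ) ^ (-k) with hE
  have hE0 : 0 ≤ E := Finset.sum_nonneg fun k _ => by positivity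
  set C' : ℝ := C₀ * (9 * M ^ 2) + E * (M * M * (2 : ℝ) ^ K * 3) + 1 with hC'
  have hC'0 : 0 < C' := by positivity
  apply le_of_forall_pos_le_add
  intro δ hδ
  set δ' := δ / C' with hδ'
  have hδ'0 : 0 < δ' := by positivity
  obtain ⟨m₀, hm₀⟩ := exists_step_approx mF₀ hM bF₀ vF₀ hδ'0
  obtain ⟨m₁, hm₁⟩ := exists_step_approx mF₁ hM bF₁ vF₁ hδ'0
  obtain ⟨m₂, hm₂⟩ := exists_step_approx mF₂ hM bF₂ vF₂ hδ'0
  obtain ⟨m₃, hm₃⟩ : ∃ m₃ : ℤ, ∀ k ∈ S, m₃ ≤ k := by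
    obtain ⟨b, hb⟩ := S.bddBelow
    exact ⟨b, fun k hk => hb hk⟩
  set m : ℤ := min (min m₀ m₁) (min m₂ (min (m₃ - 1) K)) with hm
  have hmK : m ≤ K := by
    simp only [hm]; omega
  obtain ⟨d, hd⟩ : ∃ d : ℕ, m + d = K := ⟨(K - m).toNat, by
    rw [Int.toNat_of_nonneg (by omega)]; ring⟩
  obtain ⟨A, hA, hA'⟩ := hm₀ m (by simp only [hm]; omega) d hd
  obtain ⟨B, hB, hB'⟩ := hm₁ m (by simp only [hm]; omega) d hd
  obtain ⟨C, hC, hC''⟩ := hm₂ m (by simp only [hm]; omega) d hd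
  have hSm : ∀ k ∈ S, m < k ∧ k ≤ m + d := by
    intro k hk
    have h1 := hm₃ k hk
    have h2 := hSK k hk
    constructor
    · simp only [hm]; omega
    · rw [hd]; exact h2
  -- the three step functions
  set H₀ := stepF m d A with hH₀
  set H₁ := stepF m d B with hH₁
  set H₂ := stepF m d C with hH₂
  have mH₀ : Measurable H₀ := measurable_stepF A
  have mH₁ : Measurable H₁ := measurable_stepF B
  have mH₂ : Measurable H₂ := measurable_stepF C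
  have bH₀ : ∀ p, |H₀ p| ≤ M := abs_stepF_le A hM hA
  have bH₁ : ∀ p, |H₁ p| ≤ M := abs_stepF_le B hM hB
  have bH₂ : ∀ p, |H₂ p| ≤ M := abs_stepF_le C hM hC
  have vstep : ∀ (X : Matrix (Fin (2 ^ d)) (Fin (2 ^ d)) ℝ) (p : ℝ × ℝ), p ∉ rootQ K →
      stepF m d X p = 0 := by
    intro X p hp
    apply stepF_zero X
    rw [hd]
    by_contra hc
    push Not at hc
    exact hp ⟨hc.1, hc.2⟩
  have vH₀ : ∀ p, p ∉ rootQ K → H₀ p = 0 := vstep A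
  have vH₁ : ∀ p, p ∉ rootQ K → H₁ p = 0 := vstep B
  have vH₂ : ∀ p, p ∉ rootQ K → H₂ p = 0 := vstep C
  set D := ∫ x, |triK F₀ F₁ F₂ x - triK H₀ H₁ H₂ x| with hD
  have hD0 : 0 ≤ D := integral_nonneg fun x => abs_nonneg _
  have hDb := tri_diff_bound mF₀ mF₁ mF₂ mH₀ mH₁ mH₂ hM bF₀ bF₁ bF₂ bH₀ bH₁ bH₂ vF₀ vF₁ vF₂ vH₀ vH₁ vH₂
  have hDb' : D ≤ M * M * (2 : ℝ) ^ K * (3 * δ') := by
    refine hDb.trans ?_
    apply mul_le_mul_of_nonneg_left _ (by positivity)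
    linarith
  -- replacing F by H node by node
  have htt : ∀ k, tt m d k = t k := by
    intro k
    simp only [tt, ht, hd]
  have hstep : ∑ k ∈ S, ∑ n₀ ∈ Finset.range (2 ^ t k), ∑ n₁ ∈ Finset.range (2 ^ t k),
        |formL H₀ H₁ H₂ k n₀ n₁ (n₀ ^^^ n₁)| ≤
      C₀ * ((∫ p, |H₀ p| ^ 3) + (∫ p, |H₁ p| ^ 3) + (∫ p, |H₂ p| ^ 3)) := by
    have := step_bound (m := m) A B C S hSm
    simp only [htt] at this
    exact this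
  have hnode : ∑ k ∈ S, ∑ n₀ ∈ Finset.range (2 ^ t k), ∑ n₁ ∈ Finset.range (2 ^ t k),
        |formL F₀ F₁ F₂ k n₀ n₁ (n₀ ^^^ n₁)| ≤
      ∑ k ∈ S, ∑ n₀ ∈ Finset.range (2 ^ t k), ∑ n₁ ∈ Finset.range (2 ^ t k),
        |formL H₀ H₁ H₂ k n₀ n₁ (n₀ ^^^ n₁)| + E * D := by
    rw [hE, Finset.sum_mul, ← Finset.sum_add_distrib]
    apply Finset.sum_le_sum
    intro k _
    have hcount : ((2 : ℝ) ^ t k * (2 : ℝ) ^ t k) * (2 : ℝ) ^ (-k) * D =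
        ∑ n₀ ∈ Finset.range (2 ^ t k), ∑ n₁ ∈ Finset.range (2 ^ t k), (2 : ℝ) ^ (-k) * D := by
      simp only [Finset.sum_const, Finset.card_range, nsmul_eq_mul]
      push_cast
      ring
    rw [hcount, ← Finset.sum_add_distrib]
    apply Finset.sum_le_sum
    intro n₀ _
    rw [← Finset.sum_add_distrib]
    apply Finset.sum_le_sum
    intro n₁ _
    have := formL_diff mF₀ mF₁ mF₂ mH₀ mH₁ mH₂ hM bF₀ bF₁ bF₂ bH₀ bH₁ bH₂ vF₀ vF₁ vH₀ vH₁ k n₀ n₁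
      (n₀ ^^^ n₁)
    have h2 := abs_sub_abs_le_abs_sub (formL F₀ F₁ F₂ k n₀ n₁ (n₀ ^^^ n₁))
      (formL H₀ H₁ H₂ k n₀ n₁ (n₀ ^^^ n₁))
    linarith
  -- cubes
  have c₀ := cube_diff mF₀ mH₀ bF₀ bH₀ vF₀ vH₀
  have c₁ := cube_diff mF₁ mH₁ bF₁ bH₁ vF₁ vH₁
  have c₂ := cube_diff mF₂ mH₂ bF₂ bH₂ vF₂ vH₂
  have hMM : 0 ≤ 3 * M ^ 2 := by positivity
  have c₀' := mul_le_mul_of_nonneg_left hA' hMM
  have c₁' := mul_le_mul_of_nonneg_left hB' hMM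
  have c₂' := mul_le_mul_of_nonneg_left hC'' hMM
  have hcubes : (∫ p, |H₀ p| ^ 3) + (∫ p, |H₁ p| ^ 3) + (∫ p, |H₂ p| ^ 3) ≤
      ((∫ p, |F₀ p| ^ 3) + (∫ p, |F₁ p| ^ 3) + (∫ p, |F₂ p| ^ 3)) + 9 * M ^ 2 * δ' := by
    linarith
  have hfin1 := hred (G₂ := F₂) vF₀ vF₁
  have h3 : E * D ≤ E * (M * M * (2 : ℝ) ^ K * (3 * δ')) := mul_le_mul_of_nonneg_left hDb' hE0
  have h4 := mul_le_mul_of_nonneg_left hcubes hC₀0
  have hδδ : C' * δ' = δ := by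
    rw [hδ']; field_simp
  have h5 : C₀ * (9 * M ^ 2 * δ') + E * (M * M * (2 : ℝ) ^ K * (3 * δ')) ≤ δ := by
    have h6 : C₀ * (9 * M ^ 2 * δ') + E * (M * M * (2 : ℝ) ^ K * (3 * δ')) + δ' = C' * δ' := by
      rw [hC']; ring
    rw [hδδ] at h6
    linarith
  linarith

end Vale.Agent.Lib.P075
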