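import Vale.Agent.Lib.P075.Psd

set_option linter.unusedSectionVars false
set_option linter.unusedSimpArgs false

open Matrix
open scoped MatrixOrder

namespace Vale.Agent.Lib.P075

variable {n : Type*} [Fintype n] [DecidableEq n]

/-- Singular value decomposition of a real square matrix. -/
lemma svd_exists (A : Matrix n n ℝ) :
    ∃ (U V : Matrix n n ℝ) (a : n → ℝ), Uᵀ * U = 1 ∧ Vᵀ * V = 1 ∧ (∀ i, 0 ≤ a i) ∧
      A = U * diagonal a * Vᵀ := by
  have hpsd : (Aᵀ * A).PosSemidef := by
    have := posSemidef_conjTranspose_mul_self A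
    rwa [conjTranspose_eq_transpose_of_trivial] at this
  have hH := hpsd.1
  set vb := hH.eigenvectorBasis with hvb
  set lam := hH.eigenvalues with hlam
  have hlam0 : ∀ i, 0 ≤ lam i := hpsd.eigenvalues_nonneg
  let v : n → n → ℝ := fun i => (vb i).ofLp
  have hev : ∀ i, (Aᵀ * A) *ᵥ v i = lam i • v i := fun i => hH.mulVec_eigenvectorBasis i
  have hv : ∀ i j, v i ⬝ᵥ v j = if i = j then 1 else 0 := by
    intro i j
    have h := (orthonormal_iff_ite.mp vb.orthonormal) i j
    rw [EuclideanSpace.inner_eq_star_dotProduct] at h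
    simp only [star_trivial] at h
    rw [dotProduct_comm]
    exact h
  let a : n → ℝ := fun i => √(lam i)
  have ha0 : ∀ i, 0 ≤ a i := fun i => Real.sqrt_nonneg _
  have haa : ∀ i, a i * a i = lam i := fun i => Real.mul_self_sqrt (hlam0 i)
  let w : n → n → ℝ := fun i => A *ᵥ v i
  have hw : ∀ i j, w i ⬝ᵥ w j = if i = j then lam i else 0 := by
    intro i j
    have e : w i ⬝ᵥ w j = v j ⬝ᵥ ((Aᵀ * A) *ᵥ v i) := by
      rw [← mulVec_mulVec, dotProduct_comm]
      simp only [w]
      rw [dotProduct_mulVec (v j) Aᵀ, vecMul_transpose]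
    rw [e, hev, dotProduct_smul, hv j i, smul_eq_mul]
    by_cases hij : i = j
    · subst hij; simp
    · simp [hij, Ne.symm hij]
  let u : n → EuclideanSpace ℝ n := fun i => WithLp.toLp 2 ((a i)⁻¹ • w i)
  have horth : Orthonormal ℝ (Set.domRestrict {i | a i ≠ 0} u) := by
    rw [orthonormal_iff_ite]
    rintro ⟨i, hi⟩ ⟨j, hj⟩
    simp only [Set.domRestrict_apply, u, EuclideanSpace.inner_toLp_toLp, star_trivial]
    rw [smul_dotProduct, dotProduct_smul, hw, smul_eq_mul, smul_eq_mul]
    by_cases hij : j = i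
    · subst hij
      have : a j ≠ 0 := hi
      simp only [if_true, ← haa j]
      simp [this]
    · have h2 : ¬ (⟨i, hi⟩ : {i | a i ≠ 0}) = ⟨j, hj⟩ := by
        intro h; exact hij (Subtype.mk.inj h).symm
      rw [if_neg hij, if_neg h2, mul_zero, mul_zero]
  obtain ⟨b, hb⟩ := horth.exists_orthonormalBasis_extension_of_card_eq (by simp)
  have hb' : ∀ i j, (b i).ofLp ⬝ᵥ (b j).ofLp = if i = j then 1 else 0 := by
    intro i j
    have h := (orthonormal_iff_ite.mp b.orthonormal) i j
    rw [EuclideanSpace.inner_eq_star_dotProduct] at h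
    simp only [star_trivial] at h
    rw [dotProduct_comm]
    exact h
  have hcol : ∀ i, w i = a i • (b i).ofLp := by
    intro i
    by_cases hi : a i = 0
    · have h0 : w i ⬝ᵥ w i = 0 := by
        rw [hw, if_pos rfl, ← haa i, hi, mul_zero]
      have : w i = 0 := dotProduct_self_eq_zero.mp h0
      rw [this, hi, zero_smul]
    · have := hb i hi
      rw [this]
      simp only [u]
      rw [smul_smul, mul_inv_cancel₀ hi, one_smul]
  let U : Matrix n n ℝ := of fun k i => (b i).ofLp k
  let V : Matrix n n ℝ := of fun k i => v i k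
  have hU : Uᵀ * U = 1 := by
    ext i j
    have := hb' i j
    simp only [Matrix.mul_apply, transpose_apply, U, of_apply, Matrix.one_apply]
    exact this
  have hV : Vᵀ * V = 1 := by
    ext i j
    have := hv i j
    simp only [Matrix.mul_apply, transpose_apply, V, of_apply, Matrix.one_apply]
    exact this
  refine ⟨U, V, a, hU, hV, ha0, ?_⟩
  have hAV : A * V = U * diagonal a := by
    ext k i
    have := congrFun (hcol i) k
    simp only [w, mulVec, dotProduct, Pi.smul_apply, smul_eq_mul] at this
    rw [Matrix.mul_diagonal]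
    simp only [Matrix.mul_apply, V, U, of_apply]
    rw [this]
    ring
  have hV' : V * Vᵀ = 1 := mul_eq_one_comm.mp hV
  calc A = A * (V * Vᵀ) := by rw [hV', Matrix.mul_one]
    _ = A * V * Vᵀ := by rw [Matrix.mul_assoc]
    _ = U * diagonal a * Vᵀ := by rw [hAV]

end Vale.Agent.Lib.P075
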