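import Vale.Agent.Lib.P075.Gain
import Vale.Agent.Lib.P075.Svd

set_option linter.unusedSectionVars false
set_option linter.unusedSimpArgs false

open Matrix
open scoped MatrixOrder

namespace Vale.Agent.Lib.P075

variable {n : Type*} [Fintype n] [DecidableEq n]

variable (n) in
/-- Inclusion of the first summand. -/
def J₁ : Matrix (n ⊕ n) n ℝ := Matrix.of fun i j => Sum.elim (fun i' => if i' = j then 1 else 0) (fun _ => 0) i

variable (n) in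
/-- Inclusion of the second summand. -/
def J₂ : Matrix (n ⊕ n) n ℝ := Matrix.of fun i j => Sum.elim (fun _ => 0) (fun i' => if i' = j then 1 else 0) i

lemma J11 : (J₁ n)ᵀ * J₁ n = 1 := by
  ext i j
  simp [Matrix.mul_apply, Fintype.sum_sum_type, J₁, Matrix.one_apply, eq_comm]

lemma J22 : (J₂ n)ᵀ * J₂ n = 1 := by
  ext i j
  simp [Matrix.mul_apply, Fintype.sum_sum_type, J₂, Matrix.one_apply, eq_comm]

lemma J12 : (J₁ n)ᵀ * J₂ n = 0 := by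
  ext i j
  simp [Matrix.mul_apply, Fintype.sum_sum_type, J₁, J₂]

lemma J21 : (J₂ n)ᵀ * J₁ n = 0 := by
  ext i j
  simp [Matrix.mul_apply, Fintype.sum_sum_type, J₁, J₂]

lemma Jsum : J₁ n * (J₁ n)ᵀ + J₂ n * (J₂ n)ᵀ = 1 := by
  ext i j
  rcases i with i | i <;> rcases j with j | j <;>
    simp [Matrix.mul_apply, Fintype.sum_sum_type, J₁, J₂, Matrix.one_apply]

/-- The block column matrix `(A ; Bᵀ)`. -/
def pairG (A B : Matrix n n ℝ) : Matrix (n ⊕ n) n ℝ := J₁ n * A + J₂ n * Bᵀ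

lemma J1G (A B : Matrix n n ℝ) : (J₁ n)ᵀ * pairG A B = A := by
  unfold pairG
  rw [Matrix.mul_add, ← Matrix.mul_assoc, ← Matrix.mul_assoc, J11, J12, Matrix.one_mul,
    Matrix.zero_mul, add_zero]

lemma J2G (A B : Matrix n n ℝ) : (J₂ n)ᵀ * pairG A B = Bᵀ := by
  unfold pairG
  rw [Matrix.mul_add, ← Matrix.mul_assoc, ← Matrix.mul_assoc, J21, J22, Matrix.one_mul,
    Matrix.zero_mul, zero_add]

lemma psd_of_idem {P : Matrix n n ℝ} (hPs : Pᵀ = P) (hP : P * P = P) : P.PosSemidef := by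
  have := psd_mul_self_tr P
  rwa [hPs, hP] at this

lemma compl_symm {P : Matrix n n ℝ} (hPs : Pᵀ = P) : (1 - P)ᵀ = 1 - P := by
  simp [hPs]

lemma compl_idem {P : Matrix n n ℝ} (hP : P * P = P) : (1 - P) * (1 - P) = 1 - P := by
  simp only [sub_mul, mul_sub, one_mul, mul_one, hP]
  abel

/-- Entries of the trace with a symmetrized off-diagonal test matrix. -/
lemma trace_off {A B F M : Matrix n n ℝ} (hM : Mᵀ = M) :
    trace (pairG A B * M * (pairG A B)ᵀ * (J₁ n * F * (J₂ n)ᵀ + J₂ n * Fᵀ * (J₁ n)ᵀ))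
      = 2 * trace (A * M * B * Fᵀ) := by
  have h1A : (pairG A B)ᵀ * J₁ n = Aᵀ := by
    have := congrArg Matrix.transpose (J1G A B)
    rwa [transpose_mul, transpose_transpose] at this
  have h1B : (pairG A B)ᵀ * J₂ n = B := by
    have := congrArg Matrix.transpose (J2G A B)
    rwa [transpose_mul, transpose_transpose, transpose_transpose] at this
  set G := pairG A B with hG
  have h2G : (J₂ n)ᵀ * G = Bᵀ := J2G A B
  have h1G : (J₁ n)ᵀ * G = A := J1G A B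
  have e1 : trace (G * M * Gᵀ * (J₁ n * F * (J₂ n)ᵀ)) = trace (Bᵀ * M * Aᵀ * F) := by
    have : G * M * Gᵀ * (J₁ n * F * (J₂ n)ᵀ) = (G * M * Gᵀ * J₁ n * F) * (J₂ n)ᵀ := by
      simp only [Matrix.mul_assoc]
    rw [this, trace_mul_comm]
    have : (J₂ n)ᵀ * (G * M * Gᵀ * J₁ n * F) = ((J₂ n)ᵀ * G) * M * (Gᵀ * J₁ n) * F := by
      simp only [Matrix.mul_assoc]
    rw [this, h2G, h1A]
  have e2 : trace (G * M * Gᵀ * (J₂ n * Fᵀ * (J₁ n)ᵀ)) = trace (A * M * B * Fᵀ) := by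
    have : G * M * Gᵀ * (J₂ n * Fᵀ * (J₁ n)ᵀ) = (G * M * Gᵀ * J₂ n * Fᵀ) * (J₁ n)ᵀ := by
      simp only [Matrix.mul_assoc]
    rw [this, trace_mul_comm]
    have : (J₁ n)ᵀ * (G * M * Gᵀ * J₂ n * Fᵀ) = ((J₁ n)ᵀ * G) * M * (Gᵀ * J₂ n) * Fᵀ := by
      simp only [Matrix.mul_assoc]
    rw [this, h1G, h1B]
  have e3 : trace (Bᵀ * M * Aᵀ * F) = trace (A * M * B * Fᵀ) := by
    have : trace (Bᵀ * M * Aᵀ * F) = trace ((Bᵀ * M * Aᵀ * F)ᵀ) := (trace_transpose _).symm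
    rw [this]
    simp only [transpose_mul, transpose_transpose, hM]
    rw [trace_mul_comm]
    simp only [Matrix.mul_assoc]
  rw [Matrix.mul_add, trace_add, e1, e2, e3]
  ring

/-- The square of the symmetrized off-diagonal test matrix, traced against `T`. -/
lemma trace_off_sq (F : Matrix n n ℝ) (T : Matrix (n ⊕ n) (n ⊕ n) ℝ) :
    trace ((J₁ n * F * (J₂ n)ᵀ + J₂ n * Fᵀ * (J₁ n)ᵀ) * (J₁ n * F * (J₂ n)ᵀ + J₂ n * Fᵀ * (J₁ n)ᵀ) * T)
      = trace (F * Fᵀ * ((J₁ n)ᵀ * T * J₁ n)) + trace (Fᵀ * F * ((J₂ n)ᵀ * T * J₂ n)) := by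
  have a1 : (J₁ n * F * (J₂ n)ᵀ) * (J₁ n * F * (J₂ n)ᵀ) = 0 := by
    have : (J₁ n * F * (J₂ n)ᵀ) * (J₁ n * F * (J₂ n)ᵀ) =
        J₁ n * F * (((J₂ n)ᵀ * J₁ n) * F * (J₂ n)ᵀ) := by simp only [Matrix.mul_assoc]
    rw [this, J21]; simp
  have a2 : (J₁ n * F * (J₂ n)ᵀ) * (J₂ n * Fᵀ * (J₁ n)ᵀ) = J₁ n * (F * Fᵀ) * (J₁ n)ᵀ := by
    have : (J₁ n * F * (J₂ n)ᵀ) * (J₂ n * Fᵀ * (J₁ n)ᵀ) =
        J₁ n * F * (((J₂ n)ᵀ * J₂ n) * Fᵀ * (J₁ n)ᵀ) := by simp only [Matrix.mul_assoc]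
    rw [this, J22]; simp only [Matrix.mul_assoc, Matrix.one_mul]
  have a3 : (J₂ n * Fᵀ * (J₁ n)ᵀ) * (J₁ n * F * (J₂ n)ᵀ) = J₂ n * (Fᵀ * F) * (J₂ n)ᵀ := by
    have : (J₂ n * Fᵀ * (J₁ n)ᵀ) * (J₁ n * F * (J₂ n)ᵀ) =
        J₂ n * Fᵀ * (((J₁ n)ᵀ * J₁ n) * F * (J₂ n)ᵀ) := by simp only [Matrix.mul_assoc]
    rw [this, J11]; simp only [Matrix.mul_assoc, Matrix.one_mul]
  have a4 : (J₂ n * Fᵀ * (J₁ n)ᵀ) * (J₂ n * Fᵀ * (J₁ n)ᵀ) = 0 := by
    have : (J₂ n * Fᵀ * (J₁ n)ᵀ) * (J₂ n * Fᵀ * (J₁ n)ᵀ) =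
        J₂ n * Fᵀ * (((J₁ n)ᵀ * J₂ n) * Fᵀ * (J₁ n)ᵀ) := by simp only [Matrix.mul_assoc]
    rw [this, J12]; simp
  rw [Matrix.add_mul (J₁ n * F * (J₂ n)ᵀ), Matrix.mul_add, Matrix.mul_add, a1, a2, a3, a4]
  simp only [zero_add, add_zero, Matrix.add_mul, trace_add]
  congr 1
  · have : J₁ n * (F * Fᵀ) * (J₁ n)ᵀ * T = J₁ n * (F * Fᵀ * ((J₁ n)ᵀ * T)) := by
      simp only [Matrix.mul_assoc]
    rw [this, trace_mul_comm]
    simp only [Matrix.mul_assoc]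
  · have : J₂ n * (Fᵀ * F) * (J₂ n)ᵀ * T = J₂ n * (Fᵀ * F * ((J₂ n)ᵀ * T)) := by
      simp only [Matrix.mul_assoc]
    rw [this, trace_mul_comm]
    simp only [Matrix.mul_assoc]

/-- The key estimate on a pair. -/
lemma pair_key {A B F a b P : Matrix n n ℝ} (hPs : Pᵀ = P) (hP : P * P = P)
    (ha : a.PosSemidef) (haa : a * a = A * Aᵀ) (hb : b.PosSemidef) (hbb : b * b = Bᵀ * B) :
    (trace (A * (P - (1 - P)) * B * Fᵀ)) ^ 2 ≤
      ((1 + √2) / 2) * gainD (pairG A B * P * (pairG A B)ᵀ) (pairG A B * (1 - P) * (pairG A B)ᵀ)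
        * (trace (F * Fᵀ * a) + trace (Fᵀ * F * b)) := by
  set G := pairG A B with hG
  have hP0 : P.PosSemidef := psd_of_idem hPs hP
  have hP1 : (1 - P).PosSemidef := psd_of_idem (compl_symm hPs) (compl_idem hP)
  have hX0 : (G * P * Gᵀ).PosSemidef := psd_conj hP0 G
  have hX1 : (G * (1 - P) * Gᵀ).PosSemidef := psd_conj hP1 G
  set E := J₁ n * F * (J₂ n)ᵀ + J₂ n * Fᵀ * (J₁ n)ᵀ with hE
  have hEs : Eᵀ = E := by
    rw [hE]
    simp only [transpose_add, transpose_mul, transpose_transpose, Matrix.mul_assoc]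
    abel
  obtain ⟨S, S₀, X, hS, hS₀, hXc, hSr, hS₀r, hmain⟩ := gain_key hX0 hX1 hEs
  have hsum : G * P * Gᵀ + G * (1 - P) * Gᵀ = G * Gᵀ := by
    rw [← Matrix.add_mul, ← Matrix.mul_add]
    simp
  have hdiff : G * P * Gᵀ - G * (1 - P) * Gᵀ = G * (P - (1 - P)) * Gᵀ := by
    rw [← Matrix.sub_mul, ← Matrix.mul_sub]
  rw [hdiff] at hmain
  have hσ : (P - (1 - P))ᵀ = P - (1 - P) := by simp [hPs]
  have htr : trace (G * (P - (1 - P)) * Gᵀ * E) = 2 * trace (A * (P - (1 - P)) * B * Fᵀ) :=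
    trace_off hσ
  rw [htr] at hmain
  have h1G := J1G A B
  have h2G := J2G A B
  rw [← hG] at h1G h2G
  have h1Gt : Gᵀ * J₁ n = Aᵀ := by
    have := congrArg Matrix.transpose h1G
    rwa [transpose_mul, transpose_transpose] at this
  have h2Gt : Gᵀ * J₂ n = B := by
    have := congrArg Matrix.transpose h2G
    rwa [transpose_mul, transpose_transpose, transpose_transpose] at this
  have c1 : ∀ M : Matrix n n ℝ, (J₁ n)ᵀ * (G * M * Gᵀ) * J₁ n = A * M * Aᵀ := by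
    intro M
    calc (J₁ n)ᵀ * (G * M * Gᵀ) * J₁ n = ((J₁ n)ᵀ * G) * M * (Gᵀ * J₁ n) := by
          simp only [Matrix.mul_assoc]
      _ = A * M * Aᵀ := by rw [h1G, h1Gt]
  have c2 : ∀ M : Matrix n n ℝ, (J₂ n)ᵀ * (G * M * Gᵀ) * J₂ n = Bᵀ * M * B := by
    intro M
    calc (J₂ n)ᵀ * (G * M * Gᵀ) * J₂ n = ((J₂ n)ᵀ * G) * M * (Gᵀ * J₂ n) := by
          simp only [Matrix.mul_assoc]
      _ = Bᵀ * M * B := by rw [h2G, h2Gt]
  have hGG1 : (J₁ n)ᵀ * (G * Gᵀ) * J₁ n = A * Aᵀ := by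
    have := c1 1; simpa using this
  have hGG2 : (J₂ n)ᵀ * (G * Gᵀ) * J₂ n = Bᵀ * B := by
    have := c2 1; simpa using this
  -- bound for `S₀`
  have s01 : (a - (J₁ n)ᵀ * S₀ * J₁ n).PosSemidef := by
    apply compress_le J11 hS₀ ha
    rw [hS₀r, hsum, hGG1, haa, sub_self]
    exact PosSemidef.zero
  have s02 : (b - (J₂ n)ᵀ * S₀ * J₂ n).PosSemidef := by
    apply compress_le J22 hS₀ hb
    rw [hS₀r, hsum, hGG2, hbb, sub_self]
    exact PosSemidef.zero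
  have hs2 : (0 : ℝ) ≤ √2 := Real.sqrt_nonneg 2
  have h22 : √2 * √2 = 2 := Real.mul_self_sqrt (by norm_num)
  -- bound for `S`
  have sc : (√2 • a) * (√2 • a) = (2 : ℝ) • (A * Aᵀ) := by
    rw [Matrix.smul_mul, Matrix.mul_smul, smul_smul, h22, haa]
  have sc' : (√2 • b) * (√2 • b) = (2 : ℝ) • (Bᵀ * B) := by
    rw [Matrix.smul_mul, Matrix.mul_smul, smul_smul, h22, hbb]
  have tsm : ∀ (J : Matrix (n ⊕ n) n ℝ) (Y : Matrix (n ⊕ n) (n ⊕ n) ℝ),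
      Jᵀ * ((2 : ℝ) • Y) * J = (2 : ℝ) • (Jᵀ * Y * J) := by
    intro J Y
    rw [Matrix.mul_smul, Matrix.smul_mul]
  have s1 : (√2 • a - (J₁ n)ᵀ * S * J₁ n).PosSemidef := by
    apply compress_le J11 hS (ha.smul hs2)
    rw [hSr, sc, tsm, ← smul_sub]
    apply PosSemidef.smul _ (by norm_num : (0 : ℝ) ≤ 2)
    rcases hXc with rfl | rfl
    · rw [c1]
      have e : A * Aᵀ - A * P * Aᵀ = A * (1 - P) * Aᵀ := by
        rw [Matrix.mul_sub, Matrix.sub_mul, Matrix.mul_one]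
      rw [e]
      exact psd_conj hP1 A
    · rw [c1]
      have e : A * Aᵀ - A * (1 - P) * Aᵀ = A * P * Aᵀ := by
        rw [Matrix.mul_sub, Matrix.sub_mul, Matrix.mul_one]
        abel
      rw [e]
      exact psd_conj hP0 A
  have s2 : (√2 • b - (J₂ n)ᵀ * S * J₂ n).PosSemidef := by
    apply compress_le J22 hS (hb.smul hs2)
    rw [hSr, sc', tsm, ← smul_sub]
    apply PosSemidef.smul _ (by norm_num : (0 : ℝ) ≤ 2)
    rcases hXc with rfl | rfl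
    · rw [c2]
      have e : Bᵀ * B - Bᵀ * P * B = Bᵀ * (1 - P) * B := by
        rw [Matrix.mul_sub, Matrix.sub_mul, Matrix.mul_one]
      rw [e]
      have := psd_conj hP1 Bᵀ
      rwa [transpose_transpose] at this
    · rw [c2]
      have e : Bᵀ * B - Bᵀ * (1 - P) * B = Bᵀ * P * B := by
        rw [Matrix.mul_sub, Matrix.sub_mul, Matrix.mul_one]
        abel
      rw [e]
      have := psd_conj hP0 Bᵀ
      rwa [transpose_transpose] at this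
  -- the trace bound
  have hFF1 : (F * Fᵀ).PosSemidef := psd_mul_self_tr F
  have hFF2 : (Fᵀ * F).PosSemidef := by
    have := psd_mul_self_tr Fᵀ
    rwa [transpose_transpose] at this
  have tr1 : trace (F * Fᵀ * ((J₁ n)ᵀ * (S + S₀) * J₁ n)) ≤ (1 + √2) * trace (F * Fᵀ * a) := by
    have h1 := trace_mul_nonneg hFF1 s01
    have h2 := trace_mul_nonneg hFF1 s1
    rw [Matrix.mul_sub, trace_sub] at h1 h2
    rw [Matrix.mul_smul, trace_smul, smul_eq_mul] at h2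
    rw [Matrix.mul_add, Matrix.add_mul, Matrix.mul_add, trace_add]
    linarith
  have tr2 : trace (Fᵀ * F * ((J₂ n)ᵀ * (S + S₀) * J₂ n)) ≤ (1 + √2) * trace (Fᵀ * F * b) := by
    have h1 := trace_mul_nonneg hFF2 s02
    have h2 := trace_mul_nonneg hFF2 s2
    rw [Matrix.mul_sub, trace_sub] at h1 h2
    rw [Matrix.mul_smul, trace_smul, smul_eq_mul] at h2
    rw [Matrix.mul_add, Matrix.add_mul, Matrix.mul_add, trace_add]
    linarith
  have htrE : trace (E * E * (S + S₀)) ≤ (1 + √2) * (trace (F * Fᵀ * a) + trace (Fᵀ * F * b)) := by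
    rw [hE, trace_off_sq, mul_add]
    exact add_le_add tr1 tr2
  have hg := gain_nonneg hX0 hX1
  have hfin := mul_le_mul_of_nonneg_left htrE (by linarith : 0 ≤ 2 * gainD (G * P * Gᵀ) (G * (1 - P) * Gᵀ))
  have := hmain.trans hfin
  have e : (2 * trace (A * (P - (1 - P)) * B * Fᵀ)) ^ 2 = 4 * (trace (A * (P - (1 - P)) * B * Fᵀ)) ^ 2 := by ring
  rw [e] at this
  nlinarith

end Vale.Agent.Lib.P075
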