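import Vale.Agent.Lib.P075.Psd

set_option linter.unusedSectionVars false
set_option linter.unusedSimpArgs false

open Matrix
open scoped MatrixOrder

namespace Vale.Agent.Lib.P075

variable {n m : Type*} [Fintype n] [Fintype m] [DecidableEq n] [DecidableEq m]

/-- Trace identity for the two-block pinching. -/
lemma pinch_identity (S Q : Matrix n n ℝ) :
    3 * trace (Q * S * S * Q * S) - 2 * trace (Q * S * Q * S * Q * S)
      + (3 * trace ((1 - Q) * S * S * (1 - Q) * S)
          - 2 * trace ((1 - Q) * S * (1 - Q) * S * (1 - Q) * S)) = trace (S * S * S) := by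
  simp only [sub_mul, mul_sub, one_mul, mul_one, trace_sub, Matrix.mul_assoc]
  have h1 : trace (S * (S * (Q * S))) = trace (Q * (S * (S * S))) := by
    rw [← Matrix.mul_assoc, trace_mul_comm]
    simp only [Matrix.mul_assoc]
  have h2 : trace (S * (Q * (S * S))) = trace (Q * (S * (S * S))) := by
    rw [trace_mul_comm]
    simp only [Matrix.mul_assoc]
  have h3 : trace (S * (Q * (S * (Q * S)))) = trace (Q * (S * (Q * (S * S)))) := by
    rw [trace_mul_comm]
    simp only [Matrix.mul_assoc]
  have h4 : trace (Q * (S * (S * (Q * S)))) = trace (Q * (S * (Q * (S * S)))) := by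
    have e : Q * (S * (S * (Q * S))) = (Q * S * S) * (Q * S) := by
      simp only [Matrix.mul_assoc]
    rw [e, trace_mul_comm]
    simp only [Matrix.mul_assoc]
  have h5 : trace (S * (S * (Q * (S * S)))) = trace (Q * (S * (S * (S * S)))) := by
    rw [← Matrix.mul_assoc, trace_mul_comm]
    simp only [Matrix.mul_assoc]
  simp only [h1, h2, h3, h4]
  ring

/-- One block of the pinching inequality. -/
lemma half_pinch {S Q : Matrix n n ℝ} (hS : S.PosSemidef) (hQs : Qᵀ = Q) (hQ : Q * Q = Q) :
    √2 * ((3 / 2) * trace (Q * S * S * Q * S) - trace (Q * S * Q * S * Q * S))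
      ≤ ener (Q * (S * S) * Q) := by
  have hX : (Q * (S * S) * Q).PosSemidef := by
    have := psd_conj (psd_mul_self hS) Q
    rwa [hQs] at this
  have hQSQ : (Q * S * Q).PosSemidef := by
    have := psd_conj hS Q
    rwa [hQs] at this
  have hs2 : (0 : ℝ) ≤ √2 := Real.sqrt_nonneg 2
  have hY : (√2 • (Q * S * Q)).PosSemidef := hQSQ.smul hs2
  have h := ener_ge hX hY
  have e1 : trace (Q * (S * S) * Q * (√2 • (Q * S * Q))) = √2 * trace (Q * S * S * Q * S) := by
    rw [Matrix.mul_smul, trace_smul, smul_eq_mul]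
    congr 1
    have : Q * (S * S) * Q * (Q * S * Q) = (Q * S * S * Q * S) * Q := by
      simp only [Matrix.mul_assoc]
      rw [← Matrix.mul_assoc Q Q, hQ]
    rw [this, trace_mul_comm, ← Matrix.mul_assoc, ← Matrix.mul_assoc, ← Matrix.mul_assoc,
      ← Matrix.mul_assoc, hQ]
  have e2 : trace ((√2 • (Q * S * Q)) * (√2 • (Q * S * Q)) * (√2 • (Q * S * Q)))
      = 2 * √2 * trace (Q * S * Q * S * Q * S) := by
    simp only [Matrix.smul_mul, Matrix.mul_smul, trace_smul, smul_eq_mul]
    have : Q * S * Q * (Q * S * Q) * (Q * S * Q) = (Q * S * Q * S * Q * S) * Q := by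
      simp only [Matrix.mul_assoc]
      rw [← Matrix.mul_assoc Q Q, hQ]
      rw [← Matrix.mul_assoc Q Q, hQ]
    rw [this, trace_mul_comm, ← Matrix.mul_assoc, ← Matrix.mul_assoc, ← Matrix.mul_assoc,
      ← Matrix.mul_assoc, ← Matrix.mul_assoc, hQ]
    have h22 : √2 * √2 = 2 := Real.mul_self_sqrt (by norm_num)
    calc √2 * (√2 * (√2 * trace (Q * S * Q * S * Q * S)))
        = (√2 * √2) * √2 * trace (Q * S * Q * S * Q * S) := by ring
      _ = _ := by rw [h22]
  rw [e1, e2] at h
  nlinarith

/-- The pinching inequality for a complementary pair of orthogonal projections. -/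
lemma pinch {X Q : Matrix n n ℝ} (hX : X.PosSemidef) (hQs : Qᵀ = Q) (hQ : Q * Q = Q) :
    ener X ≤ √2 * (ener (Q * X * Q) + ener ((1 - Q) * X * (1 - Q))) := by
  obtain ⟨S, hS, rfl⟩ := exists_root hX
  have hQ's : (1 - Q)ᵀ = 1 - Q := by simp [hQs]
  have hQ' : (1 - Q) * (1 - Q) = 1 - Q := by
    simp only [sub_mul, mul_sub, one_mul, mul_one, hQ]
    abel
  have h1 := half_pinch hS hQs hQ
  have h2 := half_pinch hS hQ's hQ'
  have h3 := pinch_identity S Q
  rw [ener_eq hS rfl]
  have h22 : √2 * √2 = 2 := Real.mul_self_sqrt (by norm_num)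
  have hs2 : (0 : ℝ) ≤ √2 := Real.sqrt_nonneg 2
  have h1' := mul_le_mul_of_nonneg_left h1 hs2
  have h2' := mul_le_mul_of_nonneg_left h2 hs2
  rw [← mul_assoc, h22] at h1' h2'
  rw [mul_add]
  linarith

end Vale.Agent.Lib.P075
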