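import Mathlib

set_option linter.unusedSectionVars false
set_option linter.unusedSimpArgs false

open Matrix
open scoped MatrixOrder

namespace Vale.Agent.Lib.P075

variable {n m : Type*} [Fintype n] [Fintype m] [DecidableEq n] [DecidableEq m]

/-- Every positive semidefinite real matrix has a positive semidefinite square root. -/
lemma exists_root {X : Matrix n n ℝ} (hX : X.PosSemidef) :
    ∃ S : Matrix n n ℝ, S.PosSemidef ∧ S * S = X :=
  ⟨CFC.sqrt X, (CFC.sqrt_nonneg X).posSemidef, CFC.sqrt_mul_sqrt_self X hX.nonneg⟩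

lemma psd_symm {S : Matrix n n ℝ} (hS : S.PosSemidef) : Sᵀ = S := by
  have := hS.1
  rwa [IsHermitian, conjTranspose_eq_transpose_of_trivial] at this

/-- Conjugation preserves positivity (transpose form). -/
lemma psd_conj {A : Matrix n n ℝ} (hA : A.PosSemidef) (B : Matrix m n ℝ) :
    (B * A * Bᵀ).PosSemidef := by
  have := hA.mul_mul_conjTranspose_same B
  rwa [conjTranspose_eq_transpose_of_trivial] at this

lemma psd_mul_self_tr (B : Matrix m n ℝ) : (B * Bᵀ).PosSemidef := by
  have := posSemidef_self_mul_conjTranspose B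
  rwa [conjTranspose_eq_transpose_of_trivial] at this

lemma psd_quad {A : Matrix n n ℝ} (hA : A.PosSemidef) (x : n → ℝ) : 0 ≤ x ⬝ᵥ (A *ᵥ x) := by
  simpa using hA.dotProduct_mulVec_nonneg x

/-- The trace of a product of positive semidefinite matrices is nonnegative. -/
lemma trace_mul_nonneg {P Q : Matrix n n ℝ} (hP : P.PosSemidef) (hQ : Q.PosSemidef) :
    0 ≤ trace (P * Q) := by
  obtain ⟨R, hR, rfl⟩ := exists_root hQ
  have h : trace (P * (R * R)) = trace (R * P * Rᵀ) := by
    rw [psd_symm hR, ← Matrix.mul_assoc, trace_mul_comm]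
    simp only [Matrix.mul_assoc]
  rw [h]
  exact (psd_conj hP R).trace_nonneg

lemma trace_sq_mul_nonneg {R P : Matrix n n ℝ} (hR : Rᵀ = R) (hP : P.PosSemidef) :
    0 ≤ trace (R * R * P) := by
  have h : trace (R * R * P) = trace (R * P * Rᵀ) := by
    rw [hR, Matrix.mul_assoc, trace_mul_comm, Matrix.mul_assoc]
  rw [h]
  exact (psd_conj hP R).trace_nonneg

/-- Cubic trace identity behind the variational bound. -/
lemma trace_identity (P Q : Matrix n n ℝ) :
    trace (P * P * P) - (3 / 2) * trace (P * P * Q) + (1 / 2) * trace (Q * Q * Q) =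
      trace ((P - Q) * (P - Q) * P) + (1 / 2) * trace ((P - Q) * (P - Q) * Q) := by
  simp only [sub_mul, mul_sub, trace_sub]
  have h1 : trace (P * Q * P) = trace (P * P * Q) := by
    rw [trace_mul_comm, ← Matrix.mul_assoc]
  have h2 : trace (Q * P * P) = trace (P * P * Q) := by
    rw [Matrix.mul_assoc, trace_mul_comm]
  have h3 : trace (Q * P * Q) = trace (Q * Q * P) := by
    rw [trace_mul_comm, ← Matrix.mul_assoc]
  have h4 : trace (P * Q * Q) = trace (Q * Q * P) := by
    rw [Matrix.mul_assoc, trace_mul_comm]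
  rw [h1, h2, h3, h4]
  ring

lemma sub_symm {S Y : Matrix n n ℝ} (hS : S.PosSemidef) (hY : Y.PosSemidef) :
    (S - Y)ᵀ = S - Y := by
  rw [transpose_sub, psd_symm hS, psd_symm hY]

/-- Variational bound for the cubic trace. -/
lemma var_ineq {S Y : Matrix n n ℝ} (hS : S.PosSemidef) (hY : Y.PosSemidef) :
    (3 / 2) * trace (S * S * Y) - (1 / 2) * trace (Y * Y * Y) ≤ trace (S * S * S) := by
  have h := trace_identity S Y
  have h1 := trace_sq_mul_nonneg (sub_symm hS hY) hS
  have h2 := trace_sq_mul_nonneg (sub_symm hS hY) hY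
  linarith

/-- The energy `Tr X^{3/2}` of a matrix, computed through its square root. -/
noncomputable def ener (X : Matrix n n ℝ) : ℝ :=
  trace (CFC.sqrt X * CFC.sqrt X * CFC.sqrt X)

lemma psd_mul_self {S : Matrix n n ℝ} (hS : S.PosSemidef) : (S * S).PosSemidef := by
  have h3 := psd_mul_self_tr S
  rwa [psd_symm hS] at h3

lemma ener_eq {S X : Matrix n n ℝ} (hS : S.PosSemidef) (h : S * S = X) :
    ener X = trace (S * S * S) := by
  have hX : X.PosSemidef := h ▸ psd_mul_self hS
  have hT : (CFC.sqrt X).PosSemidef := (CFC.sqrt_nonneg X).posSemidef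
  have hr : CFC.sqrt X * CFC.sqrt X = X := CFC.sqrt_mul_sqrt_self X hX.nonneg
  unfold ener
  generalize CFC.sqrt X = T at hT hr
  have e : S * S = T * T := by rw [h, hr]
  have e3 : trace (S * S * S) = trace (T * T * S) := by rw [e]
  have h1 := var_ineq hS hT
  have h2 := var_ineq hT hS
  rw [e] at h1
  rw [← e3] at h1 h2
  apply le_antisymm <;> linarith

lemma ener_ge {X Y : Matrix n n ℝ} (hX : X.PosSemidef) (hY : Y.PosSemidef) :
    (3 / 2) * trace (X * Y) - (1 / 2) * trace (Y * Y * Y) ≤ ener X := by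
  obtain ⟨S, hS, rfl⟩ := exists_root hX
  rw [ener_eq hS rfl]
  exact var_ineq hS hY

lemma ener_smul {X : Matrix n n ℝ} (hX : X.PosSemidef) {t : ℝ} (ht : 0 ≤ t) :
    ener ((t * t) • X) = t * t * t * ener X := by
  obtain ⟨S, hS, rfl⟩ := exists_root hX
  have hS' : (t • S).PosSemidef := hS.smul ht
  rw [ener_eq hS' (by simp [Matrix.smul_mul, Matrix.mul_smul, smul_smul]), ener_eq hS rfl]
  have e : t • S * (t • S) * (t • S) = (t * t * t) • (S * S * S) := by
    simp only [Matrix.smul_mul, Matrix.mul_smul, smul_smul]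
    congr 1
    ring
  rw [e, trace_smul, smul_eq_mul]

lemma ener_nonneg {X : Matrix n n ℝ} (hX : X.PosSemidef) : 0 ≤ ener X := by
  obtain ⟨S, hS, rfl⟩ := exists_root hX
  rw [ener_eq hS rfl]
  exact trace_mul_nonneg (psd_mul_self hS) hS

/-- Cauchy-Schwarz in the form needed for the gain estimate. -/
lemma trace_cs {R T E : Matrix n n ℝ} (hR : Rᵀ = R) (hT : T.PosSemidef) (hE : Eᵀ = E) :
    (trace (R * T * E)) ^ 2 ≤ trace (R * R * T) * trace (E * E * T) := by
  have hq : ∀ s : ℝ, 0 ≤ trace (E * E * T) * (s * s) + (2 * trace (R * T * E)) * s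
      + trace (R * R * T) := by
    intro s
    have hsym : (R + s • E)ᵀ = R + s • E := by simp [hR, hE]
    have h0 := trace_sq_mul_nonneg hsym hT
    have h1 : trace (R * E * T) = trace (R * T * E) := by
      have hTs := psd_symm hT
      have : trace (R * E * T) = trace ((R * E * T)ᵀ) := (trace_transpose _).symm
      rw [this]
      simp only [transpose_mul, hTs, hR, hE]
      rw [Matrix.mul_assoc, trace_mul_comm, Matrix.mul_assoc, trace_mul_comm, Matrix.mul_assoc]
    have h2 : trace (E * R * T) = trace (R * T * E) := by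
      rw [Matrix.mul_assoc, trace_mul_comm]
    have h3 : trace ((R + s • E) * (R + s • E) * T) =
        trace (R * R * T) + s * trace (R * E * T) + s * trace (E * R * T)
          + s * s * trace (E * E * T) := by
      simp only [Matrix.add_mul, Matrix.mul_add, Matrix.smul_mul, Matrix.mul_smul, trace_add,
        trace_smul, smul_eq_mul, smul_smul]
      ring
    rw [h3, h1, h2] at h0
    nlinarith
  have := discrim_le_zero hq
  unfold discrim at this
  nlinarith

/-- Monotonicity of the square root for positive semidefinite matrices. -/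
lemma sqrt_mono {X Y : Matrix n n ℝ} (hX : X.PosSemidef) (hY : Y.PosSemidef)
    (h : (Y * Y - X * X).PosSemidef) : (Y - X).PosSemidef := by
  have hH : (Y - X).IsHermitian := hY.1.sub hX.1
  rw [hH.posSemidef_iff_eigenvalues_nonneg]
  intro i
  by_contra hneg
  rw [Pi.zero_apply, not_le] at hneg
  set lam := hH.eigenvalues i with hlam
  set v : n → ℝ := (hH.eigenvectorBasis i : EuclideanSpace ℝ n).ofLp with hv
  have hev : (Y - X) *ᵥ v = lam • v := hH.mulVec_eigenvectorBasis i
  have hvv : v ⬝ᵥ v = 1 := by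
    have := hH.eigenvectorBasis.orthonormal.1 i
    have h2 : ‖hH.eigenvectorBasis i‖ ^ 2 = 1 := by rw [this]; norm_num
    rw [EuclideanSpace.norm_sq_eq] at h2
    simp only [Real.norm_eq_abs, sq_abs] at h2
    simp only [dotProduct, hv]
    rw [← h2]
    apply Finset.sum_congr rfl
    intro j _
    ring
  set u := X *ᵥ v with hu
  have hYv : Y *ᵥ v = u + lam • v := by
    have : Y *ᵥ v = (Y - X) *ᵥ v + X *ᵥ v := by rw [sub_mulVec]; abel
    rw [this, hev, add_comm]
  have q1 : 0 ≤ v ⬝ᵥ u := psd_quad hX v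
  have q2 : 0 ≤ v ⬝ᵥ (Y *ᵥ v) := psd_quad hY v
  rw [hYv, dotProduct_add, dotProduct_smul, hvv, smul_eq_mul, mul_one] at q2
  have q3 := psd_quad h v
  have e1 : v ⬝ᵥ ((Y * Y) *ᵥ v) = (Y *ᵥ v) ⬝ᵥ (Y *ᵥ v) := by
    rw [← mulVec_mulVec, dotProduct_mulVec, ← mulVec_transpose, psd_symm hY]
  have e2 : v ⬝ᵥ ((X * X) *ᵥ v) = u ⬝ᵥ u := by
    rw [← mulVec_mulVec, dotProduct_mulVec, ← mulVec_transpose, psd_symm hX]
  rw [sub_mulVec, dotProduct_sub, e1, e2, hYv] at q3
  have e3 : (u + lam • v) ⬝ᵥ (u + lam • v) = u ⬝ᵥ u + 2 * lam * (v ⬝ᵥ u) + lam * lam := by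
    simp only [dotProduct_add, add_dotProduct, dotProduct_smul, smul_dotProduct, smul_eq_mul, hvv]
    rw [dotProduct_comm u v]
    ring
  rw [e3] at q3
  nlinarith [mul_pos_of_neg_of_neg hneg hneg]

end Vale.Agent.Lib.P075
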