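import Vale.Agent.Lib.P075.Dyad

set_option linter.unusedSectionVars false
set_option linter.unusedSimpArgs false

open MeasureTheory Matrix

namespace Vale.Agent.Lib.P075

variable {m : ℤ} {d : ℕ}

/-- The step function with value `A i j` on the cell `dyadicI m i × dyadicI m j`, zero elsewhere. -/
noncomputable def stepF (m : ℤ) (d : ℕ) (A : Matrix (Fin (2 ^ d)) (Fin (2 ^ d)) ℝ) (p : ℝ × ℝ) : ℝ :=
  ∑ i : Fin (2 ^ d), ∑ j : Fin (2 ^ d),
    (dyadicI m (i : ℕ) ×ˢ dyadicI m (j : ℕ)).indicator (fun _ => A i j) p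

lemma measurable_stepF (A : Matrix (Fin (2 ^ d)) (Fin (2 ^ d)) ℝ) : Measurable (stepF m d A) := by
  unfold stepF
  refine Finset.measurable_sum _ fun i _ => Finset.measurable_sum _ fun j _ => ?_
  exact measurable_const.indicator ((measurableSet_dyadic _ _).prod (measurableSet_dyadic _ _))

lemma stepF_apply (A : Matrix (Fin (2 ^ d)) (Fin (2 ^ d)) ℝ) {p : ℝ × ℝ} {i j : Fin (2 ^ d)}
    (hi : p.1 ∈ dyadicI m (i : ℕ)) (hj : p.2 ∈ dyadicI m (j : ℕ)) : stepF m d A p = A i j := by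
  unfold stepF
  rw [Finset.sum_eq_single i, Finset.sum_eq_single j]
  · exact Set.indicator_of_mem (Set.mem_prod.mpr ⟨hi, hj⟩) _
  · intro j' _ hj'
    apply Set.indicator_of_notMem
    rintro ⟨-, h⟩
    exact hj' (Fin.ext (dyadic_unique h hj))
  · simp
  · intro i' _ hi'
    apply Finset.sum_eq_zero
    intro j' _
    apply Set.indicator_of_notMem
    rintro ⟨h, -⟩
    exact hi' (Fin.ext (dyadic_unique h hi))
  · simp

lemma stepF_zero (A : Matrix (Fin (2 ^ d)) (Fin (2 ^ d)) ℝ) {p : ℝ × ℝ}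
    (h : p.1 ∉ dyadicI (m + d) 0 ∨ p.2 ∉ dyadicI (m + d) 0) : stepF m d A p = 0 := by
  unfold stepF
  apply Finset.sum_eq_zero
  intro i _
  apply Finset.sum_eq_zero
  intro j _
  apply Set.indicator_of_notMem
  rintro ⟨h1, h2⟩
  rcases h with h | h
  · exact h (cell_subset h1)
  · exact h (cell_subset h2)

lemma abs_stepF_le (A : Matrix (Fin (2 ^ d)) (Fin (2 ^ d)) ℝ) {M : ℝ} (hM : 0 ≤ M)
    (hA : ∀ i j, |A i j| ≤ M) (p : ℝ × ℝ) : |stepF m d A p| ≤ M := by
  by_cases h1 : p.1 ∈ dyadicI (m + d) 0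
  · by_cases h2 : p.2 ∈ dyadicI (m + d) 0
    · obtain ⟨i, hi⟩ := cell_cover h1
      obtain ⟨j, hj⟩ := cell_cover h2
      rw [stepF_apply A hi hj]
      exact hA i j
    · rw [stepF_zero A (Or.inr h2)]; simpa using hM
  · rw [stepF_zero A (Or.inl h1)]; simpa using hM

/-- Integral of a function that is constant on finitely many disjoint sets and vanishes off them. -/
lemma integral_of_boxes {α ι : Type*} [MeasurableSpace α] [DecidableEq ι] (μ : Measure α)
    (s : Finset ι) (B : ι → Set α) (hB : ∀ i ∈ s, MeasurableSet (B i))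
    (hd : ∀ i ∈ s, ∀ j ∈ s, i ≠ j → Disjoint (B i) (B j)) (hfin : ∀ i ∈ s, μ (B i) ≠ ⊤)
    (f : α → ℝ) (c : ι → ℝ) (hc : ∀ i ∈ s, ∀ x ∈ B i, f x = c i)
    (h0 : ∀ x, (∀ i ∈ s, x ∉ B i) → f x = 0) :
    ∫ x, f x ∂μ = ∑ i ∈ s, c i * μ.real (B i) := by
  have hf : f = fun x => ∑ i ∈ s, (B i).indicator (fun _ => c i) x := by
    funext x
    by_cases hx : ∃ i ∈ s, x ∈ B i
    · obtain ⟨i, his, hi⟩ := hx
      rw [Finset.sum_eq_single i, Set.indicator_of_mem hi, hc i his x hi]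
      · intro j hjs hji
        apply Set.indicator_of_notMem
        intro hj
        exact Set.disjoint_left.mp (hd i his j hjs (Ne.symm hji)) hi hj
      · intro h
        exact absurd his h
    · push Not at hx
      rw [h0 x hx]
      symm
      apply Finset.sum_eq_zero
      intro i his
      exact Set.indicator_of_notMem (hx i his) _
  rw [hf, integral_finsetSum]
  · apply Finset.sum_congr rfl
    intro i his
    rw [integral_indicator_const _ (hB i his), smul_eq_mul, mul_comm]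
  · intro i his
    exact (integrable_indicator_iff (hB i his)).mpr
      (integrableOn_const (by exact hfin i his) )

lemma volume_prod_dyadic (k : ℤ) (i j : ℕ) :
    (volume : Measure (ℝ × ℝ)).real (dyadicI k i ×ˢ dyadicI k j) = (2 : ℝ) ^ k * (2 : ℝ) ^ k := by
  rw [Measure.volume_eq_prod, measureReal_prod_prod, volume_dyadic, volume_dyadic]

lemma volume_triple_dyadic (k : ℤ) (i j l : ℕ) :
    (volume : Measure (ℝ × ℝ × ℝ)).real (dyadicI k i ×ˢ dyadicI k j ×ˢ dyadicI k l)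
      = (2 : ℝ) ^ k * ((2 : ℝ) ^ k * (2 : ℝ) ^ k) := by
  rw [Measure.volume_eq_prod, measureReal_prod_prod, volume_dyadic, volume_prod_dyadic]

lemma volume_dyadic_ne_top (k : ℤ) (i : ℕ) : volume (dyadicI k i) ≠ ⊤ := by
  unfold dyadicI
  exact measure_Ico_lt_top.ne

/-- The `L³` integral of a step function. -/
lemma integral_cube_stepF (A : Matrix (Fin (2 ^ d)) (Fin (2 ^ d)) ℝ) :
    ∫ p, |stepF m d A p| ^ 3 = cubeSum A * ((2 : ℝ) ^ m * (2 : ℝ) ^ m) := by
  rw [integral_of_boxes (volume : Measure (ℝ × ℝ))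
    (Finset.univ : Finset (Fin (2 ^ d) × Fin (2 ^ d)))
    (fun q => dyadicI m (q.1 : ℕ) ×ˢ dyadicI m (q.2 : ℕ))
    (fun q _ => (measurableSet_dyadic _ _).prod (measurableSet_dyadic _ _))
    ?_ ?_ _ (fun q => |A q.1 q.2| ^ 3) ?_ ?_]
  · simp only [volume_prod_dyadic]
    rw [← Finset.sum_mul]
    congr 1
    unfold cubeSum
    rw [Fintype.sum_prod_type]
  · intro q _ q' _ hq
    rw [Set.disjoint_left]
    rintro p ⟨h1, h2⟩ ⟨h3, h4⟩
    exact hq (Prod.ext (Fin.ext (dyadic_unique h1 h3)) (Fin.ext (dyadic_unique h2 h4)))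
  · intro q _
    rw [Measure.volume_eq_prod, Measure.prod_prod]
    exact ENNReal.mul_ne_top (volume_dyadic_ne_top _ _) (volume_dyadic_ne_top _ _)
  · rintro q _ p ⟨h1, h2⟩
    show |stepF m d A p| ^ 3 = |A q.1 q.2| ^ 3
    rw [stepF_apply A h1 h2]
  · intro p hp
    have : p.1 ∉ dyadicI (m + d) 0 ∨ p.2 ∉ dyadicI (m + d) 0 := by
      by_contra hc
      push Not at hc
      obtain ⟨i, hi⟩ := cell_cover hc.1
      obtain ⟨j, hj⟩ := cell_cover hc.2
      exact hp (i, j) (Finset.mem_univ _) ⟨hi, hj⟩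
    rw [stepF_zero A this]
    simp

/-- The integrand of the form. -/
noncomputable def integrandL (F₀ F₁ F₂ : ℝ × ℝ → ℝ) (k : ℤ) (n₀ n₁ n₂ : ℕ) (x : ℝ × ℝ × ℝ) : ℝ :=
  F₀ (x.1, x.2.1) * F₁ (x.2.1, x.2.2) * F₂ (x.2.2, x.1) *
    (haar k n₀ x.1 * haar k n₁ x.2.1 * haar k n₂ x.2.2)

lemma formL_eq_integral (F₀ F₁ F₂ : ℝ × ℝ → ℝ) (k : ℤ) (n₀ n₁ n₂ : ℕ) :
    formL F₀ F₁ F₂ k n₀ n₁ n₂ = (2 : ℝ) ^ (-k) * ∫ x, integrandL F₀ F₁ F₂ k n₀ n₁ n₂ x := by
  unfold formL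
  congr 1
  apply setIntegral_eq_integral_of_forall_compl_eq_zero
  intro x hx
  simp only [Set.mem_prod, not_and_or] at hx
  rcases hx with hx | hx | hx
  · rw [haar_eq_zero hx]; ring
  · rw [haar_eq_zero hx]; ring
  · rw [haar_eq_zero hx]; ring

/-- The form on step functions is the trilinear sum over fine cells. -/
lemma formL_stepF (A B C : Matrix (Fin (2 ^ d)) (Fin (2 ^ d)) ℝ) (e n₀ n₁ n₂ : ℕ) :
    formL (stepF m d A) (stepF m d B) (stepF m d C) (m + e + 1) n₀ n₁ n₂ =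
      (2 : ℝ) ^ (-(m + e + 1)) * (nodeSum A B C e n₀ n₁ n₂ *
        ((2 : ℝ) ^ m * ((2 : ℝ) ^ m * (2 : ℝ) ^ m))) := by
  rw [formL_eq_integral]
  congr 1
  rw [integral_of_boxes (volume : Measure (ℝ × ℝ × ℝ))
    (Finset.univ : Finset (Fin (2 ^ d) × Fin (2 ^ d) × Fin (2 ^ d)))
    (fun q => dyadicI m (q.1 : ℕ) ×ˢ dyadicI m (q.2.1 : ℕ) ×ˢ dyadicI m (q.2.2 : ℕ))
    (fun q _ => (measurableSet_dyadic _ _).prod
      ((measurableSet_dyadic _ _).prod (measurableSet_dyadic _ _)))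
    ?_ ?_ _ (fun q => A q.1 q.2.1 * B q.2.1 q.2.2 * C q.2.2 q.1 *
      (hh e n₀ q.1 * hh e n₁ q.2.1 * hh e n₂ q.2.2)) ?_ ?_]
  · simp only [volume_triple_dyadic]
    rw [← Finset.sum_mul]
    congr 1
    unfold nodeSum
    rw [Fintype.sum_prod_type]
    apply Finset.sum_congr rfl
    intro i _
    rw [Fintype.sum_prod_type]
  · intro q _ q' _ hq
    rw [Set.disjoint_left]
    rintro p ⟨h1, h2, h3⟩ ⟨h4, h5, h6⟩
    exact hq (Prod.ext (Fin.ext (dyadic_unique h1 h4))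
      (Prod.ext (Fin.ext (dyadic_unique h2 h5)) (Fin.ext (dyadic_unique h3 h6))))
  · intro q _
    rw [Measure.volume_eq_prod, Measure.prod_prod, Measure.volume_eq_prod, Measure.prod_prod]
    exact ENNReal.mul_ne_top (volume_dyadic_ne_top _ _)
      (ENNReal.mul_ne_top (volume_dyadic_ne_top _ _) (volume_dyadic_ne_top _ _))
  · rintro q _ x ⟨h1, h2, h3⟩
    unfold integrandL
    rw [stepF_apply A (p := (x.1, x.2.1)) h1 h2, stepF_apply B (p := (x.2.1, x.2.2)) h2 h3,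
      stepF_apply C (p := (x.2.2, x.1)) h3 h1, haar_on_cell h1, haar_on_cell h2, haar_on_cell h3]
  · intro x hx
    unfold integrandL
    have : x.1 ∉ dyadicI (m + d) 0 ∨ x.2.1 ∉ dyadicI (m + d) 0 ∨ x.2.2 ∉ dyadicI (m + d) 0 := by
      by_contra hc
      push Not at hc
      obtain ⟨i, hi⟩ := cell_cover hc.1
      obtain ⟨j, hj⟩ := cell_cover hc.2.1
      obtain ⟨l, hl⟩ := cell_cover hc.2.2
      exact hx (i, j, l) (Finset.mem_univ _) ⟨hi, hj, hl⟩
    rcases this with h | h | h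
    · rw [stepF_zero A (p := (x.1, x.2.1)) (Or.inl h)]; ring
    · rw [stepF_zero A (p := (x.1, x.2.1)) (Or.inr h)]; ring
    · rw [stepF_zero B (p := (x.2.1, x.2.2)) (Or.inr h)]; ring

end Vale.Agent.Lib.P075
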