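import Vale.Agent.Lib.P075.Step

set_option linter.unusedSectionVars false
set_option linter.unusedSimpArgs false

open MeasureTheory Matrix

namespace Vale.Agent.Lib.P075

variable {m : ℤ} {d : ℕ}

/-- The level index of a scale. -/
def tt (m : ℤ) (d : ℕ) (k : ℤ) : ℕ := (m + d - k).toNat

lemma scale_identity (m : ℤ) (d e t : ℕ) (h : t + e + 1 = d) :
    (2 : ℝ) ^ (-(m + (e : ℤ) + 1)) * ((2 : ℝ) ^ m * ((2 : ℝ) ^ m * (2 : ℝ) ^ m))
      = ((2 : ℝ) ^ m * (2 : ℝ) ^ d) ^ 2 * ((2 : ℝ) ^ t * (1 / (2 : ℝ) ^ d) ^ 3) := by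
  have hz : (2 : ℝ) ^ (-(m + (e : ℤ) + 1)) = ((2 : ℝ) ^ m)⁻¹ * ((2 : ℝ) ^ e)⁻¹ * (1 / 2) := by
    rw [neg_add, neg_add, zpow_add₀ (by norm_num), zpow_add₀ (by norm_num), _root_.zpow_neg, _root_.zpow_neg,
      zpow_natCast]
    norm_num
  have hd : (2 : ℝ) ^ d = 2 * (2 : ℝ) ^ e * (2 : ℝ) ^ t := by
    rw [← h, pow_add, pow_add]; ring
  rw [hz, hd]
  have ha : (2 : ℝ) ^ m ≠ 0 := by positivity
  have hb : (2 : ℝ) ^ e ≠ 0 := by positivity
  have hc : (2 : ℝ) ^ t ≠ 0 := by positivity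
  field_simp

/-- The bound for step functions, with absolute values on each node. -/
theorem step_bound (A B C : Matrix (Fin (2 ^ d)) (Fin (2 ^ d)) ℝ) (S : Finset ℤ)
    (hS : ∀ k ∈ S, m < k ∧ k ≤ m + d) :
    ∑ k ∈ S, ∑ n₀ ∈ Finset.range (2 ^ tt m d k), ∑ n₁ ∈ Finset.range (2 ^ tt m d k),
        |formL (stepF m d A) (stepF m d B) (stepF m d C) k n₀ n₁ (n₀ ^^^ n₁)|
      ≤ (4 * (1 + √2)) * ((∫ p, |stepF m d A p| ^ 3) + (∫ p, |stepF m d B p| ^ 3)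
          + (∫ p, |stepF m d C p| ^ 3)) := by
  set term : ℕ → ℝ := fun t => ∑ n₀ ∈ Finset.range (2 ^ t), ∑ n₁ ∈ Finset.range (2 ^ t),
    (2 : ℝ) ^ t * (1 / 2 ^ d) ^ 3 * |nodeSum A B C (d - t - 1) n₀ n₁ (n₀ ^^^ n₁)| with hterm
  have hterm0 : ∀ t, 0 ≤ term t := by
    intro t
    exact Finset.sum_nonneg fun _ _ => Finset.sum_nonneg fun _ _ => by positivity
  have hK : ∀ k ∈ S, ∑ n₀ ∈ Finset.range (2 ^ tt m d k), ∑ n₁ ∈ Finset.range (2 ^ tt m d k),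
        |formL (stepF m d A) (stepF m d B) (stepF m d C) k n₀ n₁ (n₀ ^^^ n₁)|
      = ((2 : ℝ) ^ m * (2 : ℝ) ^ d) ^ 2 * term (tt m d k) := by
    intro k hk
    obtain ⟨h1, h2⟩ := hS k hk
    set t := tt m d k with ht
    have ht' : (t : ℤ) = m + d - k := by
      rw [ht, tt, Int.toNat_of_nonneg (by omega)]
    obtain ⟨e, he⟩ : ∃ e : ℕ, (e : ℤ) = k - m - 1 := ⟨(k - m - 1).toNat, by
      rw [Int.toNat_of_nonneg (by omega)]⟩
    have hk' : k = m + e + 1 := by omega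
    have hde : t + e + 1 = d := by omega
    have hde2 : d - t - 1 = e := by omega
    rw [hterm]
    simp only [Finset.mul_sum]
    apply Finset.sum_congr rfl
    intro n₀ _
    apply Finset.sum_congr rfl
    intro n₁ _
    rw [hk', formL_stepF, hde2, abs_mul, abs_mul,
      abs_of_nonneg (by positivity : (0 : ℝ) ≤ (2 : ℝ) ^ (-(m + (e : ℤ) + 1))),
      abs_of_nonneg (by positivity : (0 : ℝ) ≤ (2 : ℝ) ^ m * ((2 : ℝ) ^ m * (2 : ℝ) ^ m))]
    have := scale_identity m d e t hde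
    calc (2 : ℝ) ^ (-(m + (e : ℤ) + 1)) * (|nodeSum A B C e n₀ n₁ (n₀ ^^^ n₁)|
          * ((2 : ℝ) ^ m * ((2 : ℝ) ^ m * (2 : ℝ) ^ m)))
        = ((2 : ℝ) ^ (-(m + (e : ℤ) + 1)) * ((2 : ℝ) ^ m * ((2 : ℝ) ^ m * (2 : ℝ) ^ m)))
          * |nodeSum A B C e n₀ n₁ (n₀ ^^^ n₁)| := by ring
      _ = _ := by rw [this]; ring
  rw [Finset.sum_congr rfl hK, ← Finset.mul_sum]
  have hinj : Set.InjOn (tt m d) (S : Set ℤ) := by
    intro k hk k' hk' h
    obtain ⟨h1, h2⟩ := hS k hk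
    obtain ⟨h3, h4⟩ := hS k' hk'
    unfold tt at h
    omega
  have hsub : S.image (tt m d) ⊆ Finset.range d := by
    intro t ht
    obtain ⟨k, hk, rfl⟩ := Finset.mem_image.mp ht
    obtain ⟨h1, h2⟩ := hS k hk
    apply Finset.mem_range.mpr
    unfold tt
    omega
  have h1 : ∑ k ∈ S, term (tt m d k) ≤ ∑ t ∈ Finset.range d, term t := by
    rw [← Finset.sum_image (f := term) hinj]
    exact Finset.sum_le_sum_of_subset_of_nonneg hsub (fun t _ _ => hterm0 t)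
  have h2 := discrete_main A B C
  rw [integral_cube_stepF, integral_cube_stepF, integral_cube_stepF]
  have h3 : ∑ k ∈ S, term (tt m d k) ≤
      ((1 + √2) / 2) * ((1 / 4 ^ d) * (8 * (cubeSum A + cubeSum B + cubeSum C))) := h1.trans h2
  have h4 := mul_le_mul_of_nonneg_left h3
    (by positivity : (0 : ℝ) ≤ ((2 : ℝ) ^ m * (2 : ℝ) ^ d) ^ 2)
  refine h4.trans (le_of_eq ?_)
  have e4 : ((4 : ℝ) ^ d) = (2 : ℝ) ^ d * (2 : ℝ) ^ d := by
    rw [← mul_pow]; norm_num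
  rw [e4]
  have h2d : (2 : ℝ) ^ d ≠ 0 := by positivity
  field_simp
  ring

end Vale.Agent.Lib.P075
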