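import Vale.Agent.Lib.P075.Approx

set_option linter.unusedSectionVars false
set_option linter.unusedSimpArgs false

open MeasureTheory Matrix

namespace Vale.Agent.Lib.P075

/-- The product kernel of the form. -/
noncomputable def triK (F₀ F₁ F₂ : ℝ × ℝ → ℝ) (x : ℝ × ℝ × ℝ) : ℝ :=
  F₀ (x.1, x.2.1) * F₁ (x.2.1, x.2.2) * F₂ (x.2.2, x.1)

/-- Coordinate permutations. -/
noncomputable def e₀ : (ℝ × ℝ × ℝ) ≃ᵐ ((ℝ × ℝ) × ℝ) := MeasurableEquiv.prodAssoc.symm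

noncomputable def e₁ : (ℝ × ℝ × ℝ) ≃ᵐ ((ℝ × ℝ) × ℝ) := MeasurableEquiv.prodComm

noncomputable def e₂ : (ℝ × ℝ × ℝ) ≃ᵐ ((ℝ × ℝ) × ℝ) :=
  MeasurableEquiv.prodComm.trans (MeasurableEquiv.prodAssoc.trans MeasurableEquiv.prodComm)

lemma e₀_mp : MeasurePreserving e₀ (volume : Measure (ℝ × ℝ × ℝ)) volume :=
  (measurePreserving_prodAssoc volume volume volume).symm _

lemma e₁_mp : MeasurePreserving e₁ (volume : Measure (ℝ × ℝ × ℝ)) volume :=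
  Measure.measurePreserving_swap

lemma e₂_mp : MeasurePreserving e₂ (volume : Measure (ℝ × ℝ × ℝ)) volume :=
  Measure.measurePreserving_swap.comp
    ((measurePreserving_prodAssoc volume volume volume).comp Measure.measurePreserving_swap)

lemma perm_int {e : (ℝ × ℝ × ℝ) ≃ᵐ ((ℝ × ℝ) × ℝ)} (he : MeasurePreserving e volume volume)
    (g : ℝ × ℝ → ℝ) (u : ℝ → ℝ) :
    ∫ x, g (e x).1 * u (e x).2 = (∫ p, g p) * (∫ y, u y) := by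
  have h := he.integral_comp' (fun y : (ℝ × ℝ) × ℝ => g y.1 * u y.2)
  rw [h, Measure.volume_eq_prod ((ℝ × ℝ)) ℝ, integral_prod_mul]

lemma perm_integrable {e : (ℝ × ℝ × ℝ) ≃ᵐ ((ℝ × ℝ) × ℝ)} (he : MeasurePreserving e volume volume)
    {g : ℝ × ℝ → ℝ} {u : ℝ → ℝ} (hg : Integrable g) (hu : Integrable u) :
    Integrable (fun x => g (e x).1 * u (e x).2) := by
  have h : Integrable (fun y : (ℝ × ℝ) × ℝ => g y.1 * u y.2) := by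
    rw [Measure.volume_eq_prod ((ℝ × ℝ)) ℝ]
    exact hg.mul_prod hu
  exact (he.integrable_comp_emb e.measurableEmbedding).mpr h

lemma measurable_triK {F₀ F₁ F₂ : ℝ × ℝ → ℝ} (h₀ : Measurable F₀) (h₁ : Measurable F₁)
    (h₂ : Measurable F₂) : Measurable (triK F₀ F₁ F₂) := by
  unfold triK
  fun_prop

lemma abs_triK_le {F₀ F₁ F₂ : ℝ × ℝ → ℝ} {M : ℝ} (hM : 0 ≤ M) (h₀ : ∀ p, |F₀ p| ≤ M)
    (h₁ : ∀ p, |F₁ p| ≤ M) (h₂ : ∀ p, |F₂ p| ≤ M) (x : ℝ × ℝ × ℝ) :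
    |triK F₀ F₁ F₂ x| ≤ M * M * M := by
  unfold triK
  rw [abs_mul, abs_mul]
  exact mul_le_mul (mul_le_mul (h₀ _) (h₁ _) (abs_nonneg _) hM) (h₂ _) (abs_nonneg _)
    (mul_nonneg hM hM)

/-- The root cube. -/
def rootC (K : ℤ) : Set (ℝ × ℝ × ℝ) := dyadicI K 0 ×ˢ dyadicI K 0 ×ˢ dyadicI K 0

lemma volume_rootC_ne_top (K : ℤ) : volume (rootC K) ≠ ⊤ := by
  unfold rootC
  rw [Measure.volume_eq_prod, Measure.prod_prod, Measure.volume_eq_prod, Measure.prod_prod]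
  exact ENNReal.mul_ne_top (volume_dyadic_ne_top _ _)
    (ENNReal.mul_ne_top (volume_dyadic_ne_top _ _) (volume_dyadic_ne_top _ _))

lemma integrable_of_rootC {f : ℝ × ℝ × ℝ → ℝ} (hf : AEStronglyMeasurable f volume) {M : ℝ}
    (hb : ∀ p, |f p| ≤ M) {K : ℤ} (h0 : ∀ p, p ∉ rootC K → f p = 0) : Integrable f := by
  have h1 : IntegrableOn f (rootC K) :=
    Measure.integrableOn_of_bounded (volume_rootC_ne_top K) hf
      (Filter.Eventually.of_forall (fun p => by simpa using hb p))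
  exact h1.integrable_of_forall_notMem_eq_zero h0

lemma triK_vanish {F₀ F₁ F₂ : ℝ × ℝ → ℝ} {K : ℤ} (h₀ : ∀ p, p ∉ rootQ K → F₀ p = 0)
    (h₁ : ∀ p, p ∉ rootQ K → F₁ p = 0) (x : ℝ × ℝ × ℝ) (hx : x ∉ rootC K) :
    triK F₀ F₁ F₂ x = 0 := by
  unfold triK
  have : x.1 ∉ dyadicI K 0 ∨ x.2.1 ∉ dyadicI K 0 ∨ x.2.2 ∉ dyadicI K 0 := by
    by_contra hc
    push Not at hc
    exact hx ⟨hc.1, hc.2.1, hc.2.2⟩
  rcases this with h | h | h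
  · rw [h₀ (x.1, x.2.1) (fun hh => h hh.1)]; ring
  · rw [h₀ (x.1, x.2.1) (fun hh => h hh.2)]; ring
  · rw [h₁ (x.2.1, x.2.2) (fun hh => h hh.2)]; ring

/-- The indicator of the root interval. -/
noncomputable def uQ (K : ℤ) : ℝ → ℝ := (dyadicI K 0).indicator 1

lemma integrable_uQ (K : ℤ) : Integrable (uQ K) :=
  (integrable_indicator_iff (measurableSet_dyadic K 0)).mpr
    (integrableOn_const (volume_dyadic_ne_top K 0))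

lemma integral_uQ (K : ℤ) : ∫ y, uQ K y = (2 : ℝ) ^ K := by
  unfold uQ
  have : ((dyadicI K 0).indicator (1 : ℝ → ℝ)) = (dyadicI K 0).indicator (fun _ => (1 : ℝ)) := rfl
  rw [this, integral_indicator_const _ (measurableSet_dyadic K 0), volume_dyadic]
  simp

lemma bound_u {F : ℝ × ℝ → ℝ} {M : ℝ} (hb : ∀ p, |F p| ≤ M) {K : ℤ}
    (h0 : ∀ p, p ∉ rootQ K → F p = 0) {p : ℝ × ℝ} {y : ℝ} (hy : y ∉ dyadicI K 0 → p ∉ rootQ K) :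
    |F p| ≤ M * uQ K y := by
  unfold uQ
  by_cases h : y ∈ dyadicI K 0
  · rw [Set.indicator_of_mem h]
    simpa using hb p
  · rw [Set.indicator_of_notMem h, h0 p (hy h)]
    simp

/-- The product kernels are close in `L¹` if the factors are. -/
theorem tri_diff_bound {F₀ F₁ F₂ H₀ H₁ H₂ : ℝ × ℝ → ℝ} (mF₀ : Measurable F₀) (mF₁ : Measurable F₁)
    (mF₂ : Measurable F₂) (mH₀ : Measurable H₀) (mH₁ : Measurable H₁) (mH₂ : Measurable H₂)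
    {M : ℝ} (hM : 0 ≤ M) (bF₀ : ∀ p, |F₀ p| ≤ M) (bF₁ : ∀ p, |F₁ p| ≤ M) (bF₂ : ∀ p, |F₂ p| ≤ M)
    (bH₀ : ∀ p, |H₀ p| ≤ M) (bH₁ : ∀ p, |H₁ p| ≤ M) (bH₂ : ∀ p, |H₂ p| ≤ M) {K : ℤ}
    (vF₀ : ∀ p, p ∉ rootQ K → F₀ p = 0) (vF₁ : ∀ p, p ∉ rootQ K → F₁ p = 0)
    (vF₂ : ∀ p, p ∉ rootQ K → F₂ p = 0) (vH₀ : ∀ p, p ∉ rootQ K → H₀ p = 0)
    (vH₁ : ∀ p, p ∉ rootQ K → H₁ p = 0) (vH₂ : ∀ p, p ∉ rootQ K → H₂ p = 0) :
    ∫ x, |triK F₀ F₁ F₂ x - triK H₀ H₁ H₂ x| ≤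
      M * M * (2 : ℝ) ^ K * ((∫ p, |F₀ p - H₀ p|) + (∫ p, |F₁ p - H₁ p|) + (∫ p, |F₂ p - H₂ p|)) := by
  have iF : ∀ {F H : ℝ × ℝ → ℝ}, Measurable F → Measurable H → (∀ p, |F p| ≤ M) → (∀ p, |H p| ≤ M) →
      (∀ p, p ∉ rootQ K → F p = 0) → (∀ p, p ∉ rootQ K → H p = 0) →
      Integrable (fun p => |F p - H p|) := by
    intro F H mF mH bF bH vF vH
    have i1 := integrable_of_rootQ mF.aestronglyMeasurable bF vF
    have i2 := integrable_of_rootQ mH.aestronglyMeasurable bH vH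
    exact (i1.sub i2).abs
  set g₀ : ℝ × ℝ → ℝ := fun p => |F₀ p - H₀ p| with hg₀
  set g₁ : ℝ × ℝ → ℝ := fun p => |F₁ p - H₁ p| with hg₁
  set g₂ : ℝ × ℝ → ℝ := fun p => |F₂ p - H₂ p| with hg₂
  have ig₀ : Integrable g₀ := iF mF₀ mH₀ bF₀ bH₀ vF₀ vH₀
  have ig₁ : Integrable g₁ := iF mF₁ mH₁ bF₁ bH₁ vF₁ vH₁
  have ig₂ : Integrable g₂ := iF mF₂ mH₂ bF₂ bH₂ vF₂ vH₂
  have iu := integrable_uQ K
  have t₀ := perm_integrable e₀_mp ig₀ iu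
  have t₁ := perm_integrable e₁_mp ig₁ iu
  have t₂ := perm_integrable e₂_mp ig₂ iu
  have v₀ := perm_int e₀_mp g₀ (uQ K)
  have v₁ := perm_int e₁_mp g₁ (uQ K)
  have v₂ := perm_int e₂_mp g₂ (uQ K)
  rw [integral_uQ] at v₀ v₁ v₂
  have hpt : ∀ x : ℝ × ℝ × ℝ, |triK F₀ F₁ F₂ x - triK H₀ H₁ H₂ x| ≤
      M * M * (g₀ (e₀ x).1 * uQ K (e₀ x).2) + M * M * (g₁ (e₁ x).1 * uQ K (e₁ x).2)
        + M * M * (g₂ (e₂ x).1 * uQ K (e₂ x).2) := by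
    intro x
    obtain ⟨x₀, x₁, x₂⟩ := x
    have p₀ : (e₀ (x₀, x₁, x₂)) = ((x₀, x₁), x₂) := rfl
    have p₁ : (e₁ (x₀, x₁, x₂)) = ((x₁, x₂), x₀) := rfl
    have p₂ : (e₂ (x₀, x₁, x₂)) = ((x₂, x₀), x₁) := rfl
    simp only [p₀, p₁, p₂, triK, hg₀, hg₁, hg₂]
    set a₀ := F₀ (x₀, x₁)
    set a₁ := F₁ (x₁, x₂)
    set a₂ := F₂ (x₂, x₀)
    set b₀ := H₀ (x₀, x₁)
    set b₁ := H₁ (x₁, x₂)
    set b₂ := H₂ (x₂, x₀)
    have h1 : |a₁| ≤ M * uQ K x₂ := bound_u bF₁ vF₁ (fun h hh => h hh.2)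
    have h2 : |b₀| ≤ M * uQ K x₀ := bound_u bH₀ vH₀ (fun h hh => h hh.1)
    have h3 : |b₁| ≤ M * uQ K x₁ := bound_u bH₁ vH₁ (fun h hh => h hh.1)
    have h4 : |a₂| ≤ M := bF₂ _
    have h5 : |b₀| ≤ M := bH₀ _
    have e : a₀ * a₁ * a₂ - b₀ * b₁ * b₂ =
        (a₀ - b₀) * a₁ * a₂ + b₀ * (a₁ - b₁) * a₂ + b₀ * b₁ * (a₂ - b₂) := by ring
    rw [e]
    refine (abs_add_three _ _ _).trans ?_
    have u₁ : 0 ≤ uQ K x₂ := Set.indicator_nonneg (fun _ _ => zero_le_one) _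
    have u₂ : 0 ≤ uQ K x₀ := Set.indicator_nonneg (fun _ _ => zero_le_one) _
    have u₃ : 0 ≤ uQ K x₁ := Set.indicator_nonneg (fun _ _ => zero_le_one) _
    apply add_le_add (add_le_add _ _) _
    · rw [abs_mul, abs_mul]
      calc |a₀ - b₀| * |a₁| * |a₂| ≤ |a₀ - b₀| * (M * uQ K x₂) * M := by gcongr
        _ = _ := by ring
    · rw [abs_mul, abs_mul]
      calc |b₀| * |a₁ - b₁| * |a₂| ≤ (M * uQ K x₀) * |a₁ - b₁| * M := by gcongr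
        _ = _ := by ring
    · rw [abs_mul, abs_mul]
      calc |b₀| * |b₁| * |a₂ - b₂| ≤ M * (M * uQ K x₁) * |a₂ - b₂| := by gcongr
        _ = _ := by ring
  have hint : Integrable (fun x : ℝ × ℝ × ℝ => M * M * (g₀ (e₀ x).1 * uQ K (e₀ x).2)
      + M * M * (g₁ (e₁ x).1 * uQ K (e₁ x).2) + M * M * (g₂ (e₂ x).1 * uQ K (e₂ x).2)) :=
    ((t₀.const_mul _).add (t₁.const_mul _)).add (t₂.const_mul _)
  have hmono := integral_mono_of_nonneg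
    (Filter.Eventually.of_forall fun x => abs_nonneg (triK F₀ F₁ F₂ x - triK H₀ H₁ H₂ x)) hint
    (Filter.Eventually.of_forall hpt)
  refine hmono.trans (le_of_eq ?_)
  have s₀ : Integrable (fun x : ℝ × ℝ × ℝ => M * M * (g₀ (e₀ x).1 * uQ K (e₀ x).2)) :=
    t₀.const_mul _
  have s₁ : Integrable (fun x : ℝ × ℝ × ℝ => M * M * (g₁ (e₁ x).1 * uQ K (e₁ x).2)) :=
    t₁.const_mul _
  have s₂ : Integrable (fun x : ℝ × ℝ × ℝ => M * M * (g₂ (e₂ x).1 * uQ K (e₂ x).2)) :=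
    t₂.const_mul _
  have s₀₁ : Integrable (fun x : ℝ × ℝ × ℝ => M * M * (g₀ (e₀ x).1 * uQ K (e₀ x).2)
      + M * M * (g₁ (e₁ x).1 * uQ K (e₁ x).2)) := s₀.add s₁
  rw [integral_add s₀₁ s₂, integral_add s₀ s₁, integral_const_mul, integral_const_mul,
    integral_const_mul, v₀, v₁, v₂]
  ring

end Vale.Agent.Lib.P075
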